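import Mathlib

/-!
# Abelian `p`-groups with few small cyclic factors
-/

namespace P179B

/-- The numbers `j i = max (i, ⌈i (i + 1) / 4⌉)`: `1, 2, 3, 5, 8, 11, ...` for `i ≥ 1`. -/
def facJ (i : ℕ) : ℕ := max i ((i * (i + 1) + 3) / 4)

/-- The thresholds `n 1 = 1`, `n 2 = 2` and `n i = 1 + (i - 1) (j i)` for `i ≥ 3`, where
`j i = max (i, ⌈i (i + 1) / 4⌉)`: `n 3 = 7`, `n 4 = 16`, `n 5 = 33`, `n 6 = 56`. -/
def facN (i : ℕ) : ℕ := if i ≤ 2 then i else 1 + (i - 1) * facJ i

/-- For every `i ≥ 1` the `i`-th smallest cyclic factor of the abelian `p`-group `D` has order at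
least `p ^ (n i)` (`n 1 = 1`, `n 2 = 2`, `n 3 = 7`, `n 4 = 16`, ..., see `facN`): fewer than `i`
cyclic factors of `D` have order less than `p ^ (n i)`. So the smallest factor is arbitrary, the
second one has order at least `p ^ 2`, the third one at least `p ^ 7`, and so on. In terms of
elements: the group of the `x ∈ D` with `x ^ p = 1` has at most `p ^ (i - 1)` times as many elements
as its subgroup of the `p ^ (n i - 1)`-th powers of elements of `D`. -/
def GrowingFactors (p : ℕ) {G : Type*} [Group G] (D : Subgroup G) : Prop :=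
  ∀ i : ℕ, 1 ≤ i → Nat.card {x : G // x ∈ D ∧ x ^ p = 1} ≤
    p ^ (i - 1) * Nat.card {x : G // (∃ y ∈ D, y ^ p ^ (facN i - 1) = x) ∧ x ^ p = 1}

end P179B
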