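import Vale.Agent.P179.R2.H92.RegFth
import Vale.Agent.P179.R2.H843.Eee
import Vale.Agent.P179.R2.H292.Cop

/-!
# The order of the inertial quotient in terms of the rank of a group of powers
-/

namespace P179H92

open Subgroup P179H292

section

variable {G : Type*} [Group G] [Finite G] {D T : Subgroup G}

theorem prod_mono {p : ℕ} (hp : 1 < p) {a b : ℕ} (h : a ≤ b) :
    ∏ t ∈ Finset.range a, (p ^ (t + 1) - 1) ≤ ∏ t ∈ Finset.range b, (p ^ (t + 1) - 1) := by
  induction b, h using Nat.le_induction with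
  | base => exact le_rfl
  | succ b _ ih =>
    rw [Finset.prod_range_succ]
    refine ih.trans (Nat.le_mul_of_pos_right _ ?_)
    have h1 : 1 < p ^ (b + 1) := Nat.one_lt_pow (Nat.succ_ne_zero b) hp
    omega

/-- the centraliser in `T` of the group of the `p ^ m`-th powers acts on `D` as a group acting
faithfully on a group of rank at most `r - s` -/
theorem relIndex_le_kernel {p : ℕ} [hp : Fact p.Prime] (hD : IsPGroup p D)
    (hab : ∀ a ∈ D, ∀ b ∈ D, a * b = b * a) {K : Subgroup G} (hKN : K ≤ normalizer (D : Set G))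
    (hK : ¬ p ∣ (centralizer (D : Set G)).relIndex K) {m s r : ℕ}
    (hr : Nat.card {x // x ∈ D ∧ x ^ p = 1} = p ^ r)
    (hs : Nat.card {x // (∃ d ∈ D, d ^ p ^ m = x) ∧ x ^ p = 1} = p ^ s)
    (hKP : ∀ g ∈ K, ∀ d ∈ D, g * d ^ p ^ m * g⁻¹ = d ^ p ^ m) :
    (centralizer (D : Set G)).relIndex K ≤ ∏ t ∈ Finset.range (r - s), (p ^ (t + 1) - 1) := by
  have hWD : ⁅K, D⁆ ≤ D := comm_le hKN
  have habW : ∀ a ∈ ⁅K, D⁆, ∀ b ∈ ⁅K, D⁆, a * b = b * a := fun a ha b hb =>
    hab a (hWD ha) b (hWD hb)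
  have hst : ∀ g ∈ K, ∀ x ∈ ⁅K, D⁆, g * x * g⁻¹ ∈ ⁅K, D⁆ := by
    intro g hg x hx
    have h1 : g * x * g⁻¹ * x⁻¹ ∈ ⁅K, D⁆ := commutator_mem_commutator hg (hWD hx)
    have h2 := mul_mem h1 hx
    rwa [inv_mul_cancel_right] at h2
  have hKW : K ≤ normalizer ((⁅K, D⁆ : Subgroup G) : Set G) := by
    intro g hg
    rw [mem_normalizer_iff]
    intro x
    refine ⟨fun hx => hst g hg x hx, fun hx => ?_⟩
    have h1 := hst g⁻¹ (inv_mem hg) _ hx
    have e : g⁻¹ * (g * x * g⁻¹) * g⁻¹⁻¹ = x := by group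
    rwa [e] at h1
  have heq : (centralizer (D : Set G)).relIndex K =
      (centralizer ((⁅K, D⁆ : Subgroup G) : Set G)).relIndex K := by
    have h1 : (centralizer (D : Set G)).subgroupOf K =
        (centralizer ((⁅K, D⁆ : Subgroup G) : Set G)).subgroupOf K := by
      ext g
      rw [mem_subgroupOf, mem_subgroupOf]
      refine ⟨fun h => centralizer_le hWD h, fun h => mem_centralizer_iff.2 fun x hx => ?_⟩
      obtain ⟨y, hy, hyK, z, hz, rfl⟩ := mem_fix_mul hD hab hKN hK hx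
      have h2 := mem_centralizer_iff.1 h z hz
      have h3 : (g : G) * y = y * g := mul_inv_eq_iff_eq_mul.1 (hyK g g.2)
      rw [mul_assoc, h2, ← mul_assoc, ← h3, mul_assoc]
    unfold Subgroup.relIndex
    rw [h1]
  -- the rank of `[K, D]`
  have hPW : IsPGroup p (omS habW p) := (hD.to_le hWD).to_le fun x hx => hx.1
  obtain ⟨r', hr'⟩ := IsPGroup.iff_card.1 hPW
  have hrs : r' + s ≤ r := by
    have hinj : Nat.card (omS habW p × {x // (∃ d ∈ D, d ^ p ^ m = x) ∧ x ^ p = 1}) ≤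
        Nat.card {x // x ∈ D ∧ x ^ p = 1} := by
      have hmem : ∀ z : omS habW p × {x // (∃ d ∈ D, d ^ p ^ m = x) ∧ x ^ p = 1},
          (z.1 : G) * (z.2 : G) ∈ D ∧ ((z.1 : G) * (z.2 : G)) ^ p = 1 := by
        rintro ⟨⟨a, ha, ha1⟩, ⟨b, ⟨y, hy, hyb⟩, hb1⟩⟩
        have hb : b ∈ D := hyb ▸ pow_mem hy _
        have hc : Commute a b := hab a (hWD ha) b hb
        refine ⟨mul_mem (hWD ha) hb, ?_⟩
        rw [hc.mul_pow, ha1, hb1, mul_one]
      refine Nat.card_le_card_of_injective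
        (fun z => (⟨(z.1 : G) * (z.2 : G), hmem z⟩ : {x // x ∈ D ∧ x ^ p = 1})) ?_
      rintro ⟨⟨a, ha, ha1⟩, ⟨b, ⟨y, hy, hyb⟩, hb1⟩⟩ ⟨⟨a', ha', ha1'⟩, ⟨b', ⟨y', hy', hyb'⟩, hb1'⟩⟩ h
      have h1 : a * b = a' * b' := congrArg Subtype.val h
      have hb : b ∈ D := hyb ▸ pow_mem hy _
      have hb' : b' ∈ D := hyb' ▸ pow_mem hy' _
      have h2 : a'⁻¹ * a = b' * b⁻¹ := by
        rw [inv_mul_eq_iff_eq_mul, ← mul_assoc, ← h1, mul_inv_cancel_right]
      have h3 : a'⁻¹ * a = 1 := by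
        refine comm_inf_fix hD hab hKN hK (mul_mem (inv_mem ha') ha) fun g hg => ?_
        rw [h2, ← hyb, ← hyb']
        have e : g * (y' ^ p ^ m * (y ^ p ^ m)⁻¹) * g⁻¹ =
            (g * y' ^ p ^ m * g⁻¹) * (g * y ^ p ^ m * g⁻¹)⁻¹ := by group
        rw [e, hKP g hg y' hy', hKP g hg y hy]
      have h4 : a = a' := by
        rw [inv_mul_eq_one] at h3
        exact h3.symm
      have h5 : b = b' := by
        rw [h4] at h1
        exact mul_left_cancel h1
      subst h4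
      subst h5
      rfl
    rw [Nat.card_prod, hr', hs, hr, ← pow_add] at hinj
    exact (Nat.pow_le_pow_iff_right hp.out.one_lt).1 hinj
  rw [heq] at hK ⊢
  have h1 := P179H843.relIndex_le_prod (hD.to_le hWD) habW hKW hK (r := r') hr'
  exact h1.trans (prod_mono hp.out.one_lt (by omega))

/-- **the order of the inertial quotient**: `D` of rank `r`, the group of the `p ^ m`-th powers of
rank `s` -/
theorem relIndex_le_two {p : ℕ} [hp : Fact p.Prime] (hD : IsPGroup p D)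
    (hab : ∀ a ∈ D, ∀ b ∈ D, a * b = b * a) (hTN : T ≤ normalizer (D : Set G))
    (hT : ¬ p ∣ (centralizer (D : Set G)).relIndex T) {m s r : ℕ}
    (hr : Nat.card {x // x ∈ D ∧ x ^ p = 1} = p ^ r)
    (hs : Nat.card {x // (∃ d ∈ D, d ^ p ^ m = x) ∧ x ^ p = 1} = p ^ s) :
    (centralizer (D : Set G)).relIndex T ≤ (∏ t ∈ Finset.range s, (p ^ (t + 1) - 1)) *
      ∏ t ∈ Finset.range (r - s), (p ^ (t + 1) - 1) := by
  have hle : pwS hab (p ^ m) ≤ D := pwS_le hab _
  have hab' : ∀ a ∈ pwS hab (p ^ m), ∀ b ∈ pwS hab (p ^ m), a * b = b * a := fun a ha b hb =>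
    hab a (hle ha) b (hle hb)
  have hTN' : T ≤ normalizer ((pwS hab (p ^ m) : Subgroup G) : Set G) := by
    intro t ht
    rw [mem_normalizer_iff]
    intro y
    refine ⟨fun hy => conj_mem_pwS hab (hTN ht) hy, fun hy => ?_⟩
    have h1 := conj_mem_pwS hab (inv_mem (hTN ht)) hy
    have e : t⁻¹ * (t * y * t⁻¹) * t⁻¹⁻¹ = y := by group
    rwa [e] at h1
  have hcle : centralizer (D : Set G) ≤ centralizer ((pwS hab (p ^ m) : Subgroup G) : Set G) :=
    centralizer_le hle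
  set C := centralizer (D : Set G) with hC
  set P := centralizer ((pwS hab (p ^ m) : Subgroup G) : Set G) with hP
  have hT' : ¬ p ∣ P.relIndex T := fun h1 => hT (h1.trans (relIndex_dvd_of_le_left T hcle))
  have h1 : P.relIndex T ≤ ∏ t ∈ Finset.range s, (p ^ (t + 1) - 1) := by
    refine P179H843.relIndex_le_prod (hD.to_le hle) hab' hTN' hT' ?_
    rw [← hs]
    rfl
  have hmul : C.relIndex (P ⊓ T) * P.relIndex T = C.relIndex T := by
    have h2 := relIndex_mul_relIndex (C ⊓ T) (P ⊓ T) T (inf_le_inf_right T hcle) inf_le_right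
    rw [inf_relIndex_right, inf_relIndex_right] at h2
    rw [← h2]
    congr 1
    have h3 : (C ⊓ T).subgroupOf (P ⊓ T) = C.subgroupOf (P ⊓ T) := by
      ext g
      rw [mem_subgroupOf, mem_subgroupOf, mem_inf]
      exact ⟨fun h => h.1, fun h => ⟨h, (mem_inf.1 g.2).2⟩⟩
    unfold Subgroup.relIndex
    rw [h3]
  have hK : ¬ p ∣ C.relIndex (P ⊓ T) := fun h => hT (by rw [← hmul]; exact h.mul_right _)
  have h2 : C.relIndex (P ⊓ T) ≤ ∏ t ∈ Finset.range (r - s), (p ^ (t + 1) - 1) := by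
    refine relIndex_le_kernel hD hab (inf_le_right.trans hTN) hK hr hs fun g hg d hd => ?_
    have h3 := mem_centralizer_iff.1 (mem_inf.1 hg).1 (d ^ p ^ m) ⟨d, hd, rfl⟩
    rw [mul_inv_eq_iff_eq_mul]
    exact h3.symm
  rw [← hmul, mul_comm]
  exact Nat.mul_le_mul h1 h2

end

end P179H92
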