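import Vale.Agent.P179.R2.H92.RegAll
import Vale.Agent.P179.R2.H92.IdxTwo
import Vale.Agent.P179.R2.H666.Thr4

/-!
# Regular cosets for the class `GrowingFactors`
-/

namespace P179H92

open Subgroup P179H292

open P179B (facJ facN GrowingFactors)

open P179H351 (HasRegCoset)

section

variable {G : Type*} [Group G] [Finite G] {D : Subgroup G}

/-- the ranks of the groups of powers -/
theorem exists_ranks {p : ℕ} [hp : Fact p.Prime] (hD : IsPGroup p D)
    (hab : ∀ a ∈ D, ∀ b ∈ D, a * b = b * a) :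
    ∃ d : ℕ → ℕ, (∀ i, Nat.card {x // (∃ y ∈ D, y ^ p ^ i = x) ∧ x ^ p = 1} = p ^ d i) ∧
      (∀ i i', i ≤ i' → d i' ≤ d i) ∧ (∃ m, d m = 0) ∧
      ∀ i, 1 ≤ d i → ∃ y ∈ D, y ^ p ^ i ≠ 1 := by
  have h1 : ∀ i, ∃ s, Nat.card {x // (∃ y ∈ D, y ^ p ^ i = x) ∧ x ^ p = 1} = p ^ s := by
    intro i
    have hab' : ∀ a ∈ pwS hab (p ^ i), ∀ b ∈ pwS hab (p ^ i), a * b = b * a := fun a ha b hb =>
      hab a (pwS_le hab _ ha) b (pwS_le hab _ hb)
    have h2 : IsPGroup p (omS hab' p) := (hD.to_le (pwS_le hab (p ^ i))).to_le fun x hx => hx.1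
    obtain ⟨s, hs⟩ := IsPGroup.iff_card.1 h2
    exact ⟨s, hs⟩
  choose d hd using h1
  refine ⟨d, hd, ?_, ?_, ?_⟩
  · intro i i' h
    refine (Nat.pow_le_pow_iff_right hp.out.one_lt).1 ?_
    rw [← hd, ← hd]
    refine Nat.card_mono (Set.toFinite {x | (∃ y ∈ D, y ^ p ^ i = x) ∧ x ^ p = 1}) ?_
    rintro x ⟨⟨y, hy, rfl⟩, hx⟩
    obtain ⟨c, rfl⟩ := Nat.exists_eq_add_of_le h
    exact ⟨⟨y ^ p ^ c, pow_mem hy _, by rw [← pow_mul, ← pow_add, add_comm c i]⟩, hx⟩
  · obtain ⟨a, ha⟩ := IsPGroup.iff_card.1 hD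
    refine ⟨a, ?_⟩
    have h2 : Nat.card {x // (∃ y ∈ D, y ^ p ^ a = x) ∧ x ^ p = 1} = 1 := by
      rw [Nat.card_eq_one_iff_unique]
      refine ⟨⟨?_⟩, ⟨⟨1, ⟨1, one_mem _, one_pow _⟩, one_pow _⟩⟩⟩
      have h3 : ∀ y ∈ D, y ^ p ^ a = 1 := by
        intro y hy
        have h4 := pow_card_eq_one' (x := (⟨y, hy⟩ : D))
        rw [ha] at h4
        simpa using congrArg Subtype.val h4
      rintro ⟨x, ⟨y, hy, hyx⟩, -⟩ ⟨x', ⟨y', hy', hyx'⟩, -⟩
      apply Subtype.ext
      change x = x'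
      rw [← hyx, ← hyx', h3 y hy, h3 y' hy']
    rw [hd] at h2
    by_contra hcon
    have := Nat.one_lt_pow hcon hp.out.one_lt
    omega
  · intro i hi
    by_contra hcon
    push Not at hcon
    have h2 : Nat.card {x // (∃ y ∈ D, y ^ p ^ i = x) ∧ x ^ p = 1} ≤ 1 := by
      rw [Finite.card_le_one_iff_subsingleton]
      refine ⟨?_⟩
      rintro ⟨x, ⟨y, hy, hyx⟩, -⟩ ⟨x', ⟨y', hy', hyx'⟩, -⟩
      apply Subtype.ext
      change x = x'
      rw [← hyx, ← hyx', hcon y hy, hcon y' hy']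
    rw [hd] at h2
    have := Nat.one_lt_pow (show d i ≠ 0 by omega) hp.out.one_lt
    omega

/-- the regular elements modulo `D ^ (p ^ j)` are regular -/
theorem card_good_le {T : Subgroup G} {p j : ℕ} :
    Nat.card {w : G // w ∈ D ∧ (∀ i : ℕ, (∃ d ∈ D, w ^ i = d ^ p ^ j) → p ^ j ∣ i) ∧
      (∀ t ∈ T, (∃ d ∈ D, t * w * t⁻¹ * w⁻¹ = d ^ p ^ j) → t ∈ centralizer (D : Set G))} ≤
    Nat.card {w : G // w ∈ D ∧ ∀ t ∈ T, t * w * t⁻¹ = w → t ∈ centralizer (D : Set G)} := by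
  refine Nat.card_mono (Set.toFinite {w : G | w ∈ D ∧ ∀ t ∈ T, t * w * t⁻¹ = w →
    t ∈ centralizer (D : Set G)}) ?_
  rintro w ⟨hw, -, h⟩
  refine ⟨hw, fun t ht htw => h t ht ⟨1, one_mem _, ?_⟩⟩
  rw [htw, mul_inv_cancel, one_pow]

/-- the regular coset, the count and the order, for the groups of the class of rank at least
three -/
theorem hasRegCoset_of_growing {p : ℕ} [hp : Fact p.Prime] (hp2 : 2 < p) {T : Subgroup G} {r : ℕ}
    (hG : GrowingFactors p D) (hab : ∀ a ∈ D, ∀ b ∈ D, a * b = b * a) (hD : IsPGroup p D)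
    (hTN : T ≤ normalizer (D : Set G)) (hT : ¬ p ∣ (centralizer (D : Set G)).relIndex T)
    (hr : Nat.card {x : G // x ∈ D ∧ x ^ p = 1} = p ^ r) (hr3 : 3 ≤ r) : HasRegCoset p D T := by
  obtain ⟨d, hd, hanti, hex, hne⟩ := exists_ranks hD hab
  have hd0 : d 0 = r := by
    have h1 := hd 0
    have h2 : Nat.card {x // (∃ y ∈ D, y ^ p ^ 0 = x) ∧ x ^ p = 1} =
        Nat.card {x : G // x ∈ D ∧ x ^ p = 1} := by
      refine Nat.card_congr (Equiv.subtypeEquivRight fun x => and_congr_left fun _ => ?_)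
      constructor
      · rintro ⟨y, hy, rfl⟩
        exact pow_mem hy _
      · intro hx
        exact ⟨x, hx, by rw [pow_zero, pow_one]⟩
    rw [h2, hr] at h1
    exact (Nat.pow_right_injective hp.out.two_le h1).symm
  -- the largest exponent
  classical
  obtain ⟨m, hdm, hdm1⟩ : ∃ m, 1 ≤ d m ∧ d (m + 1) = 0 := by
    have h1 := Nat.find_spec hex
    have h2 : Nat.find hex ≠ 0 := by
      intro h
      rw [h, hd0] at h1
      omega
    refine ⟨Nat.find hex - 1, ?_, ?_⟩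
    · have h3 := Nat.find_min hex (m := Nat.find hex - 1) (by omega)
      omega
    · have h3 : Nat.find hex - 1 + 1 = Nat.find hex := by omega
      rw [h3]
      exact h1
  -- the class
  have hcls : ∀ i, 1 ≤ i → r ≤ i - 1 + d (facN i - 1) := by
    intro i hi
    have h1 := hG i hi
    rw [hr, hd, ← pow_add] at h1
    exact (Nat.pow_le_pow_iff_right hp.out.one_lt).1 h1
  have hNm : facN r ≤ m + 1 := by
    by_contra hcon
    have h1 := hcls r (by omega)
    have h2 := hanti (m + 1) (facN r - 1) (by omega)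
    omega
  set j := facJ r with hj
  have hrj : r ≤ j := P179H666.le_facJ r
  have h4 : r * (r + 1) ≤ 4 * j := P179H666.mul_le_facJ r
  have hjN : j * (r - 1) < facN r := P179H666.facJ_mul_lt hr3
  have hj2 : 2 * j ≤ j * (r - 1) := by
    rw [mul_comm]
    exact Nat.mul_le_mul_left _ (by omega)
  have hri : ∀ i < m + 1, d i ≤ d (i + 1) + (i + 1) := by
    intro i _
    by_contra hcon
    push Not at hcon
    have h1 := hanti 0 i (by omega)
    rw [hd0] at h1
    obtain ⟨q, hq⟩ : ∃ q, r = q + d (i + 1) := ⟨r - d (i + 1), by omega⟩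
    have hq1 : 1 ≤ q := by omega
    have h2 := hcls q hq1
    have h3 := P179H666.le_facN q
    by_cases h5 : facN q ≤ i + 1
    · omega
    · have h6 := hanti (i + 1) (facN q - 1) (by omega)
      omega
  have hrj' : ∀ i < m + 1, d i ≤ d (i + 1) + j := by
    intro i _
    have h1 := hanti 0 i (by omega)
    omega
  have hcount := card_reg_ge hD hab hTN hT hd hdm1 hdm (by omega : 1 ≤ j) (by omega) hri hrj'
  rw [hd0] at hcount
  set e := (centralizer (D : Set G)).relIndex T with he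
  set A := Nat.card {w : G // w ∈ D ∧ (∀ i : ℕ, (∃ d ∈ D, w ^ i = d ^ p ^ j) → p ^ j ∣ i) ∧
      (∀ t ∈ T, (∃ d ∈ D, t * w * t⁻¹ * w⁻¹ = d ^ p ^ j) → t ∈ centralizer (D : Set G))} with hA
  have hD0 : 0 < Nat.card D := Nat.card_pos
  have hp1 : 0 < (p - 1) ^ r := pow_pos (by omega) _
  have hA0 : 0 < A := by
    by_contra hcon
    have h1 : A = 0 := by omega
    rw [h1, mul_zero] at hcount
    have := Nat.mul_pos hp1 hD0
    omega
  obtain ⟨⟨w, hw, ho, hreg⟩⟩ := (Nat.card_pos_iff.1 hA0).1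
  refine ⟨m, j, p ^ j, w, hne m hdm, by omega, hw, pow_pos hp.out.pos _, ho, hreg, ?_, ?_, ?_⟩
  · -- the count
    rcases Nat.lt_or_ge (d m) r with hs | hs
    · have hE := relIndex_le_two hD hab hTN hT hr (hd m)
      have h1 := P179H666.lemma_CQ hp2 hdm hs h4 hE
      have h2 : e * Nat.card D * (p - 1) ^ r < p ^ (2 * j) * A * (p - 1) ^ r := by
        calc e * Nat.card D * (p - 1) ^ r = e * ((p - 1) ^ r * Nat.card D) := by ring
          _ ≤ e * (p ^ r * A) := Nat.mul_le_mul_left _ hcount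
          _ = e * p ^ r * A := by ring
          _ < p ^ (2 * j) * (p - 1) ^ r * A := Nat.mul_lt_mul_of_pos_right h1 hA0
          _ = p ^ (2 * j) * A * (p - 1) ^ r := by ring
      have h3 := Nat.lt_of_mul_lt_mul_right h2
      exact h3.trans_le (Nat.mul_le_mul_left _ card_good_le)
    · -- homocyclic
      have hs' : d m = r := le_antisymm (hd0 ▸ hanti 0 m (Nat.zero_le m)) hs
      have hdiv : ∀ x ∈ D, x ^ p = 1 → ∃ y ∈ D, y ^ p ^ (m + 1 - 1) = x := by
        have h1 : {x : G | (∃ y ∈ D, y ^ p ^ m = x) ∧ x ^ p = 1} = {x : G | x ∈ D ∧ x ^ p = 1} := by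
          refine Set.eq_of_subset_of_ncard_le ?_ ?_ (Set.toFinite _)
          · rintro x ⟨⟨y, hy, rfl⟩, hx⟩
            exact ⟨pow_mem hy _, hx⟩
          · have h2 := hd m
            rw [hs', ← hr] at h2
            exact h2.ge
        intro x hx hx1
        have h2 : x ∈ {x : G | (∃ y ∈ D, y ^ p ^ m = x) ∧ x ^ p = 1} := by
          rw [h1]
          exact ⟨hx, hx1⟩
        rw [Nat.add_sub_cancel]
        exact h2.1
      have hE := P179H843.relIndex_le_prod hD hab hTN hT hr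
      exact regular_count hD hab hTN hT (pow_pos hp.out.pos _) hdiv
        (arith' hp.out.one_le (by omega) hrj h4 (n := m + 1) (by omega)
          (Or.inr (Or.inr (by omega))) hE)
  · -- the bound
    have h1 := card_le_pw hab hr j
    have h5 : p ^ (r * j) * p ≤ p ^ (m + 1) * p ^ j := by
      rw [← pow_succ, ← pow_add]
      refine Nat.pow_le_pow_right hp.out.pos ?_
      obtain ⟨s, rfl⟩ : ∃ s, r = s + 1 := ⟨r - 1, by omega⟩
      rw [Nat.add_sub_cancel] at hjN
      have : (s + 1) * j = j * s + j := by ring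
      omega
    calc Nat.card D * p
        ≤ Nat.card {y : G // ∃ d ∈ D, d ^ p ^ j = y} * p ^ (r * j) * p := Nat.mul_le_mul_right _ h1
      _ = Nat.card {y : G // ∃ d ∈ D, d ^ p ^ j = y} * (p ^ (r * j) * p) := by ring
      _ ≤ Nat.card {y : G // ∃ d ∈ D, d ^ p ^ j = y} * (p ^ (m + 1) * p ^ j) :=
        Nat.mul_le_mul_left _ h5
      _ = p ^ (m + 1) * (Nat.card {y : G // ∃ d ∈ D, d ^ p ^ j = y} * p ^ j) := by ring
  · -- the index
    obtain ⟨c, hc1, hc2, hc3⟩ := prod_le p r (by omega)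
    refine (P179H843.relIndex_le_prod hD hab hTN hT hr).trans (hc3.trans ?_)
    calc (p - 1) * p ^ (c - 1) ≤ p * p ^ (c - 1) := Nat.mul_le_mul_right _ (Nat.sub_le _ _)
      _ = p ^ (c - 1 + 1) := by rw [pow_succ']
      _ ≤ p ^ (m + 1) := Nat.pow_le_pow_right hp.out.pos (by omega)

end

end P179H92
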