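import Vale.Agent.P179.R2.H92.RegHom

/-!
# Elements which are regular modulo `D ^ (p ^ j)`

`D` is an abelian `p`-subgroup of the finite group `G` whose elements of order `p` are
`p ^ (n - 1)`-th powers (the cyclic factors of `D` have order at least `p ^ n`), and `T` normalises
`D` and induces a `p'`-group of automorphisms on `D`.
-/

namespace P179H92

open Subgroup P179H292

section Pow

variable {G : Type*} [Group G] {D T : Subgroup G}

/-- the `m`-th powers of the elements of the abelian group `D` -/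
def pwS (hab : ∀ a ∈ D, ∀ b ∈ D, a * b = b * a) (m : ℕ) : Subgroup G where
  carrier := {y | ∃ d ∈ D, d ^ m = y}
  one_mem' := ⟨1, one_mem _, one_pow _⟩
  mul_mem' := by
    rintro _ _ ⟨x, hx, rfl⟩ ⟨y, hy, rfl⟩
    have h : Commute x y := hab x hx y hy
    exact ⟨x * y, mul_mem hx hy, h.mul_pow _⟩
  inv_mem' := by
    rintro _ ⟨x, hx, rfl⟩
    exact ⟨x⁻¹, inv_mem hx, inv_pow _ _⟩

variable (hab : ∀ a ∈ D, ∀ b ∈ D, a * b = b * a)

theorem mem_pwS {m : ℕ} {y : G} : y ∈ pwS hab m ↔ ∃ d ∈ D, d ^ m = y := Iff.rfl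

theorem pwS_le (m : ℕ) : pwS hab m ≤ D := by
  rintro _ ⟨x, hx, rfl⟩
  exact pow_mem hx _

theorem pwS_mono {p i j : ℕ} (hij : i ≤ j) : pwS hab (p ^ j) ≤ pwS hab (p ^ i) := by
  rintro _ ⟨x, hx, rfl⟩
  obtain ⟨k, rfl⟩ := Nat.exists_eq_add_of_le hij
  refine ⟨x ^ p ^ k, pow_mem hx _, ?_⟩
  rw [← pow_mul, ← pow_add, add_comm k i]

theorem conj_mem_pwS {n : G} (hn : n ∈ normalizer (D : Set G)) {m : ℕ} {y : G}
    (hy : y ∈ pwS hab m) : n * y * n⁻¹ ∈ pwS hab m := by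
  obtain ⟨x, hx, rfl⟩ := hy
  exact ⟨n * x * n⁻¹, (mem_normalizer_iff.1 hn x).1 hx, (conj_pow' n x m).symm⟩

/-- `|D| = |Ω_m(D)| |D^m|` -/
theorem card_eq_mul [Finite G] (m : ℕ) :
    Nat.card D = Nat.card (pwS hab m) * Nat.card (omS hab m) := by
  let f : D →* G :=
    { toFun := fun x => x.1 ^ m
      map_one' := one_pow _
      map_mul' := fun x y => by
        have h : Commute x.1 y.1 := hab _ x.2 _ y.2
        exact h.mul_pow _ }
  have h1 : Nat.card D = Nat.card f.range * Nat.card f.ker := by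
    rw [← Nat.card_congr (QuotientGroup.quotientKerEquivRange f).toEquiv,
      ← Subgroup.card_eq_card_quotient_mul_card_subgroup]
  have h2 : f.range = pwS hab m := by
    ext y
    constructor
    · rintro ⟨x, rfl⟩
      exact ⟨x.1, x.2, rfl⟩
    · rintro ⟨x, hx, rfl⟩
      exact ⟨⟨x, hx⟩, rfl⟩
  have h3 : Nat.card f.ker = Nat.card (omS hab m) :=
    Nat.card_congr
      { toFun := fun x => (⟨x.1.1, x.1.2, x.2⟩ : omS hab m)
        invFun := fun x => ⟨⟨x.1, x.2.1⟩, x.2.2⟩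
        left_inv := fun x => rfl
        right_inv := fun x => rfl }
  rw [h1, h2, h3]

/-- proper subgroups of `p`-groups -/
theorem mul_card_le {p : ℕ} [hp : Fact p.Prime] [Finite G] {A B : Subgroup G} (hB : IsPGroup p B)
    (hAB : A ≤ B) {v : G} (hv : v ∈ B) (hvA : v ∉ A) : p * Nat.card A ≤ Nat.card B := by
  obtain ⟨b, hb⟩ := IsPGroup.iff_card.1 hB
  have hA : IsPGroup p A := hB.to_le hAB
  obtain ⟨a, ha⟩ := IsPGroup.iff_card.1 hA
  have hlt : Nat.card A < Nat.card B := by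
    refine lt_of_le_of_ne (Subgroup.card_le_of_le hAB) fun h => hvA ?_
    rw [Subgroup.eq_of_le_of_card_ge hAB h.ge]
    exact hv
  rw [ha, hb] at hlt
  have h1 := (Nat.pow_lt_pow_iff_right hp.out.one_lt).1 hlt
  rw [ha, hb, ← pow_succ']
  exact Nat.pow_le_pow_right hp.out.pos h1

end Pow

section Fixed

variable {G : Type*} [Group G] [Finite G] {D T : Subgroup G}

/-- if `S` fixes the coset `w P`, then it fixes an element of `w P` -/
theorem exists_fixed_rep {p : ℕ} [hp : Fact p.Prime] (hD : IsPGroup p D)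
    (hab : ∀ a ∈ D, ∀ b ∈ D, a * b = b * a) (hTN : T ≤ normalizer (D : Set G))
    (hT : ¬ p ∣ (centralizer (D : Set G)).relIndex T) {S : Subgroup G} (hS : S ≤ T)
    {P : Subgroup G} {w : G} (hw : w ∈ D) (hwP : ∀ s ∈ S, s * w * s⁻¹ * w⁻¹ ∈ P) :
    ∃ w' ∈ D, w' * w⁻¹ ∈ P ∧ ∀ s ∈ S, s * w' * s⁻¹ = w' := by
  classical
  let C : Subgroup G := centralizer (D : Set G)
  have hm : ¬ p ∣ C.relIndex S := fun h => hT (h.trans (relIndex_dvd hTN hS))
  have hSN : ∀ s ∈ S, s ∈ normalizer (D : Set G) := fun s hs => hTN (hS hs)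
  have hcomm : ∀ a b : D, a * b = b * a := fun a b => Subtype.ext (hab _ a.2 _ b.2)
  let iD : CommGroup D := { (inferInstance : Group D) with mul_comm := hcomm }
  let Q := S ⧸ C.subgroupOf S
  have hfQ : Finite Q := inferInstance
  let _ := Fintype.ofFinite Q
  let act : S → D → D := fun s d => ⟨s * d * (s : G)⁻¹, (mem_normalizer_iff.1 (hSN _ s.2) _).1 d.2⟩
  have hact : ∀ (s : S) (d : D), ((act s d : D) : G) = s * d * (s : G)⁻¹ := fun s d => rfl
  have hactC : ∀ (s t : S) (d : D), (s : Q) = (t : Q) → act s d = act t d := by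
    intro s t d h
    have h1 := QuotientGroup.eq.1 h
    rw [mem_subgroupOf] at h1
    have h2 := mem_centralizer_iff.1 h1 d d.2
    apply Subtype.ext
    rw [hact, hact]
    have h3 : (d : G) * ((s : G)⁻¹ * t) = ((s : G)⁻¹ * t) * d := by simpa using h2
    calc (s : G) * d * (s : G)⁻¹ = s * (d * ((s : G)⁻¹ * t)) * (t : G)⁻¹ := by group
      _ = s * (((s : G)⁻¹ * t) * d) * (t : G)⁻¹ := by rw [h3]
      _ = t * d * (t : G)⁻¹ := by group
  have hactmul : ∀ (s : S) (d e : D), act s (d * e) = act s d * act s e := by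
    intro s d e
    apply Subtype.ext
    rw [Subgroup.coe_mul, hact, hact, hact, Subgroup.coe_mul]
    group
  have hactact : ∀ (s t : S) (d : D), act s (act t d) = act (s * t) d := by
    intro s t d
    apply Subtype.ext
    rw [hact, hact, hact, Subgroup.coe_mul]
    group
  let w0 : D := ⟨w, hw⟩
  let N : D := ∏ q : Q, act q.out w0
  have hNinv : ∀ s : S, act s N = N := by
    intro s
    let F : D →* D :=
      { toFun := act s
        map_one' := by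
          apply Subtype.ext
          rw [hact]
          simp
        map_mul' := hactmul s }
    have h1 : act s N = F N := rfl
    have h2 : F N = ∏ q : Q, F (act q.out w0) := map_prod F _ _
    rw [h1, h2]
    refine Fintype.prod_equiv (MulAction.toPerm s : Equiv.Perm Q) _ _ fun q => ?_
    change act s (act q.out w0) = act ((s • q : Q)).out w0
    rw [hactact]
    apply hactC
    have h3 : ((s * q.out : S) : Q) = s • q := by
      conv_rhs => rw [← QuotientGroup.out_eq' q]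
      rfl
    rw [h3, QuotientGroup.out_eq']
  -- the product lies in `w ^ |S : C| P`
  have hNw : N * (w0 ^ C.relIndex S)⁻¹ ∈ P.subgroupOf D := by
    have h1 : w0 ^ C.relIndex S = ∏ _q : Q, w0 := by
      rw [Finset.prod_const, Finset.card_univ, ← Nat.card_eq_fintype_card]
      rfl
    have h2 : N * (w0 ^ C.relIndex S)⁻¹ = ∏ q : Q, (act q.out w0 * w0⁻¹) := by
      rw [h1, Finset.prod_mul_distrib, Finset.prod_inv_distrib]
    rw [h2]
    refine Subgroup.prod_mem _ fun q _ => ?_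
    rw [mem_subgroupOf, Subgroup.coe_mul, hact, Subgroup.coe_inv]
    exact hwP _ q.out.2
  -- inverse of the index
  obtain ⟨a, ha⟩ := hD ⟨w, hw⟩
  have ha' : w ^ p ^ a = 1 := by simpa using congrArg Subtype.val ha
  have hcop : (C.relIndex S).Coprime (p ^ a) :=
    ((Nat.Prime.coprime_iff_not_dvd hp.out).2 hm).symm.pow_right a
  obtain ⟨m', hm'⟩ : ∃ m' : ℕ, w ^ (C.relIndex S * m') = w := by
    have h1 : (C.relIndex S).Coprime (orderOf w) :=
      hcop.coprime_dvd_right (orderOf_dvd_of_pow_eq_one ha')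
    obtain ⟨i, hi⟩ := exists_pow_eq_self_of_coprime (x := w) (n := C.relIndex S) h1
    exact ⟨i, by rw [pow_mul]; exact hi⟩
  refine ⟨(N : G) ^ m', pow_mem N.2 _, ?_, ?_⟩
  · have h1 : (N ^ m' * w0⁻¹ : D) ∈ P.subgroupOf D := by
      have h2 : w0 = (w0 ^ C.relIndex S) ^ m' := by
        apply Subtype.ext
        rw [← pow_mul, Subgroup.coe_pow]
        exact hm'.symm
      have h3 : (N ^ m' * w0⁻¹ : D) = (N * (w0 ^ C.relIndex S)⁻¹) ^ m' := by
        rw [mul_pow, inv_pow, ← h2]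
      rw [h3]
      exact pow_mem hNw _
    rw [mem_subgroupOf, Subgroup.coe_mul, Subgroup.coe_inv, Subgroup.coe_pow] at h1
    exact h1
  · intro s hs
    rw [conj_pow']
    congr 1
    exact congrArg Subtype.val (hNinv ⟨s, hs⟩)

/-- `D = F D^p` implies `F = D` -/
theorem frattini {p : ℕ} [hp : Fact p.Prime] (hD : IsPGroup p D)
    (hab : ∀ a ∈ D, ∀ b ∈ D, a * b = b * a) {F : Subgroup G} (hFD : F ≤ D)
    (h : ∀ x ∈ D, ∃ f ∈ F, f * x⁻¹ ∈ pwS hab p) : F = D := by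
  apply le_antisymm hFD
  have key : ∀ k : ℕ, ∀ x ∈ D, ∃ f ∈ F, f * x⁻¹ ∈ pwS hab (p ^ k) := by
    intro k
    induction k with
    | zero =>
      intro x hx
      refine ⟨1, one_mem _, x⁻¹, inv_mem hx, ?_⟩
      rw [pow_zero, pow_one, one_mul]
    | succ k ih =>
      intro x hx
      obtain ⟨f, hf, d, hd, hdx⟩ := ih x hx
      obtain ⟨f', hf', y, hy, hyd⟩ := h d hd
      -- `f x⁻¹ = d ^ (p^k)`, `f' d⁻¹ = y ^ p`
      refine ⟨f * (f' ^ p ^ k)⁻¹, mul_mem hf (inv_mem (pow_mem hf' _)), y⁻¹, inv_mem hy, ?_⟩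
      have hc1 : Commute f' d⁻¹ := hab _ (hFD hf') _ (inv_mem hd)
      have h1 : y ^ p ^ (k + 1) = f' ^ p ^ k * (d ^ p ^ k)⁻¹ := by
        rw [pow_succ', pow_mul, hyd, hc1.mul_pow, inv_pow]
      have hc2 : f * (f' ^ p ^ k)⁻¹ = (f' ^ p ^ k)⁻¹ * f :=
        hab _ (hFD hf) _ (inv_mem (pow_mem (hFD hf') _))
      rw [inv_pow, h1, hc2, mul_assoc, ← hdx, mul_inv_rev, inv_inv]
      exact hab _ (pow_mem hd _) _ (inv_mem (pow_mem (hFD hf') _))
  intro x hx
  obtain ⟨a, ha⟩ := IsPGroup.iff_card.1 hD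
  obtain ⟨f, hf, d, hd, hdx⟩ := key a x hx
  have h1 : d ^ p ^ a = 1 := by
    have h2 := pow_card_eq_one' (x := (⟨d, hd⟩ : D))
    rw [ha] at h2
    simpa using congrArg Subtype.val h2
  rw [h1] at hdx
  have h3 : f = x := by
    have := hdx.symm
    rwa [mul_inv_eq_one] at this
  rw [← h3]
  exact hf

/-- an element of `T` which acts trivially on `D / D^p` centralises `D` -/
theorem centralises_of_frattini {p : ℕ} [hp : Fact p.Prime] (hD : IsPGroup p D)
    (hab : ∀ a ∈ D, ∀ b ∈ D, a * b = b * a) (hTN : T ≤ normalizer (D : Set G))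
    (hT : ¬ p ∣ (centralizer (D : Set G)).relIndex T) {n : G} (hn : n ∈ T)
    (h : ∀ x ∈ D, n * x * n⁻¹ * x⁻¹ ∈ pwS hab p) : n ∈ centralizer (D : Set G) := by
  let F : Subgroup G :=
    { carrier := {x | x ∈ D ∧ n * x * n⁻¹ = x}
      one_mem' := ⟨one_mem _, by group⟩
      mul_mem' := by
        rintro x y ⟨hx, hx'⟩ ⟨hy, hy'⟩
        refine ⟨mul_mem hx hy, ?_⟩
        have e : n * (x * y) * n⁻¹ = (n * x * n⁻¹) * (n * y * n⁻¹) := by group
        rw [e, hx', hy']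
      inv_mem' := by
        rintro x ⟨hx, hx'⟩
        refine ⟨inv_mem hx, ?_⟩
        have e : n * x⁻¹ * n⁻¹ = (n * x * n⁻¹)⁻¹ := by group
        rw [e, hx'] }
  have hF : F = D := by
    refine frattini hD hab (fun x hx => hx.1) fun x hx => ?_
    -- the subgroup generated by `n`
    have hnx : ∀ s ∈ Subgroup.zpowers n, s * x * s⁻¹ * x⁻¹ ∈ pwS hab p := by
      let S : Subgroup G :=
        { carrier := {s | s ∈ T ∧ ∀ y ∈ D, s * y * s⁻¹ * y⁻¹ ∈ pwS hab p}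
          one_mem' := ⟨one_mem _, fun y _ => by
            have : (1 : G) * y * 1⁻¹ * y⁻¹ = 1 := by group
            rw [this]; exact one_mem _⟩
          mul_mem' := by
            rintro s t ⟨hs, hs'⟩ ⟨ht, ht'⟩
            refine ⟨mul_mem hs ht, fun y hy => ?_⟩
            have hty : t * y * t⁻¹ ∈ D := (mem_normalizer_iff.1 (hTN ht) y).1 hy
            have e : s * t * y * (s * t)⁻¹ * y⁻¹ =
                (s * (t * y * t⁻¹) * s⁻¹ * (t * y * t⁻¹)⁻¹) * (t * y * t⁻¹ * y⁻¹) := by group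
            rw [e]
            exact mul_mem (hs' _ hty) (ht' y hy)
          inv_mem' := by
            rintro s ⟨hs, hs'⟩
            refine ⟨inv_mem hs, fun y hy => ?_⟩
            have hsy : s⁻¹ * y * s⁻¹⁻¹ ∈ D := (mem_normalizer_iff.1 (hTN (inv_mem hs)) y).1 hy
            have h1 := hs' _ hsy
            have e : s⁻¹ * y * s⁻¹⁻¹ * y⁻¹ =
                (s * (s⁻¹ * y * s⁻¹⁻¹) * s⁻¹ * (s⁻¹ * y * s⁻¹⁻¹)⁻¹)⁻¹ := by group
            rw [e]
            exact inv_mem h1 }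
      have hle : Subgroup.zpowers n ≤ S := by
        rw [Subgroup.zpowers_le]
        exact ⟨hn, h⟩
      intro s hs
      exact (hle hs).2 x hx
    obtain ⟨w', hw', hwP, hfix⟩ := exists_fixed_rep hD hab hTN hT
      (S := Subgroup.zpowers n) (by rw [Subgroup.zpowers_le]; exact hn) hx hnx
    exact ⟨w', ⟨hw', hfix n (Subgroup.mem_zpowers n)⟩, hwP⟩
  rw [mem_centralizer_iff]
  intro d hd
  have hd' : d ∈ F := by rw [hF]; exact hd
  have h1 : n * d * n⁻¹ = d := hd'.2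
  rw [mul_inv_eq_iff_eq_mul] at h1
  exact h1.symm

end Fixed

section Reg

variable {G : Type*} [Group G] {D : Subgroup G}
  (hab : ∀ a ∈ D, ∀ b ∈ D, a * b = b * a)

/-- `Ω_i(D) ≤ D^p` -/
theorem om_le_pw {p n : ℕ} (hdiv : ∀ x ∈ D, x ^ p = 1 → ∃ y ∈ D, y ^ p ^ n = x) {i : ℕ}
    (hi : i ≤ n) {x : G} (hx : x ∈ D) (hxi : x ^ p ^ i = 1) : x ∈ pwS hab p := by
  obtain ⟨y, hy, hyx⟩ := exists_root hab hdiv i (by omega) x hx hxi
  refine ⟨y ^ p ^ (n - i), pow_mem hy _, ?_⟩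
  rw [← pow_mul, ← pow_succ, ← hyx]
  congr 2
  omega

/-- cancelling powers -/
theorem cancel_pow {p n : ℕ} (hdiv : ∀ x ∈ D, x ^ p = 1 → ∃ y ∈ D, y ^ p ^ n = x) {i : ℕ}
    (hi : i ≤ n) {x : G} (hx : x ∈ D) (h : x ^ p ^ i ∈ pwS hab (p ^ (i + 1))) :
    x ∈ pwS hab p := by
  obtain ⟨d, hd, hdx⟩ := h
  have hc : Commute x (d ^ p)⁻¹ := hab _ hx _ (inv_mem (pow_mem hd _))
  have h1 : x * (d ^ p)⁻¹ ∈ pwS hab p := by
    refine om_le_pw hab hdiv hi (mul_mem hx (inv_mem (pow_mem hd _))) ?_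
    rw [hc.mul_pow, ← hdx, inv_pow, ← pow_mul, ← pow_succ', mul_inv_cancel]
  have h2 : d ^ p ∈ pwS hab p := ⟨d, hd, rfl⟩
  have h3 := mul_mem h1 h2
  rwa [inv_mul_cancel_right] at h3

/-- the order modulo `D ^ (p ^ i)` of an element outside `D ^ p` -/
theorem pow_dvd_of_mem {p n : ℕ} [hp : Fact p.Prime] (hD : IsPGroup p D)
    (hdiv : ∀ x ∈ D, x ^ p = 1 → ∃ y ∈ D, y ^ p ^ n = x) {w : G} (hw : w ∈ D)
    (hwp : w ∉ pwS hab p) : ∀ i : ℕ, i ≤ n + 1 → ∀ m : ℕ, w ^ m ∈ pwS hab (p ^ i) → p ^ i ∣ m := by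
  have h1 : ∀ m : ℕ, w ^ m ∈ pwS hab p → p ∣ m := by
    intro m hm
    by_contra hpm
    apply hwp
    obtain ⟨a, ha⟩ := hD ⟨w, hw⟩
    have ha' : w ^ p ^ a = 1 := by simpa using congrArg Subtype.val ha
    have hcop : m.Coprime (orderOf w) :=
      (((Nat.Prime.coprime_iff_not_dvd hp.out).2 hpm).symm.pow_right a).coprime_dvd_right
        (orderOf_dvd_of_pow_eq_one ha')
    obtain ⟨m', hm'⟩ := exists_pow_eq_self_of_coprime hcop
    rw [← hm']
    exact pow_mem hm _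
  intro i
  induction i with
  | zero =>
    intro _ m _
    rw [pow_zero]
    exact one_dvd m
  | succ i ih =>
    intro hi m hm
    obtain ⟨m', rfl⟩ := ih (by omega) m (pwS_mono hab (Nat.le_succ i) hm)
    have h2 : (w ^ m') ^ p ^ i ∈ pwS hab (p ^ (i + 1)) := by
      rw [← pow_mul, mul_comm m']
      exact hm
    have h3 := cancel_pow hab hdiv (i := i) (by omega) (pow_mem hw m') h2
    obtain ⟨m'', rfl⟩ := h1 m' h3
    exact ⟨m'', by rw [pow_succ, mul_assoc]⟩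

end Reg

section Main

variable {G : Type*} [Group G] [Finite G] {D T : Subgroup G}

/-- the elements of `D` fixed modulo `D^p` by the stabiliser of `w` modulo `D ^ (p ^ i)` -/
def fixW (hab : ∀ a ∈ D, ∀ b ∈ D, a * b = b * a) (hTN : T ≤ normalizer (D : Set G)) (p i : ℕ)
    (w : G) : Subgroup G where
  carrier := {x | x ∈ D ∧ ∀ s ∈ T, s * w * s⁻¹ * w⁻¹ ∈ pwS hab (p ^ i) →
    s * x * s⁻¹ * x⁻¹ ∈ pwS hab p}
  one_mem' := ⟨one_mem _, fun s _ _ => by
    have : s * 1 * s⁻¹ * 1⁻¹ = 1 := by group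
    rw [this]; exact one_mem _⟩
  mul_mem' := by
    rintro x y ⟨hx, hx'⟩ ⟨hy, hy'⟩
    refine ⟨mul_mem hx hy, fun s hs hsw => ?_⟩
    have hsx : s * x * s⁻¹ ∈ D := (mem_normalizer_iff.1 (hTN hs) x).1 hx
    have hsy : s * y * s⁻¹ ∈ D := (mem_normalizer_iff.1 (hTN hs) y).1 hy
    have h1 : s * (x * y) * s⁻¹ * (x * y)⁻¹ =
        (s * x * s⁻¹ * x⁻¹) * (s * y * s⁻¹ * y⁻¹) := by
      have e1 : s * (x * y) * s⁻¹ * (x * y)⁻¹ =
          s * x * s⁻¹ * ((s * y * s⁻¹ * y⁻¹) * x⁻¹) := by group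
      rw [e1, hab _ (mul_mem hsy (inv_mem hy)) _ (inv_mem hx)]
      group
    rw [h1]
    exact mul_mem (hx' s hs hsw) (hy' s hs hsw)
  inv_mem' := by
    rintro x ⟨hx, hx'⟩
    refine ⟨inv_mem hx, fun s hs hsw => ?_⟩
    have hsx : s * x * s⁻¹ ∈ D := (mem_normalizer_iff.1 (hTN hs) x).1 hx
    have h1 : s * x⁻¹ * s⁻¹ * x⁻¹⁻¹ = (s * x * s⁻¹ * x⁻¹)⁻¹ := by
      have e1 : s * x⁻¹ * s⁻¹ * x⁻¹⁻¹ = (s * x * s⁻¹)⁻¹ * x := by group
      have e2 : (s * x * s⁻¹ * x⁻¹)⁻¹ = x * (s * x * s⁻¹)⁻¹ := by group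
      rw [e1, e2]
      exact hab _ (inv_mem hsx) _ hx
    rw [h1]
    exact inv_mem (hx' s hs hsw)

omit [Finite G] in
theorem pwS_le_fixW (hab : ∀ a ∈ D, ∀ b ∈ D, a * b = b * a) (hTN : T ≤ normalizer (D : Set G))
    (p i : ℕ) (w : G) : pwS hab p ≤ fixW hab hTN p i w := fun _ hx =>
  ⟨pwS_le hab p hx, fun _ hs _ => mul_mem (conj_mem_pwS hab (hTN hs) hx) (inv_mem hx)⟩

/-- **regular elements modulo `D ^ (p ^ i)`** -/
theorem exists_regW_aux {p : ℕ} [hp : Fact p.Prime] (hD : IsPGroup p D)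
    (hab : ∀ a ∈ D, ∀ b ∈ D, a * b = b * a) (hTN : T ≤ normalizer (D : Set G))
    (hT : ¬ p ∣ (centralizer (D : Set G)).relIndex T) {n : ℕ}
    (hdiv : ∀ x ∈ D, x ^ p = 1 → ∃ y ∈ D, y ^ p ^ n = x) (hne : ∃ v ∈ D, v ∉ pwS hab p) (i : ℕ) :
    i ≤ n → ∃ w ∈ D, w ∉ pwS hab p ∧
      ((∀ s ∈ T, s * w * s⁻¹ * w⁻¹ ∈ pwS hab (p ^ (i + 1)) → s ∈ centralizer (D : Set G)) ∨
        p ^ (i + 1) * Nat.card (pwS hab p) ≤ Nat.card (fixW hab hTN p (i + 1) w)) := by
  have hfixp : ∀ i w, IsPGroup p (fixW hab hTN p i w) := fun i w =>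
    hD.to_le fun x hx => hx.1
  induction i with
  | zero =>
    intro _
    obtain ⟨v, hv, hvp⟩ := hne
    refine ⟨v, hv, hvp, Or.inr ?_⟩
    rw [zero_add, pow_one]
    refine mul_card_le (hfixp _ _) (pwS_le_fixW hab hTN p 1 v) (v := v) ⟨hv, fun s _ hs => ?_⟩ hvp
    rwa [pow_one] at hs
  | succ i ih =>
    intro hi
    obtain ⟨w, hw, hwp, hcase⟩ := ih (by omega)
    let S : Subgroup G :=
      { carrier := {s | s ∈ T ∧ s * w * s⁻¹ * w⁻¹ ∈ pwS hab (p ^ (i + 1))}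
        one_mem' := ⟨one_mem _, by
          have : (1 : G) * w * 1⁻¹ * w⁻¹ = 1 := by group
          rw [this]; exact one_mem _⟩
        mul_mem' := by
          rintro s t ⟨hs, hs'⟩ ⟨ht, ht'⟩
          refine ⟨mul_mem hs ht, ?_⟩
          have e : s * t * w * (s * t)⁻¹ * w⁻¹ =
              (s * (t * w * t⁻¹ * w⁻¹) * s⁻¹) * (s * w * s⁻¹ * w⁻¹) := by group
          rw [e]
          exact mul_mem (conj_mem_pwS hab (hTN hs) ht') hs'
        inv_mem' := by
          rintro s ⟨hs, hs'⟩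
          refine ⟨inv_mem hs, ?_⟩
          have e : s⁻¹ * w * s⁻¹⁻¹ * w⁻¹ = s⁻¹ * (s * w * s⁻¹ * w⁻¹)⁻¹ * s⁻¹⁻¹ := by group
          rw [e]
          exact conj_mem_pwS hab (inv_mem (hTN hs)) (inv_mem hs') }
    obtain ⟨w', hw', hww', hfix⟩ := exists_fixed_rep (S := S) hD hab hTN hT (fun s hs => hs.1)
      hw (fun s hs => hs.2)
    -- elements congruent to `w` modulo `D ^ (p ^ (i + 1))`
    have hcongr : ∀ x ∈ D, x * w⁻¹ ∈ pwS hab (p ^ (i + 1)) → ∀ s ∈ T,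
        s * x * s⁻¹ * x⁻¹ ∈ pwS hab (p ^ (i + 1)) → s ∈ S := by
      intro x hx hxw s hs hsx
      refine ⟨hs, ?_⟩
      have hsxD : s * x * s⁻¹ ∈ D := (mem_normalizer_iff.1 (hTN hs) x).1 hx
      have hswD : s * w * s⁻¹ ∈ D := (mem_normalizer_iff.1 (hTN hs) w).1 hw
      have h1 := conj_mem_pwS hab (hTN hs) (inv_mem hxw)
      have h2 : s * w * s⁻¹ * w⁻¹ =
          (s * (x * w⁻¹)⁻¹ * s⁻¹) * (s * x * s⁻¹ * x⁻¹) * (x * w⁻¹) := by group
      rw [h2]
      exact mul_mem (mul_mem h1 hsx) hxw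
    have hmono1 : pwS hab (p ^ (i + 1)) ≤ pwS hab p := by
      have := pwS_mono hab (p := p) (i := 1) (j := i + 1) (by omega)
      rwa [pow_one] at this
    have hnotp : ∀ x, x * w⁻¹ ∈ pwS hab (p ^ (i + 1)) → x ∉ pwS hab p := by
      intro x hxw hx
      apply hwp
      have h1 := mul_mem (inv_mem (hmono1 hxw)) hx
      have e : (x * w⁻¹)⁻¹ * x = w := by group
      rwa [e] at h1
    by_cases hreg : ∀ s ∈ T, s * w * s⁻¹ * w⁻¹ ∈ pwS hab (p ^ (i + 1)) →
        s ∈ centralizer (D : Set G)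
    · refine ⟨w', hw', hnotp w' hww', Or.inl fun s hs hsw => ?_⟩
      have h1 := hcongr w' hw' hww' s hs (pwS_mono hab (Nat.le_succ _) hsw)
      exact hreg s hs h1.2
    · have hcard := hcase.resolve_left hreg
      push Not at hreg
      obtain ⟨s₀, hs₀, hs₀w, hs₀C⟩ := hreg
      obtain ⟨v, hv, hvs⟩ : ∃ v ∈ D, s₀ * v * s₀⁻¹ * v⁻¹ ∉ pwS hab p := by
        by_contra hcon
        push Not at hcon
        exact hs₀C (centralises_of_frattini hD hab hTN hT hs₀ hcon)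
      have hvD : v ^ p ^ (i + 1) ∈ D := pow_mem hv _
      have hx : w' * v ^ p ^ (i + 1) ∈ D := mul_mem hw' hvD
      have hxw : w' * v ^ p ^ (i + 1) * w⁻¹ ∈ pwS hab (p ^ (i + 1)) := by
        have e : w' * v ^ p ^ (i + 1) * w⁻¹ = (w' * w⁻¹) * v ^ p ^ (i + 1) := by
          rw [mul_assoc, hab _ hvD _ (inv_mem hw)]
          group
        rw [e]
        exact mul_mem hww' ⟨v, hv, rfl⟩
      refine ⟨w' * v ^ p ^ (i + 1), hx, hnotp _ hxw, Or.inr ?_⟩
      have hstab : ∀ s ∈ T, s * (w' * v ^ p ^ (i + 1)) * s⁻¹ * (w' * v ^ p ^ (i + 1))⁻¹ ∈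
          pwS hab (p ^ (i + 1 + 1)) → s * w * s⁻¹ * w⁻¹ ∈ pwS hab (p ^ (i + 1)) ∧
            s * v * s⁻¹ * v⁻¹ ∈ pwS hab p := by
        intro s hs hsx
        have h1 : s ∈ S := hcongr _ hx hxw s hs (pwS_mono hab (Nat.le_succ _) hsx)
        refine ⟨h1.2, ?_⟩
        have hsv : s * v * s⁻¹ ∈ D := (mem_normalizer_iff.1 (hTN hs) v).1 hv
        have h2 : s * (w' * v ^ p ^ (i + 1)) * s⁻¹ * (w' * v ^ p ^ (i + 1))⁻¹ =
            (s * v * s⁻¹ * v⁻¹) ^ p ^ (i + 1) := by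
          have hc : Commute (s * v * s⁻¹) v⁻¹ := hab _ hsv _ (inv_mem hv)
          have e1 : s * (w' * v ^ p ^ (i + 1)) * s⁻¹ =
              (s * w' * s⁻¹) * (s * v ^ p ^ (i + 1) * s⁻¹) := by group
          rw [hc.mul_pow, inv_pow, ← conj_pow', e1, hfix s h1]
          have hsvp : s * v ^ p ^ (i + 1) * s⁻¹ ∈ D :=
            (mem_normalizer_iff.1 (hTN hs) _).1 hvD
          rw [hab _ hw' _ hsvp, hab _ hw' _ hvD]
          group
        rw [h2] at hsx
        exact cancel_pow hab hdiv (i := i + 1) (by omega) (mul_mem hsv (inv_mem hv)) hsx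
      have hle : fixW hab hTN p (i + 1) w ≤
          fixW hab hTN p (i + 1 + 1) (w' * v ^ p ^ (i + 1)) := fun x hx' =>
        ⟨hx'.1, fun s hs hsx => hx'.2 s hs (hstab s hs hsx).1⟩
      have hvmem : v ∈ fixW hab hTN p (i + 1 + 1) (w' * v ^ p ^ (i + 1)) :=
        ⟨hv, fun s hs hsx => (hstab s hs hsx).2⟩
      have hvnot : v ∉ fixW hab hTN p (i + 1) w := fun h => hvs (h.2 s₀ hs₀ hs₀w)
      have h3 := mul_card_le (hfixp _ _) hle hvmem hvnot
      calc p ^ (i + 1 + 1) * Nat.card (pwS hab p)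
          = p * (p ^ (i + 1) * Nat.card (pwS hab p)) := by rw [pow_succ']; ring
        _ ≤ p * Nat.card (fixW hab hTN p (i + 1) w) := Nat.mul_le_mul_left _ hcard
        _ ≤ _ := h3

/-- **regular elements modulo `D ^ (p ^ j)`**, `j ≥ r` -/
theorem exists_regW {p : ℕ} [hp : Fact p.Prime] (hD : IsPGroup p D)
    (hab : ∀ a ∈ D, ∀ b ∈ D, a * b = b * a) (hTN : T ≤ normalizer (D : Set G))
    (hT : ¬ p ∣ (centralizer (D : Set G)).relIndex T) {r n j : ℕ} (hr1 : 1 ≤ r)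
    (hr : Nat.card {x // x ∈ D ∧ x ^ p = 1} = p ^ r)
    (hdiv : ∀ x ∈ D, x ^ p = 1 → ∃ y ∈ D, y ^ p ^ n = x) (hrj : r ≤ j) (hjn : j ≤ n + 1) :
    ∃ w ∈ D, w ∉ pwS hab p ∧
      ∀ t ∈ T, t * w * t⁻¹ * w⁻¹ ∈ pwS hab (p ^ j) → t ∈ centralizer (D : Set G) := by
  have hr' : Nat.card (omS hab p) = p ^ r := hr
  have hDc := card_eq_mul hab p
  rw [hr'] at hDc
  have hpos : 0 < Nat.card (pwS hab p) := Nat.card_pos
  have hne : ∃ v ∈ D, v ∉ pwS hab p := by
    by_contra hcon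
    push Not at hcon
    have h1 : Nat.card D ≤ Nat.card (pwS hab p) := Subgroup.card_le_of_le hcon
    have h2 : 1 < p ^ r := Nat.one_lt_pow (by omega) hp.out.one_lt
    rw [hDc] at h1
    nlinarith
  obtain ⟨w, hw, hwp, hcase⟩ := exists_regW_aux hD hab hTN hT hdiv hne (j - 1) (by omega)
  have hj1 : j - 1 + 1 = j := by omega
  rw [hj1] at hcase
  refine ⟨w, hw, hwp, ?_⟩
  rcases hcase with h | h
  · exact h
  · have hle : fixW hab hTN p j w ≤ D := fun x hx => hx.1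
    have h1 : fixW hab hTN p j w = D := by
      refine Subgroup.eq_of_le_of_card_ge hle ?_
      rw [hDc]
      refine le_trans ?_ h
      rw [mul_comm]
      exact Nat.mul_le_mul_right _ (Nat.pow_le_pow_right hp.out.pos hrj)
    intro s hs hsw
    refine centralises_of_frattini hD hab hTN hT hs fun x hx => ?_
    rw [← h1] at hx
    exact hx.2 s hs hsw

/-- the arithmetic of the condition on the number of regular elements -/
theorem arith' {p e r n j : ℕ} (hp : 1 ≤ p) (hr : 1 ≤ r) (hrj : r ≤ j)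
    (h4 : r * (r + 1) ≤ 4 * j) (hjn : j ≤ n) (hc : r = 1 ∨ (r = 2 ∧ 3 ≤ n) ∨ 2 * j + 1 ≤ n)
    (he : e ≤ ∏ i ∈ Finset.range r, (p ^ (i + 1) - 1)) :
    e * (p ^ n + p ^ (2 * j)) ≤ p ^ n * p ^ (2 * j) := by
  obtain ⟨m, hm1, hm2, hm3⟩ := prod_le p r hr
  have hem := he.trans hm3
  rcases hc with rfl | ⟨rfl, hn⟩ | hn
  · rw [add_comm (p ^ n), mul_comm (p ^ n)]
    exact arith_aux hp hm1 hem (by omega) (by omega)
  · rw [add_comm (p ^ n), mul_comm (p ^ n)]
    exact arith_aux hp hm1 hem (by omega) (by omega)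
  · exact arith_aux hp hm1 hem (by omega) (by omega)

/-- the number of regular elements, in the form used for the bound of `l(B)` -/
theorem regular_count {p : ℕ} [hp : Fact p.Prime] (hD : IsPGroup p D)
    (hab : ∀ a ∈ D, ∀ b ∈ D, a * b = b * a) (hTN : T ≤ normalizer (D : Set G))
    (hT : ¬ p ∣ (centralizer (D : Set G)).relIndex T) {n Q : ℕ} (hQ : 0 < Q)
    (hdiv : ∀ x ∈ D, x ^ p = 1 → ∃ y ∈ D, y ^ p ^ (n - 1) = x)
    (h : (centralizer (D : Set G)).relIndex T * (p ^ n + Q) ≤ p ^ n * Q) :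
    (centralizer (D : Set G)).relIndex T * Nat.card D < Q *
      Nat.card {w : G // w ∈ D ∧ ∀ t ∈ T, t * w * t⁻¹ = w → t ∈ centralizer (D : Set G)} := by
  have habC : D ≤ centralizer (D : Set G) := by
    intro x hx
    rw [mem_centralizer_iff]
    intro y hy
    exact hab y hy x hx
  have hstar : ∀ t ∈ T, (∀ d ∈ D, t * d ^ p ^ (n - 1) * t⁻¹ = d ^ p ^ (n - 1)) →
      t ∈ centralizer (D : Set G) := by
    intro t ht h
    have htm : t ^ (centralizer (D : Set G)).relIndex T ∈ centralizer (D : Set G) := by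
      have hCn : ((centralizer (D : Set G)).subgroupOf T).Normal := by
        refine ⟨fun c hc n => ?_⟩
        rw [mem_subgroupOf] at hc ⊢
        exact P179B.conj_mem_centralizer_of_mem_normalizer (hTN n.2) hc
      have h1 := ((centralizer (D : Set G)).subgroupOf T).pow_index_mem (⟨t, ht⟩ : T)
      rw [mem_subgroupOf] at h1
      exact h1
    refine centralises_of_omega hab hD (hTN ht) hT htm fun x hx => ?_
    obtain ⟨y, hy, hyx⟩ := hdiv x hx.1 hx.2
    rw [← hyx]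
    exact h y hy
  have h1 := P179H452.card_RegA p D hD habC T n hstar
  set e := (centralizer (D : Set G)).relIndex T with he
  set R := Nat.card {w : G // w ∈ D ∧ ∀ t ∈ T, t * w * t⁻¹ = w → t ∈ centralizer (D : Set G)}
    with hR
  have hD0 : 0 < Nat.card D := Nat.card_pos
  have he0 : 1 ≤ e := by
    rw [Nat.one_le_iff_ne_zero]
    intro h0
    exact hT (by rw [h0]; exact dvd_zero p)
  obtain ⟨e', he'⟩ : ∃ e', e = e' + 1 := ⟨e - 1, by omega⟩
  rw [he'] at h1 h ⊢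
  rw [Nat.add_sub_cancel] at h1
  set A := Nat.card D
  set P := p ^ n
  by_contra hcon
  push Not at hcon
  have h3 : Q * (P * A) ≤ Q * (P * R + e' * A) := Nat.mul_le_mul_left _ h1
  have h4' : P * (Q * R) ≤ P * ((e' + 1) * A) := Nat.mul_le_mul_left _ hcon
  have h5 : (e' + 1) * (P + Q) * A ≤ P * Q * A := Nat.mul_le_mul_right _ h
  have h6 : Q * (P * R + e' * A) = P * (Q * R) + Q * e' * A := by ring
  have h7 : P * ((e' + 1) * A) + Q * e' * A + Q * A = (e' + 1) * (P + Q) * A := by ring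
  have h8 : 0 < Q * A := Nat.mul_pos hQ hD0
  have h9 : Q * (P * A) = P * Q * A := by ring
  omega

/-- **(R)**: the hypotheses of the bound of `l(B)` for the abelian groups `D` of rank `r` whose
cyclic factors have order at least `p ^ n`. -/
theorem exists_reg_gen {p : ℕ} [hp : Fact p.Prime] (hD : IsPGroup p D)
    (hab : ∀ a ∈ D, ∀ b ∈ D, a * b = b * a) (hTN : T ≤ normalizer (D : Set G))
    (hT : ¬ p ∣ (centralizer (D : Set G)).relIndex T) {r n j : ℕ} (hr1 : 1 ≤ r)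
    (hr : Nat.card {x // x ∈ D ∧ x ^ p = 1} = p ^ r)
    (hdiv : ∀ x ∈ D, x ^ p = 1 → ∃ y ∈ D, y ^ p ^ (n - 1) = x)
    (hE : (centralizer (D : Set G)).relIndex T ≤ ∏ i ∈ Finset.range r, (p ^ (i + 1) - 1))
    (hrj : r ≤ j) (h4 : r * (r + 1) ≤ 4 * j) (hjn : j ≤ n)
    (hc : r = 1 ∨ (r = 2 ∧ 3 ≤ n) ∨ 2 * j + 1 ≤ n) :
    ∃ w ∈ D, (∀ t ∈ T, (∃ d ∈ D, t * w * t⁻¹ * w⁻¹ = d ^ p ^ j) → t ∈ centralizer (D : Set G)) ∧
      (∀ i : ℕ, (∃ d ∈ D, w ^ i = d ^ p ^ j) → p ^ j ∣ i) ∧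
      (centralizer (D : Set G)).relIndex T * Nat.card D < p ^ (2 * j) *
        Nat.card {w : G // w ∈ D ∧ ∀ t ∈ T, t * w * t⁻¹ = w → t ∈ centralizer (D : Set G)} ∧
      Nat.card D = Nat.card {y : G // ∃ d ∈ D, d ^ p ^ j = y} * p ^ (r * j) := by
  have hn1 : n - 1 + 1 = n := by omega
  have hr' : Nat.card (omS hab p) = p ^ r := hr
  obtain ⟨w, hw, hwp, hwr⟩ := exists_regW (n := n - 1) (j := j) hD hab hTN hT hr1 hr hdiv hrj
    (by omega)
  refine ⟨w, hw, ?_, ?_, ?_, ?_⟩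
  · rintro t ht ⟨d, hd, hdw⟩
    exact hwr t ht ⟨d, hd, hdw.symm⟩
  · rintro i ⟨d, hd, hdw⟩
    exact pow_dvd_of_mem hab hD hdiv hw hwp j (by omega) i ⟨d, hd, hdw.symm⟩
  · exact regular_count hD hab hTN hT (pow_pos hp.out.pos _) hdiv
      (arith' hp.out.one_le hr1 hrj h4 hjn hc hE)
  · have h1 := card_eq_mul hab (p ^ j)
    rw [card_omS_eq hab hr' hdiv j (by omega)] at h1
    exact h1

end Main

end P179H92
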