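import Vale.Agent.P179.R2.H292.Rank

/-!
# Regular elements of homocyclic groups

`D` is an abelian `p`-subgroup of the finite group `G`, and `T` normalises `D` and induces a
`p'`-group of automorphisms on `D`. If all elements of `D` of order `p` are `p ^ n`-th powers, and
`|Ω_1(D)| = p ^ r`, then for `r ≤ j ≤ n + 1` there is an element of order `p ^ j` in `D` which is
centralised only by the elements of `T` which centralise `D`.
-/

namespace P179H92

open Subgroup P179H292

variable {G : Type*} [Group G] [Finite G] {D T : Subgroup G}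

omit [Finite G] in
/-- conjugation and powers -/
theorem conj_pow' (s x : G) (m : ℕ) : s * x ^ m * s⁻¹ = (s * x * s⁻¹) ^ m := by
  rw [conj_pow]

omit [Finite G] in
/-- subgroups of `T` -/
theorem relIndex_dvd (hTN : T ≤ normalizer (D : Set G)) {S : Subgroup G} (hS : S ≤ T) :
    (centralizer (D : Set G)).relIndex S ∣ (centralizer (D : Set G)).relIndex T := by
  have hn : ((centralizer (D : Set G)).subgroupOf T).Normal := by
    refine ⟨fun c hc n => ?_⟩
    rw [mem_subgroupOf] at hc ⊢
    exact P179B.conj_mem_centralizer_of_mem_normalizer (hTN n.2) hc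
  have h := Subgroup.relIndex_dvd_index_of_normal ((centralizer (D : Set G)).subgroupOf T)
    (S.subgroupOf T)
  rwa [Subgroup.relIndex_subgroupOf hS] at h

/-- a `p`-th root of an element of `D` fixed by `S` can be chosen to be fixed by `S` -/
theorem exists_fixed_root {p : ℕ} [hp : Fact p.Prime] (hD : IsPGroup p D)
    (hab : ∀ a ∈ D, ∀ b ∈ D, a * b = b * a) (hTN : T ≤ normalizer (D : Set G))
    (hT : ¬ p ∣ (centralizer (D : Set G)).relIndex T) {S : Subgroup G} (hS : S ≤ T) {u y : G}
    (hu : ∀ s ∈ S, s * u * s⁻¹ = u) (hy : y ∈ D) (hyu : y ^ p = u) :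
    ∃ y' ∈ D, y' ^ p = u ∧ ∀ s ∈ S, s * y' * s⁻¹ = y' := by
  classical
  let C : Subgroup G := centralizer (D : Set G)
  have hm : ¬ p ∣ C.relIndex S := fun h => hT (h.trans (relIndex_dvd hTN hS))
  have hSN : ∀ s ∈ S, s ∈ normalizer (D : Set G) := fun s hs => hTN (hS hs)
  have hcomm : ∀ a b : D, a * b = b * a := fun a b => Subtype.ext (hab _ a.2 _ b.2)
  let iD : CommGroup D := { (inferInstance : Group D) with mul_comm := hcomm }
  let Q := S ⧸ C.subgroupOf S
  have hfQ : Finite Q := inferInstance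
  let _ := Fintype.ofFinite Q
  -- the action
  let act : S → D → D := fun s d => ⟨s * d * (s : G)⁻¹, (mem_normalizer_iff.1 (hSN _ s.2) _).1 d.2⟩
  have hact : ∀ (s : S) (d : D), ((act s d : D) : G) = s * d * (s : G)⁻¹ := fun s d => rfl
  have hactC : ∀ (s t : S) (d : D), (s : Q) = (t : Q) → act s d = act t d := by
    intro s t d h
    have h1 := QuotientGroup.eq.1 h
    rw [mem_subgroupOf] at h1
    have h2 := mem_centralizer_iff.1 h1 d d.2
    apply Subtype.ext
    rw [hact, hact]
    have h3 : (d : G) * ((s : G)⁻¹ * t) = ((s : G)⁻¹ * t) * d := by simpa using h2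
    calc (s : G) * d * (s : G)⁻¹ = s * (d * ((s : G)⁻¹ * t)) * (t : G)⁻¹ := by group
      _ = s * (((s : G)⁻¹ * t) * d) * (t : G)⁻¹ := by rw [h3]
      _ = t * d * (t : G)⁻¹ := by group
  have hactmul : ∀ (s : S) (d e : D), act s (d * e) = act s d * act s e := by
    intro s d e
    apply Subtype.ext
    rw [Subgroup.coe_mul, hact, hact, hact, Subgroup.coe_mul]
    group
  have hactact : ∀ (s t : S) (d : D), act s (act t d) = act (s * t) d := by
    intro s t d
    apply Subtype.ext
    rw [hact, hact, hact, Subgroup.coe_mul]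
    group
  let y0 : D := ⟨y, hy⟩
  let N : D := ∏ q : Q, act q.out y0
  -- the product is invariant
  have hNinv : ∀ s : S, act s N = N := by
    intro s
    let F : D →* D :=
      { toFun := act s
        map_one' := by
          apply Subtype.ext
          rw [hact]
          simp
        map_mul' := hactmul s }
    have h1 : act s N = F N := rfl
    have h2 : F N = ∏ q : Q, F (act q.out y0) := map_prod F _ _
    rw [h1, h2]
    refine Fintype.prod_equiv (MulAction.toPerm s : Equiv.Perm Q) _ _ fun q => ?_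
    change act s (act q.out y0) = act ((s • q : Q)).out y0
    rw [hactact]
    apply hactC
    have h3 : ((s * q.out : S) : Q) = s • q := by
      conv_rhs => rw [← QuotientGroup.out_eq' q]
      rfl
    rw [h3, QuotientGroup.out_eq']
  -- its `p`-th power
  have hNp : (N : G) ^ p = u ^ C.relIndex S := by
    have h1 : N ^ p = ∏ q : Q, act q.out y0 ^ p := (Finset.prod_pow _ _ _).symm
    have h2 : ∀ q : Q, ((act q.out y0 ^ p : D) : G) = u := by
      intro q
      rw [Subgroup.coe_pow, hact, ← conj_pow']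
      change (q.out : G) * y ^ p * (q.out : G)⁻¹ = u
      rw [hyu]
      exact hu _ q.out.2
    have hu' : u ∈ D := hyu ▸ pow_mem hy p
    have h3 : ∀ q : Q, act q.out y0 ^ p = (⟨u, hu'⟩ : D) := fun q => Subtype.ext (h2 q)
    have h4 : N ^ p = (⟨u, hu'⟩ : D) ^ Fintype.card Q := by
      rw [h1, Finset.prod_congr rfl fun q _ => h3 q, Finset.prod_const, Finset.card_univ]
    have h5 : Fintype.card Q = C.relIndex S := by
      rw [← Nat.card_eq_fintype_card]
      rfl
    have h6 := congrArg (fun d : D => (d : G)) h4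
    rw [h5] at h6
    simpa using h6
  -- inverse of the index
  obtain ⟨a, ha⟩ := hD ⟨y, hy⟩
  have ha' : y ^ p ^ a = 1 := by simpa using congrArg Subtype.val ha
  have hua : u ^ p ^ a = 1 := by
    rw [← hyu, ← pow_mul, mul_comm, pow_mul, ha', one_pow]
  have hcop : (C.relIndex S).Coprime (p ^ a) :=
    ((Nat.Prime.coprime_iff_not_dvd hp.out).2 hm).symm.pow_right a
  obtain ⟨m', hm'⟩ : ∃ m' : ℕ, u ^ (C.relIndex S * m') = u := by
    have h1 : (orderOf u).Coprime (C.relIndex S) :=
      (hcop.coprime_dvd_right (orderOf_dvd_of_pow_eq_one hua)).symm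
    obtain ⟨i, hi⟩ := exists_pow_eq_self_of_coprime (x := u) (n := C.relIndex S) h1.symm
    exact ⟨i, by rw [pow_mul]; exact hi⟩
  refine ⟨(N : G) ^ m', pow_mem N.2 _, ?_, ?_⟩
  · rw [← pow_mul, mul_comm, pow_mul, hNp, ← pow_mul, hm']
  · intro s hs
    rw [conj_pow']
    congr 1
    exact congrArg Subtype.val (hNinv ⟨s, hs⟩)

omit [Finite G] in
/-- divisibility -/
theorem exists_root {p : ℕ} (hab : ∀ a ∈ D, ∀ b ∈ D, a * b = b * a) {n : ℕ}
    (hdiv : ∀ x ∈ D, x ^ p = 1 → ∃ y ∈ D, y ^ p ^ n = x) :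
    ∀ i : ℕ, i ≤ n + 1 → ∀ x ∈ D, x ^ p ^ i = 1 → ∃ y ∈ D, y ^ p ^ (n + 1 - i) = x := by
  intro i
  induction i with
  | zero =>
    intro _ x _ hx1
    refine ⟨1, one_mem _, ?_⟩
    rw [pow_zero, pow_one] at hx1
    rw [hx1, one_pow]
  | succ i ih =>
    intro hi x hx hx1
    obtain ⟨y, hy, hyx⟩ := hdiv (x ^ p ^ i) (pow_mem hx _) (by
      rw [← pow_mul, ← pow_succ]; exact hx1)
    have e1 : p ^ n = p ^ (n + 1 - (i + 1)) * p ^ i := by
      rw [← pow_add]
      congr 1
      omega
    have hyD : y ^ p ^ (n + 1 - (i + 1)) ∈ D := pow_mem hy _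
    have hc : Commute x (y ^ p ^ (n + 1 - (i + 1)))⁻¹ := hab _ hx _ (inv_mem hyD)
    obtain ⟨z, hz, hzx⟩ := ih (by omega) (x * (y ^ p ^ (n + 1 - (i + 1)))⁻¹)
      (mul_mem hx (inv_mem hyD)) (by
        rw [hc.mul_pow, inv_pow, ← pow_mul, ← e1, hyx, mul_inv_cancel])
    refine ⟨z ^ p * y, mul_mem (pow_mem hz _) hy, ?_⟩
    have hc2 : Commute (z ^ p) y := hab _ (pow_mem hz _) _ hy
    have e2 : p * p ^ (n + 1 - (i + 1)) = p ^ (n + 1 - i) := by
      rw [← pow_succ']
      congr 1
      omega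
    rw [hc2.mul_pow, ← pow_mul, e2, hzx]
    group

/-- the fixed points of the stabiliser of `u` in `Ω_1(D)` -/
def fixV (hab : ∀ a ∈ D, ∀ b ∈ D, a * b = b * a) (T : Subgroup G) (p : ℕ) (u : G) :
    Subgroup G where
  carrier := {x | x ∈ omS hab p ∧ ∀ s ∈ T, s * u * s⁻¹ = u → s * x * s⁻¹ = x}
  one_mem' := ⟨one_mem _, fun s _ _ => by group⟩
  mul_mem' := by
    rintro x y ⟨hx, hx'⟩ ⟨hy, hy'⟩
    refine ⟨mul_mem hx hy, fun s hs hsu => ?_⟩
    have e : s * (x * y) * s⁻¹ = (s * x * s⁻¹) * (s * y * s⁻¹) := by group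
    rw [e, hx' s hs hsu, hy' s hs hsu]
  inv_mem' := by
    rintro x ⟨hx, hx'⟩
    refine ⟨inv_mem hx, fun s hs hsu => ?_⟩
    have e : s * x⁻¹ * s⁻¹ = (s * x * s⁻¹)⁻¹ := by group
    rw [e, hx' s hs hsu]

/-- **regular elements** -/
theorem exists_reg_aux {p : ℕ} [hp : Fact p.Prime] (hD : IsPGroup p D)
    (hab : ∀ a ∈ D, ∀ b ∈ D, a * b = b * a) (hTN : T ≤ normalizer (D : Set G))
    (hT : ¬ p ∣ (centralizer (D : Set G)).relIndex T) {n : ℕ}
    (hdiv : ∀ x ∈ D, x ^ p = 1 → ∃ y ∈ D, y ^ p ^ n = x) (hne : ∃ v ∈ omS hab p, v ≠ 1) (i : ℕ) :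
    i ≤ n → ∃ u ∈ D, orderOf u = p ^ (i + 1) ∧
      ((∀ s ∈ T, s * u * s⁻¹ = u → s ∈ centralizer (D : Set G)) ∨
        p ^ (i + 1) ≤ Nat.card (fixV hab T p u)) := by
  have hfixp : ∀ u, IsPGroup p (fixV hab T p u) := by
    intro u x
    refine ⟨1, ?_⟩
    rw [pow_one]
    exact Subtype.ext x.2.1.2
  induction i with
  | zero =>
    intro _
    obtain ⟨v, hv, hv1⟩ := hne
    have hov : orderOf v = p := orderOf_eq_prime hv.2 hv1
    refine ⟨v, hv.1, by rw [hov, zero_add, pow_one], Or.inr ?_⟩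
    have hle : Subgroup.zpowers v ≤ fixV hab T p v := by
      rw [Subgroup.zpowers_le]
      exact ⟨hv, fun s _ hs => hs⟩
    have h1 : p ^ (0 + 1) = Nat.card (Subgroup.zpowers v) := by
      rw [Nat.card_zpowers, hov, zero_add, pow_one]
    rw [h1]
    exact Subgroup.card_le_of_le hle
  | succ i ih =>
    intro hi
    obtain ⟨u, hu, huo, hcase⟩ := ih (by omega)
    -- a fixed root
    obtain ⟨y, hy, hyu⟩ := exists_root hab hdiv (i + 1) (by omega) u hu (by
      rw [← huo, pow_orderOf_eq_one])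
    have e1 : p ^ (n + 1 - (i + 1)) = p ^ (n - (i + 1)) * p := by
      rw [← pow_succ]
      congr 1
      omega
    rw [e1, pow_mul] at hyu
    obtain ⟨y', hy', hyu', hfix⟩ := exists_fixed_root (S := T ⊓ centralizer {u}) hD hab hTN hT
      inf_le_left (fun s hs => by
        have h1 := mem_centralizer_singleton_iff.1 hs.2
        rw [h1]; group) (pow_mem hy _) hyu
    have hfix' : ∀ s ∈ T, s * u * s⁻¹ = u → s * y' * s⁻¹ = y' := by
      intro s hs hsu
      refine hfix s ⟨hs, mem_centralizer_singleton_iff.2 ?_⟩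
      calc s * u = (s * u * s⁻¹) * s := by group
        _ = u * s := by rw [hsu]
    have hord : ∀ x : G, x ^ p = u → orderOf x = p ^ (i + 1 + 1) := by
      intro x hx
      have h1 : ¬ x ^ p ^ (i + 1) = 1 := by
        intro h
        have h2 : u ^ p ^ i = 1 := by
          rw [← hx, ← pow_mul, ← pow_succ']
          exact h
        have h3 := orderOf_dvd_of_pow_eq_one h2
        rw [huo] at h3
        have h4 := (Nat.pow_dvd_pow_iff_le_right hp.out.one_lt).1 h3
        omega
      refine orderOf_eq_prime_pow h1 ?_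
      rw [pow_succ', pow_mul, hx, ← huo, pow_orderOf_eq_one]
    by_cases hreg : ∀ s ∈ T, s * u * s⁻¹ = u → s ∈ centralizer (D : Set G)
    · refine ⟨y', hy', hord y' hyu', Or.inl fun s hs hsy => hreg s hs ?_⟩
      rw [← hyu', conj_pow', hsy]
    · have hcard := hcase.resolve_left hreg
      push Not at hreg
      obtain ⟨s₀, hs₀, hs₀u, hs₀C⟩ := hreg
      have hs₀m : s₀ ^ (centralizer (D : Set G)).relIndex T ∈ centralizer (D : Set G) := by
        have hCn : ((centralizer (D : Set G)).subgroupOf T).Normal := by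
          refine ⟨fun c hc n => ?_⟩
          rw [mem_subgroupOf] at hc ⊢
          exact P179B.conj_mem_centralizer_of_mem_normalizer (hTN n.2) hc
        have h1 := ((centralizer (D : Set G)).subgroupOf T).pow_index_mem (⟨s₀, hs₀⟩ : T)
        rw [mem_subgroupOf] at h1
        exact h1
      obtain ⟨v, hv, hvs⟩ : ∃ v ∈ omS hab p, s₀ * v * s₀⁻¹ ≠ v := by
        by_contra hcon
        push Not at hcon
        exact hs₀C (centralises_of_omega hab hD (hTN hs₀) hT hs₀m hcon)
      have hc : Commute y' v := hab _ hy' _ hv.1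
      have hup : (y' * v) ^ p = u := by
        rw [hc.mul_pow, hyu', hv.2, mul_one]
      refine ⟨y' * v, mul_mem hy' hv.1, hord _ hup, Or.inr ?_⟩
      have hstab : ∀ s ∈ T, s * (y' * v) * s⁻¹ = y' * v → s * u * s⁻¹ = u ∧ s * v * s⁻¹ = v := by
        intro s hs hsy
        have h1 : s * u * s⁻¹ = u := by
          rw [← hup, conj_pow', hsy]
        refine ⟨h1, ?_⟩
        have h2 := hfix' s hs h1
        have e : s * (y' * v) * s⁻¹ = (s * y' * s⁻¹) * (s * v * s⁻¹) := by group
        rw [e, h2] at hsy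
        exact mul_left_cancel hsy
      have hle : fixV hab T p u ≤ fixV hab T p (y' * v) := by
        intro x hx
        exact ⟨hx.1, fun s hs hsy => hx.2 s hs (hstab s hs hsy).1⟩
      have hvmem : v ∈ fixV hab T p (y' * v) := ⟨hv, fun s hs hsy => (hstab s hs hsy).2⟩
      have hvnot : v ∉ fixV hab T p u := fun h => hvs (h.2 s₀ hs₀ hs₀u)
      obtain ⟨a, ha⟩ := IsPGroup.iff_card.1 (hfixp u)
      obtain ⟨b, hb⟩ := IsPGroup.iff_card.1 (hfixp (y' * v))
      have hlt : Nat.card (fixV hab T p u) < Nat.card (fixV hab T p (y' * v)) := by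
        refine lt_of_le_of_ne (Subgroup.card_le_of_le hle) fun h => hvnot ?_
        rw [Subgroup.eq_of_le_of_card_ge hle h.ge]
        exact hvmem
      rw [ha, hb] at hlt
      have hab' := (Nat.pow_lt_pow_iff_right hp.out.one_lt).1 hlt
      rw [ha] at hcard
      have hia := (Nat.pow_le_pow_iff_right hp.out.one_lt).1 hcard
      rw [hb]
      exact Nat.pow_le_pow_right hp.out.pos (by omega)

/-- **regular elements**: the group `Ω_j(D)`, `j ≥ r`, contains a regular element of order
`p ^ j` -/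
theorem exists_reg {p : ℕ} [hp : Fact p.Prime] (hD : IsPGroup p D)
    (hab : ∀ a ∈ D, ∀ b ∈ D, a * b = b * a) (hTN : T ≤ normalizer (D : Set G))
    (hT : ¬ p ∣ (centralizer (D : Set G)).relIndex T) {r n j : ℕ} (hr1 : 1 ≤ r)
    (hr : Nat.card {x // x ∈ D ∧ x ^ p = 1} = p ^ r)
    (hdiv : ∀ x ∈ D, x ^ p = 1 → ∃ y ∈ D, y ^ p ^ n = x) (hrj : r ≤ j) (hjn : j ≤ n + 1) :
    ∃ w ∈ D, orderOf (w ^ p ^ (n + 1 - j)) = p ^ j ∧
      ∀ t ∈ T, t * w ^ p ^ (n + 1 - j) * t⁻¹ = w ^ p ^ (n + 1 - j) →
        t ∈ centralizer (D : Set G) := by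
  have hr' : Nat.card (omS hab p) = p ^ r := hr
  have hne : ∃ v ∈ omS hab p, v ≠ 1 := by
    have h1 : Nontrivial (omS hab p) := by
      have hfin : Finite (omS hab p) := inferInstance
      rw [← Finite.one_lt_card_iff_nontrivial, hr']
      exact Nat.one_lt_pow (by omega) hp.out.one_lt
    obtain ⟨v, hv⟩ := exists_ne (1 : omS hab p)
    exact ⟨v, v.2, fun h => hv (Subtype.ext h)⟩
  obtain ⟨u, hu, huo, hcase⟩ := exists_reg_aux hD hab hTN hT hdiv hne (j - 1) (by omega)
  have hj1 : j - 1 + 1 = j := by omega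
  rw [hj1] at huo hcase
  have hreg : ∀ s ∈ T, s * u * s⁻¹ = u → s ∈ centralizer (D : Set G) := by
    rcases hcase with h | h
    · exact h
    · have hle : fixV hab T p u ≤ omS hab p := fun x hx => hx.1
      have h1 : fixV hab T p u = omS hab p := by
        refine Subgroup.eq_of_le_of_card_ge hle ?_
        rw [hr']
        exact (Nat.pow_le_pow_right hp.out.pos hrj).trans h
      intro s hs hsu
      have hsm : s ^ (centralizer (D : Set G)).relIndex T ∈ centralizer (D : Set G) := by
        have hCn : ((centralizer (D : Set G)).subgroupOf T).Normal := by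
          refine ⟨fun c hc n => ?_⟩
          rw [mem_subgroupOf] at hc ⊢
          exact P179B.conj_mem_centralizer_of_mem_normalizer (hTN n.2) hc
        have h1 := ((centralizer (D : Set G)).subgroupOf T).pow_index_mem (⟨s, hs⟩ : T)
        rw [mem_subgroupOf] at h1
        exact h1
      refine centralises_of_omega hab hD (hTN hs) hT hsm fun x hx => ?_
      rw [← h1] at hx
      exact hx.2 s hs hsu
  obtain ⟨w, hw, hwu⟩ := exists_root hab hdiv j hjn u hu (by rw [← huo, pow_orderOf_eq_one])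
  refine ⟨w, hw, ?_⟩
  rw [hwu]
  exact ⟨huo, hreg⟩

/-- a group acting with all stabilisers `C` -/
theorem relIndex_dvd_card {C : Subgroup G} {X : Type*} [Finite X] [MulAction T X]
    (h : ∀ x : X, MulAction.stabilizer T x = C.subgroupOf T) : C.relIndex T ∣ Nat.card X := by
  have h1 := Nat.card_congr (MulAction.selfEquivSigmaOrbitsQuotientStabilizer T X)
  have := Fintype.ofFinite (Quotient (MulAction.orbitRel T X))
  rw [h1, Nat.card_sigma]
  refine Finset.dvd_sum fun ω _ => ?_
  rw [h ω.out]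
  exact dvd_rfl

end P179H92
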