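import Vale.Agent.P179.H905.K1

/-!
# A homomorphism from `D` to the field which is invariant under `T`

`D` is an abelian `p`-group, `T` normalises `D` and induces a `p'`-group on `D`, `T` centralises
`Q`, and `x` is an element of `D` which is fixed by `T` and does not lie in `Q`. Then some
`T`-invariant homomorphism `D → k` kills `Q ∩ D` and does not kill the fixed points of `T`.
-/

namespace P179H92

open Subgroup

section

variable {G : Type*} [Group G]

/-- a homomorphism of the abelian `p`-group `K` to `ZMod p`, as a function on `G` -/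
theorem exists_fun_hom {p : ℕ} [hp : Fact p.Prime] [Finite G] {K Q : Subgroup G}
    (hK : IsPGroup p K) (hab : ∀ a ∈ K, ∀ b ∈ K, a * b = b * a) {x : G} (hx : x ∈ K)
    (hxQ : x ∉ Q) :
    ∃ g : G → ZMod p, (∀ a ∈ K, ∀ b ∈ K, g (a * b) = g a + g b) ∧
      (∀ a ∈ K, a ∈ Q → g a = 0) ∧ ∃ y ∈ K, g y ≠ 0 := by
  classical
  have hcomm : IsMulCommutative K := ⟨⟨fun a b => Subtype.ext (hab a a.2 b b.2)⟩⟩
  have hne : ¬ K ≤ Q := fun h => hxQ (h hx)
  obtain ⟨f, hf, hfQ⟩ := P179I.exists_hom_of_lt hK hne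
  refine ⟨fun a => if h : a ∈ K then f (Additive.ofMul ⟨a, h⟩) else 0, ?_, ?_, ?_⟩
  · intro a ha b hb
    have hab' : a * b ∈ K := mul_mem ha hb
    simp only [dif_pos ha, dif_pos hb, dif_pos hab']
    exact map_add f (Additive.ofMul ⟨a, ha⟩) (Additive.ofMul ⟨b, hb⟩)
  · intro a ha haQ
    simp only [dif_pos ha]
    exact hfQ _ haQ
  · by_contra hcon
    push Not at hcon
    apply hf
    ext y
    have h1 := hcon (y : K) (y : K).2
    rw [dif_pos (y : K).2] at h1
    exact h1

end

section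

variable {G : Type*} [Group G] [Finite G] {D T : Subgroup G}

/-- the norm of `D` relative to `T / C(D)` -/
theorem exists_norm (hab : ∀ a ∈ D, ∀ b ∈ D, a * b = b * a)
    (hTN : T ≤ normalizer (D : Set G)) :
    ∃ N : D →* D, (∀ t ∈ T, ∀ u : D, t * (N u : G) * t⁻¹ = N u) ∧
      (∀ t ∈ T, ∀ u v : D, t * (u : G) * t⁻¹ = v → N v = N u) ∧
      ∀ u : D, (∀ t ∈ T, t * (u : G) * t⁻¹ = u) →
        (N u : G) = (u : G) ^ (centralizer (D : Set G)).relIndex T := by
  classical
  let C : Subgroup G := centralizer (D : Set G)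
  have hcomm : ∀ a b : D, a * b = b * a := fun a b => Subtype.ext (hab _ a.2 _ b.2)
  let iD : CommGroup D := { (inferInstance : Group D) with mul_comm := hcomm }
  have hnor : (C.subgroupOf T).Normal := by
    refine ⟨fun n hn g => ?_⟩
    rw [mem_subgroupOf] at hn ⊢
    rw [mem_centralizer_iff] at hn ⊢
    intro d hd
    have hg := hTN g.2
    have hd' : (g : G)⁻¹ * d * g ∈ D := by
      have h := (mem_normalizer_iff.1 ((normalizer (D : Set G)).inv_mem hg) d).1 hd
      rwa [inv_inv] at h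
    have h1 := hn _ hd'
    push_cast
    calc d * ((g : G) * n * (g : G)⁻¹) = g * (((g : G)⁻¹ * d * g) * n) * (g : G)⁻¹ := by group
      _ = g * (n * ((g : G)⁻¹ * d * g)) * (g : G)⁻¹ := by rw [h1]
      _ = (g : G) * n * (g : G)⁻¹ * d := by group
  let Q := T ⧸ C.subgroupOf T
  have hfQ : Finite Q := inferInstance
  let _ := Fintype.ofFinite Q
  let act : T → D → D := fun s d => ⟨s * d * (s : G)⁻¹, (mem_normalizer_iff.1 (hTN s.2) _).1 d.2⟩
  have hact : ∀ (s : T) (d : D), ((act s d : D) : G) = s * d * (s : G)⁻¹ := fun s d => rfl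
  have hactC : ∀ (s t : T) (d : D), (s : Q) = (t : Q) → act s d = act t d := by
    intro s t d h
    have h1 := QuotientGroup.eq.1 h
    rw [mem_subgroupOf] at h1
    have h2 := mem_centralizer_iff.1 h1 d d.2
    apply Subtype.ext
    rw [hact, hact]
    have h3 : (d : G) * ((s : G)⁻¹ * t) = ((s : G)⁻¹ * t) * d := by simpa using h2
    calc (s : G) * d * (s : G)⁻¹ = s * (d * ((s : G)⁻¹ * t)) * (t : G)⁻¹ := by group
      _ = s * (((s : G)⁻¹ * t) * d) * (t : G)⁻¹ := by rw [h3]
      _ = t * d * (t : G)⁻¹ := by group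
  have hactmul : ∀ (s : T) (d e : D), act s (d * e) = act s d * act s e := by
    intro s d e
    apply Subtype.ext
    rw [Subgroup.coe_mul, hact, hact, hact, Subgroup.coe_mul]
    group
  have hactone : ∀ s : T, act s 1 = 1 := by
    intro s
    apply Subtype.ext
    rw [hact]
    simp
  have hactact : ∀ (s t : T) (d : D), act s (act t d) = act (s * t) d := by
    intro s t d
    apply Subtype.ext
    rw [hact, hact, hact, Subgroup.coe_mul]
    group
  let N : D →* D :=
    { toFun := fun u => ∏ q : Q, act q.out u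
      map_one' := by
        simp only [hactone, Finset.prod_const_one]
      map_mul' := fun u v => by
        simp only [hactmul, Finset.prod_mul_distrib] }
  have hN : ∀ u, N u = ∏ q : Q, act q.out u := fun _ => rfl
  refine ⟨N, ?_, ?_, ?_⟩
  · intro t ht u
    let s : T := ⟨t, ht⟩
    have hNinv : act s (N u) = N u := by
      let F : D →* D :=
        { toFun := act s
          map_one' := hactone s
          map_mul' := hactmul s }
      have h1 : act s (N u) = F (N u) := rfl
      have h2 : F (N u) = ∏ q : Q, F (act q.out u) := map_prod F _ _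
      rw [h1, h2, hN]
      refine Fintype.prod_equiv (MulAction.toPerm s : Equiv.Perm Q) _ _ fun q => ?_
      change act s (act q.out u) = act ((s • q : Q)).out u
      rw [hactact]
      apply hactC
      have h3 : ((s * q.out : T) : Q) = s • q := by
        conv_rhs => rw [← QuotientGroup.out_eq' q]
        rfl
      rw [h3, QuotientGroup.out_eq']
    exact congrArg Subtype.val hNinv
  · intro t ht u v huv
    let s : T := ⟨t, ht⟩
    have hv : v = act s u := Subtype.ext huv.symm
    rw [hN, hN, hv]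
    refine Fintype.prod_equiv (Equiv.mulRight (s : Q)) _ _ fun q => ?_
    rw [hactact]
    apply hactC
    have h3 : ((q.out * s : T) : Q) = q * (s : Q) := by
      conv_rhs => rw [← QuotientGroup.out_eq' q]
      rfl
    rw [h3]
    exact (QuotientGroup.out_eq' _).symm
  · intro u hu
    have h1 : N u = u ^ C.relIndex T := by
      rw [hN]
      have h2 : ∀ q : Q, act q.out u = u := fun q => Subtype.ext (hu _ q.out.2)
      rw [Finset.prod_congr rfl fun q _ => h2 q, Finset.prod_const, Finset.card_univ,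
        ← Nat.card_eq_fintype_card]
      rfl
    rw [h1]
    rfl

/-- a `T`-invariant homomorphism `D → k` which kills `Q` and not the fixed points of `T` -/
theorem exists_delta {p : ℕ} [hp : Fact p.Prime] {k : Type*} [Field k] [CharP k p]
    {Q : Subgroup G} (hD : IsPGroup p D) (hab : D ≤ centralizer (D : Set G))
    (hTN : T ≤ normalizer (D : Set G)) (hpT : ¬ p ∣ (centralizer (D : Set G)).relIndex T)
    (hQT : T ≤ centralizer (Q : Set G)) {x : G} (hx : x ∈ D)
    (hxT : ∀ t ∈ T, t * x * t⁻¹ = x) (hxQ : x ∉ Q) :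
    ∃ del : G → k, (∀ u ∈ D, ∀ v ∈ D, del (u * v) = del u + del v) ∧
      (∀ t ∈ T, ∀ u ∈ D, del (t * u * t⁻¹) = del u) ∧ (∀ q ∈ Q, q ∈ D → del q = 0) ∧
      ∃ y ∈ D, (∀ t ∈ T, t * y * t⁻¹ = y) ∧ del y ≠ 0 := by
  classical
  have hab' : ∀ a ∈ D, ∀ b ∈ D, a * b = b * a := fun a ha b hb =>
    (mem_centralizer_iff.1 (hab ha) b hb).symm
  obtain ⟨N, hN1, hN2, hN3⟩ := exists_norm hab' hTN
  let K : Subgroup G := D ⊓ centralizer (T : Set G)
  have hKD : K ≤ D := inf_le_left
  have memK : ∀ {u : G}, u ∈ D → (∀ t ∈ T, t * u * t⁻¹ = u) → u ∈ K := by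
    intro u hu h
    refine mem_inf.2 ⟨hu, mem_centralizer_iff.2 fun t ht => ?_⟩
    exact mul_inv_eq_iff_eq_mul.1 (h t ht)
  have Kmem : ∀ {u : G}, u ∈ K → ∀ t ∈ T, t * u * t⁻¹ = u := by
    intro u hu t ht
    have h1 := mem_centralizer_iff.1 (mem_inf.1 hu).2 t ht
    rw [h1, mul_assoc, mul_inv_cancel, mul_one]
  obtain ⟨g, hg1, hg2, y, hyK, hgy⟩ := exists_fun_hom (p := p) (K := K) (Q := Q)
    (hD.to_le hKD) (fun a ha b hb => hab' a (hKD ha) b (hKD hb)) (memK hx hxT) hxQ
  have hNK : ∀ u : D, (N u : G) ∈ K := fun u => memK (N u).2 fun t ht => hN1 t ht u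
  have hgpow : ∀ a ∈ K, ∀ m : ℕ, g (a ^ m) = (m : ZMod p) * g a := by
    intro a ha m
    have h0 : g 1 = 0 := by
      have h := hg1 1 K.one_mem 1 K.one_mem
      rw [mul_one] at h
      exact (add_eq_left.1 h.symm)
    induction m with
    | zero => rw [pow_zero, h0, Nat.cast_zero, zero_mul]
    | succ m ih =>
      rw [pow_succ, hg1 _ (pow_mem ha m) _ ha, ih, Nat.cast_succ]
      ring
  let ι : ZMod p →+* k := ZMod.castHom (dvd_refl p) k
  refine ⟨fun u => if h : u ∈ D then ι (g (N ⟨u, h⟩)) else 0, ?_, ?_, ?_, y, hKD hyK, Kmem hyK, ?_⟩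
  · intro u hu v hv
    have huv : u * v ∈ D := mul_mem hu hv
    simp only [dif_pos hu, dif_pos hv, dif_pos huv]
    have h1 : N ⟨u * v, huv⟩ = N ⟨u, hu⟩ * N ⟨v, hv⟩ := by
      rw [← map_mul]
      rfl
    rw [h1, Subgroup.coe_mul, hg1 _ (hNK _) _ (hNK _), map_add]
  · intro t ht u hu
    have htu : t * u * t⁻¹ ∈ D := (mem_normalizer_iff.1 (hTN ht) u).1 hu
    simp only [dif_pos hu, dif_pos htu]
    rw [hN2 t ht ⟨u, hu⟩ ⟨t * u * t⁻¹, htu⟩ rfl]
  · intro q hq hqD
    simp only [dif_pos hqD]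
    have hqT : ∀ t ∈ T, t * q * t⁻¹ = q := by
      intro t ht
      have h1 := mem_centralizer_iff.1 (hQT ht) q hq
      rw [← h1, mul_assoc, mul_inv_cancel, mul_one]
    rw [hN3 ⟨q, hqD⟩ hqT, hg2 _ (pow_mem (memK hqD hqT) _) (pow_mem hq _), map_zero]
  · simp only [dif_pos (hKD hyK)]
    rw [hN3 ⟨y, hKD hyK⟩ (Kmem hyK), hgpow y hyK, map_mul, map_natCast]
    refine mul_ne_zero ?_ ?_
    · intro h
      exact hpT ((CharP.cast_eq_zero_iff k p _).1 h)
    · intro h
      exact hgy (ι.injective (by rw [h, map_zero]))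

end

end P179H92
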