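import Vale.Agent.P179.R2.H92.RegFth
import Vale.Agent.P179.R2.H292.FinalD

/-!
# The equality when the inertial quotient is faithful on a group of powers
-/

namespace P179H92

open Subgroup P179H292 MonoidAlgebra

open P179B (IsBlock IsDefectGroup InducesTo numSimpleIn numWeightsIn inertialIndex
  inertialGroup PowerFaithful)

section

variable {G : Type*} [Group G] {D T : Subgroup G}

/-- lower bound of `|Ω_i(D)|` by the rank of the group of the `p ^ m`-th powers -/
theorem pow_le_card_omS [Finite G] (hab : ∀ a ∈ D, ∀ b ∈ D, a * b = b * a) {p m s : ℕ}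
    (hs : Nat.card {x // (∃ d ∈ D, d ^ p ^ m = x) ∧ x ^ p = 1} = p ^ s) (i : ℕ) :
    i ≤ m + 1 → p ^ (s * i) ≤ Nat.card (omS hab (p ^ i)) := by
  have hab' : ∀ a ∈ pwS hab (p ^ m), ∀ b ∈ pwS hab (p ^ m), a * b = b * a := fun a ha b hb =>
    hab a (pwS_le hab _ ha) b (pwS_le hab _ hb)
  have h6 : Nat.card (omS hab' p) = p ^ s := by
    rw [← hs]
    rfl
  induction i with
  | zero =>
    intro _
    rw [mul_zero, pow_zero]
    exact Nat.card_pos
  | succ i ih =>
    intro hi
    let f : omS hab (p ^ (i + 1)) →* G :=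
      { toFun := fun x => x.1 ^ p ^ i
        map_one' := one_pow _
        map_mul' := fun x y => by
          have h : Commute x.1 y.1 := hab _ x.2.1 _ y.2.1
          exact h.mul_pow _ }
    have h1 : Nat.card (omS hab (p ^ (i + 1))) = Nat.card f.ker * Nat.card f.range := by
      rw [mul_comm, ← Nat.card_congr (QuotientGroup.quotientKerEquivRange f).toEquiv,
        ← Subgroup.card_eq_card_quotient_mul_card_subgroup]
    have h2 : omS hab' p ≤ f.range := by
      rintro v ⟨⟨y, hy, hyv⟩, hv⟩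
      have e1 : p ^ m = p ^ (m - i) * p ^ i := by
        rw [← pow_add]
        congr 1
        omega
      have e2 : (y ^ p ^ (m - i)) ^ p ^ i = v := by
        rw [← pow_mul, ← e1, hyv]
      refine ⟨⟨y ^ p ^ (m - i), pow_mem hy _, ?_⟩, e2⟩
      rw [pow_succ, pow_mul, e2]
      exact hv
    have h3 : Nat.card f.ker = Nat.card (omS hab (p ^ i)) := by
      refine Nat.card_congr
        { toFun := fun x => (⟨x.1.1, x.1.2.1, x.2⟩ : omS hab (p ^ i))
          invFun := fun x => ⟨⟨x.1, x.2.1, by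
            rw [pow_succ, pow_mul, x.2.2, one_pow]⟩, x.2.2⟩
          left_inv := fun x => rfl
          right_inv := fun x => rfl }
    have h4 := Subgroup.card_le_of_le h2
    rw [h6] at h4
    rw [h1, h3, mul_add, mul_one, pow_add]
    exact Nat.mul_le_mul (ih (by omega)) h4

/-- the order of the inertial quotient, if it is faithful on the group of the `p ^ m`-th powers -/
theorem relIndex_le_prod_fth [Finite G] {p m s : ℕ} [hp : Fact p.Prime] (hD : IsPGroup p D)
    (hab : ∀ a ∈ D, ∀ b ∈ D, a * b = b * a) (hTN : T ≤ normalizer (D : Set G))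
    (hT : ¬ p ∣ (centralizer (D : Set G)).relIndex T)
    (hs : Nat.card {x // (∃ d ∈ D, d ^ p ^ m = x) ∧ x ^ p = 1} = p ^ s)
    (hf : ∀ g ∈ T, (∀ d ∈ D, g * d ^ p ^ m * g⁻¹ = d ^ p ^ m) → g ∈ centralizer (D : Set G)) :
    (centralizer (D : Set G)).relIndex T ≤ ∏ i ∈ Finset.range s, (p ^ (i + 1) - 1) := by
  have hle : pwS hab (p ^ m) ≤ D := pwS_le hab _
  have hab' : ∀ a ∈ pwS hab (p ^ m), ∀ b ∈ pwS hab (p ^ m), a * b = b * a := fun a ha b hb =>
    hab a (hle ha) b (hle hb)
  have hTN' : T ≤ normalizer ((pwS hab (p ^ m) : Subgroup G) : Set G) := by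
    intro t ht
    rw [mem_normalizer_iff]
    intro y
    refine ⟨fun hy => conj_mem_pwS hab (hTN ht) hy, fun hy => ?_⟩
    have h1 := conj_mem_pwS hab (inv_mem (hTN ht)) hy
    have e : t⁻¹ * (t * y * t⁻¹) * t⁻¹⁻¹ = y := by group
    rwa [e] at h1
  have hcle : centralizer (D : Set G) ≤ centralizer ((pwS hab (p ^ m) : Subgroup G) : Set G) :=
    centralizer_le hle
  have heq : (centralizer (D : Set G)).relIndex T =
      (centralizer ((pwS hab (p ^ m) : Subgroup G) : Set G)).relIndex T := by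
    have h1 : (centralizer (D : Set G)).subgroupOf T =
        (centralizer ((pwS hab (p ^ m) : Subgroup G) : Set G)).subgroupOf T := by
      ext t
      rw [mem_subgroupOf, mem_subgroupOf]
      refine ⟨fun h => hcle h, fun h => hf t t.2 fun d hd => ?_⟩
      have h2 := mem_centralizer_iff.1 h (d ^ p ^ m) ⟨d, hd, rfl⟩
      rw [mul_inv_eq_iff_eq_mul]
      exact h2.symm
    unfold Subgroup.relIndex
    rw [h1]
  rw [heq] at hT ⊢
  refine P179H843.relIndex_le_prod (hD.to_le hle) hab' hTN' hT ?_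
  rw [← hs]
  rfl

end

section

universe u

variable {p : ℕ} [hp : Fact p.Prime] {k : Type u} [Field k] [IsAlgClosed k] [CharP k p]
  (red : integralClosure ℤ ℂ →+* k)

/-- **the equality**, if the inertial quotient is faithful on the group of the `p ^ (n - 1)`-th
powers, a group of rank `s`, and `n` is large with respect to `s` and `|D : D ^ (p ^ j)|`. -/
theorem eq_of_faithful_pow (h7 : M7Stmt p k)
    {G : Type} [Group G] [Finite G] {B : MonoidAlgebra k G} (hB : IsBlock B) {D : Subgroup G}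
    (hD : IsDefectGroup B D) (hab : ∀ a ∈ D, ∀ b ∈ D, a * b = b * a)
    {β : MonoidAlgebra k (centralizer (D : Set G))} (hβ : IsBlock β) (hβB : InducesTo β B)
    {s j n : ℕ} (hs1 : 1 ≤ s) (hsj : s ≤ j) (h4 : s * (s + 1) ≤ 4 * j) (hjn : j ≤ n)
    (hs : Nat.card {x // (∃ d ∈ D, d ^ p ^ (n - 1) = x) ∧ x ^ p = 1} = p ^ s)
    (hf : PowerFaithful p (n - 1) D β)
    (hcard : Nat.card D * p ≤ p ^ n * (Nat.card {y : G // ∃ d ∈ D, d ^ p ^ j = y} * p ^ j)) :
    numSimpleIn B = numWeightsIn p red B := by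
  have hDp := isPGroup_of_defect (p := p) hB hD
  obtain ⟨-, hnd⟩ := numWeights_le red hB hD hab hβ hβB
  have hTN : inertialGroup D β ≤ normalizer (D : Set G) := fun n hn => hn.1
  have hE := relIndex_le_prod_fth hDp hab hTN hnd hs hf
  have hn1 : n - 1 + 1 = n := by omega
  -- `s j + 1 ≤ n + j`
  have hsn : s * j + 1 ≤ n + j := by
    have h1 := card_eq_mul hab (p ^ j)
    have h2 := pow_le_card_omS hab hs j (by omega)
    have hY : Nat.card {y : G // ∃ d ∈ D, d ^ p ^ j = y} = Nat.card (pwS hab (p ^ j)) := rfl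
    rw [h1, hY] at hcard
    have hpos : 0 < Nat.card (pwS hab (p ^ j)) := Nat.card_pos
    have h3 : Nat.card (omS hab (p ^ j)) * p ≤ p ^ n * p ^ j := by
      refine Nat.le_of_mul_le_mul_left ?_ hpos
      calc Nat.card (pwS hab (p ^ j)) * (Nat.card (omS hab (p ^ j)) * p)
          = Nat.card (pwS hab (p ^ j)) * Nat.card (omS hab (p ^ j)) * p := by ring
        _ ≤ p ^ n * (Nat.card (pwS hab (p ^ j)) * p ^ j) := hcard
        _ = Nat.card (pwS hab (p ^ j)) * (p ^ n * p ^ j) := by ring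
    have h5 : p ^ (s * j + 1) ≤ p ^ (n + j) := by
      rw [pow_succ, pow_add]
      exact (Nat.mul_le_mul_right _ h2).trans h3
    exact (Nat.pow_le_pow_iff_right hp.out.one_lt).1 h5
  have hc : s = 1 ∨ (s = 2 ∧ 3 ≤ n) ∨ 2 * j + 1 ≤ n := by
    rcases Nat.lt_or_ge 2 s with h | h
    · right; right
      have h5 : 3 * j ≤ s * j := Nat.mul_le_mul_right _ h
      omega
    · have h6 : s = 1 ∨ s = 2 := by omega
      rcases h6 with rfl | rfl
      · exact Or.inl rfl
      · exact Or.inr (Or.inl ⟨rfl, by omega⟩)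
  obtain ⟨w, hw, ho, hreg, hii⟩ := exists_reg_fth hDp hab hTN hnd hs1 hs hf hE hsj h4 hjn hc
  refine eq_of_w red (P179H843.eqRel p k red) h7 hB hD hab hβ hβB (a := n - 1) (j := j)
    (o := p ^ j) (w := w) hf (by omega) hw (pow_pos hp.out.pos _) ho hreg hii ?_ ?_
  · rw [hn1]
    exact hcard
  · rw [hn1]
    refine hE.trans (P179H292.prod_le hp.out.pos ?_)
    rcases hc with h5 | ⟨h5, h6⟩ | h5
    · subst h5
      omega
    · subst h5
      omega
    · omega

/-- the same, in terms of the rank `r` of `D`: `n > j (r - 1)` -/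
theorem eq_of_faithful_rank (h7 : M7Stmt p k)
    {G : Type} [Group G] [Finite G] {B : MonoidAlgebra k G} (hB : IsBlock B) {D : Subgroup G}
    (hD : IsDefectGroup B D) (hab : ∀ a ∈ D, ∀ b ∈ D, a * b = b * a)
    {β : MonoidAlgebra k (centralizer (D : Set G))} (hβ : IsBlock β) (hβB : InducesTo β B)
    {s r j n : ℕ} (hs1 : 1 ≤ s) (hsj : s ≤ j) (h4 : s * (s + 1) ≤ 4 * j) (hjn : j ≤ n)
    (hs : Nat.card {x // (∃ d ∈ D, d ^ p ^ (n - 1) = x) ∧ x ^ p = 1} = p ^ s)
    (hr : Nat.card {x // x ∈ D ∧ x ^ p = 1} = p ^ r) (hrn : j * (r - 1) < n)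
    (hf : PowerFaithful p (n - 1) D β) :
    numSimpleIn B = numWeightsIn p red B := by
  refine eq_of_faithful_pow red h7 hB hD hab hβ hβB hs1 hsj h4 hjn hs hf ?_
  have h1 := card_le_pw hab hr j
  have h5 : p ^ (r * j) * p ≤ p ^ n * p ^ j := by
    rw [← pow_succ, ← pow_add]
    refine Nat.pow_le_pow_right hp.out.pos ?_
    rcases Nat.eq_zero_or_pos r with h | h
    · subst h
      omega
    · obtain ⟨t, rfl⟩ : ∃ t, r = t + 1 := ⟨r - 1, by omega⟩
      rw [Nat.add_sub_cancel] at hrn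
      have : (t + 1) * j = j * t + j := by ring
      omega
  calc Nat.card D * p
      ≤ Nat.card {y : G // ∃ d ∈ D, d ^ p ^ j = y} * p ^ (r * j) * p := Nat.mul_le_mul_right _ h1
    _ = Nat.card {y : G // ∃ d ∈ D, d ^ p ^ j = y} * (p ^ (r * j) * p) := by ring
    _ ≤ Nat.card {y : G // ∃ d ∈ D, d ^ p ^ j = y} * (p ^ n * p ^ j) :=
      Nat.mul_le_mul_left _ h5
    _ = p ^ n * (Nat.card {y : G // ∃ d ∈ D, d ^ p ^ j = y} * p ^ j) := by ring

end

end P179H92
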