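import Vale.Agent.P179.R2.H92.RegFth

/-!
# Regular cosets of abelian groups with cyclic factors of arbitrary orders

`D` is an abelian `p`-subgroup of the finite group `G`, and `T` normalises `D` and induces a
`p'`-group of automorphisms on `D`. If the number of cyclic factors of `D` of order exactly `p ^ i`
is at most `i` and at most `j`, for every `i`, then at least `|D| ((p - 1) / p) ^ r` elements of `D`
are regular modulo `D ^ (p ^ j)` and have order `p ^ j` modulo `D ^ (p ^ j)`.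
-/

namespace P179H92

open Subgroup P179H292

section Count

/-- counting in cosets -/
theorem count_step {G : Type*} [Group G] [Finite G] {p : ℕ} {P : Subgroup G} {A B : Set G}
    (hBA : B ⊆ A) (hA : ∀ x ∈ A, ∀ y ∈ P, x * y ∈ A)
    (hB : ∀ x ∈ B, ∃ Q : Subgroup G, p * Nat.card Q ≤ Nat.card P ∧
      ∀ z ∈ B, x⁻¹ * z ∈ P → x⁻¹ * z ∈ Q) : p * Nat.card B ≤ Nat.card A := by
  classical
  have := Fintype.ofFinite G
  have := Fintype.ofFinite (G ⧸ P)
  rw [Nat.card_eq_card_toFinset, Nat.card_eq_card_toFinset]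
  have h1 := Finset.card_eq_sum_card_fiberwise (s := B.toFinset)
    (t := (Finset.univ : Finset (G ⧸ P))) (f := fun x : G => (QuotientGroup.mk x : G ⧸ P)) (fun x _ => by simp)
  have h2 := Finset.card_eq_sum_card_fiberwise (s := A.toFinset)
    (t := (Finset.univ : Finset (G ⧸ P))) (f := fun x : G => (QuotientGroup.mk x : G ⧸ P)) (fun x _ => by simp)
  rw [h1, h2, Finset.mul_sum]
  refine Finset.sum_le_sum fun c _ => ?_
  rcases (B.toFinset.filter (fun x : G => (QuotientGroup.mk x : G ⧸ P) = c)).eq_empty_or_nonempty with h | ⟨x, hx⟩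
  · rw [h, Finset.card_empty, mul_zero]
    exact Nat.zero_le _
  · rw [Finset.mem_filter, Set.mem_toFinset] at hx
    obtain ⟨hxB, hxc⟩ := hx
    obtain ⟨Q, hQ, hz⟩ := hB x hxB
    have h3 : (B.toFinset.filter (fun x : G => (QuotientGroup.mk x : G ⧸ P) = c)).card ≤ Nat.card Q := by
      have h4 : Nat.card Q = (Q : Set G).toFinset.card := Nat.card_eq_card_toFinset _
      rw [h4]
      refine Finset.card_le_card_of_injOn (fun z => x⁻¹ * z) ?_ ?_
      · intro z hz'
        rw [Finset.mem_coe, Finset.mem_filter, Set.mem_toFinset] at hz'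
        rw [Finset.mem_coe, Set.mem_toFinset]
        refine hz z hz'.1 ?_
        have h5 : (x : G ⧸ P) = z := by rw [hxc, hz'.2]
        exact QuotientGroup.eq.1 h5
      · intro a _ b _ hab
        exact mul_left_cancel hab
    have h6 : Nat.card P ≤ (A.toFinset.filter (fun x : G => (QuotientGroup.mk x : G ⧸ P) = c)).card := by
      have h4 : Nat.card P = (P : Set G).toFinset.card := Nat.card_eq_card_toFinset _
      rw [h4]
      refine Finset.card_le_card_of_injOn (fun y => x * y) ?_ ?_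
      · intro y hy
        rw [Finset.mem_coe, Set.mem_toFinset] at hy
        rw [Finset.mem_coe, Finset.mem_filter, Set.mem_toFinset]
        refine ⟨hA x (hBA hxB) y hy, ?_⟩
        rw [← hxc]
        refine (QuotientGroup.eq.2 ?_).symm
        have e : x⁻¹ * (x * y) = y := by group
        rw [e]
        exact hy
      · intro a _ b _ hab
        exact mul_left_cancel hab
    exact (Nat.mul_le_mul_left _ h3).trans (hQ.trans h6)

end Count

section Fix

variable {G : Type*} [Group G] {D T : Subgroup G} (hab : ∀ a ∈ D, ∀ b ∈ D, a * b = b * a)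

/-- `s w s⁻¹ w⁻¹` for products -/
theorem comm_mul_eq {s x y : G} (hx : x ∈ D) (_hsx : s * x * s⁻¹ ∈ D)
    (hy : y ∈ D) (hsy : s * y * s⁻¹ ∈ D)
    (hab : ∀ a ∈ D, ∀ b ∈ D, a * b = b * a) :
    s * (x * y) * s⁻¹ * (x * y)⁻¹ = (s * x * s⁻¹ * x⁻¹) * (s * y * s⁻¹ * y⁻¹) := by
  have e1 : s * (x * y) * s⁻¹ * (x * y)⁻¹ =
      s * x * s⁻¹ * ((s * y * s⁻¹ * y⁻¹) * x⁻¹) := by group
  rw [e1, hab _ (mul_mem hsy (inv_mem hy)) _ (inv_mem hx)]
  group

theorem comm_inv_eq {s x : G} (hx : x ∈ D) (hsx : s * x * s⁻¹ ∈ D)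
    (hab : ∀ a ∈ D, ∀ b ∈ D, a * b = b * a) :
    s * x⁻¹ * s⁻¹ * x⁻¹⁻¹ = (s * x * s⁻¹ * x⁻¹)⁻¹ := by
  have e1 : s * x⁻¹ * s⁻¹ * x⁻¹⁻¹ = (s * x * s⁻¹)⁻¹ * x := by group
  have e2 : (s * x * s⁻¹ * x⁻¹)⁻¹ = x * (s * x * s⁻¹)⁻¹ := by group
  rw [e1, e2]
  exact hab _ (inv_mem hsx) _ hx

/-- the elements of `Ω_(i+1)(D) D^p` fixed modulo `Ω_i(D) D^p` by the stabiliser of `w` modulo
`P` -/
def fixL (hTN : T ≤ normalizer (D : Set G)) (p i : ℕ) (P : Subgroup G) (w : G) : Subgroup G where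
  carrier := {x | x ∈ ffS hab p (i + 1) ∧ ∀ s ∈ T, s * w * s⁻¹ * w⁻¹ ∈ P →
    s * x * s⁻¹ * x⁻¹ ∈ ffS hab p i}
  one_mem' := ⟨one_mem _, fun s _ _ => by
    have : s * 1 * s⁻¹ * 1⁻¹ = 1 := by group
    rw [this]; exact one_mem _⟩
  mul_mem' := by
    rintro x y ⟨hx, hx'⟩ ⟨hy, hy'⟩
    refine ⟨mul_mem hx hy, fun s hs hsw => ?_⟩
    rw [comm_mul_eq hx.1 ((mem_normalizer_iff.1 (hTN hs) x).1 hx.1) hy.1
      ((mem_normalizer_iff.1 (hTN hs) y).1 hy.1) hab]
    exact mul_mem (hx' s hs hsw) (hy' s hs hsw)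
  inv_mem' := by
    rintro x ⟨hx, hx'⟩
    refine ⟨inv_mem hx, fun s hs hsw => ?_⟩
    rw [comm_inv_eq hx.1 ((mem_normalizer_iff.1 (hTN hs) x).1 hx.1) hab]
    exact inv_mem (hx' s hs hsw)

theorem ffS_mono {p i i' : ℕ} (h : i ≤ i') : ffS hab p i ≤ ffS hab p i' := fun _ hx =>
  ffS_cancel hab h hx.1 hx.2

theorem ffS_le (p i : ℕ) : ffS hab p i ≤ D := fun _ hx => hx.1

theorem ffS_le_fixL (hTN : T ≤ normalizer (D : Set G)) (p i : ℕ) (P : Subgroup G) (w : G) :
    ffS hab p i ≤ fixL hab hTN p i P w := fun _ hx =>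
  ⟨ffS_mono hab (Nat.le_succ i) hx, fun _ hs _ =>
    mul_mem (conj_mem_ffS hab (hTN hs) hx) (inv_mem hx)⟩

theorem fixL_le (hTN : T ≤ normalizer (D : Set G)) (p i : ℕ) (P : Subgroup G) (w : G) :
    fixL hab hTN p i P w ≤ ffS hab p (i + 1) := fun _ hx => hx.1

theorem fixL_mono (hTN : T ≤ normalizer (D : Set G)) {p i : ℕ} {P P' : Subgroup G} {w w' : G}
    (h : ∀ s ∈ T, s * w' * s⁻¹ * w'⁻¹ ∈ P' → s * w * s⁻¹ * w⁻¹ ∈ P) :
    fixL hab hTN p i P w ≤ fixL hab hTN p i P' w' := fun _ hx =>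
  ⟨hx.1, fun s hs hsw => hx.2 s hs (h s hs hsw)⟩

/-- the `p ^ t`-th powers of the elements of `Ω_i(D) D^p` -/
def PP (p t i : ℕ) : Subgroup G :=
  pwS (D := ffS hab p i) (fun a ha b hb => hab a ha.1 b hb.1) (p ^ t)

theorem PP_le (p t i : ℕ) : PP hab p t i ≤ D := by
  rintro _ ⟨v, hv, rfl⟩
  exact pow_mem hv.1 _

theorem PP_mono {p t i i' : ℕ} (h : i ≤ i') : PP hab p t i ≤ PP hab p t i' := by
  rintro _ ⟨v, hv, rfl⟩
  exact ⟨v, ffS_mono hab h hv, rfl⟩

theorem conj_mem_PP {s : G} (hs : s ∈ normalizer (D : Set G)) {p t i : ℕ} {y : G}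
    (hy : y ∈ PP hab p t i) : s * y * s⁻¹ ∈ PP hab p t i := by
  obtain ⟨v, hv, rfl⟩ := hy
  exact ⟨s * v * s⁻¹, conj_mem_ffS hab hs hv, (conj_pow' s v _).symm⟩

theorem PP_zero_left (p i : ℕ) : PP hab p 0 i = ffS hab p i := by
  ext y
  constructor
  · rintro ⟨v, hv, rfl⟩
    rw [pow_zero, pow_one]
    exact hv
  · intro hy
    exact ⟨y, hy, by rw [pow_zero, pow_one]⟩

theorem PP_zero_right (p t : ℕ) : PP hab p t 0 = pwS hab (p ^ (t + 1)) := by
  ext y
  constructor
  · rintro ⟨v, ⟨hv, d, hd, hdv⟩, rfl⟩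
    refine ⟨d, hd, ?_⟩
    rw [pow_zero, pow_one, pow_one] at hdv
    rw [← hdv, ← pow_mul, ← pow_succ']
  · rintro ⟨d, hd, rfl⟩
    refine ⟨d ^ p, ⟨pow_mem hd _, d, hd, ?_⟩, ?_⟩
    · rw [pow_zero, pow_one, pow_one]
    · rw [← pow_mul, ← pow_succ']

theorem PP_top {p t i : ℕ} (hi : ffS hab p i = D) : PP hab p t i = pwS hab (p ^ t) := by
  ext y
  constructor
  · rintro ⟨v, hv, rfl⟩
    exact ⟨v, hv.1, rfl⟩
  · rintro ⟨v, hv, rfl⟩
    exact ⟨v, by rw [hi]; exact hv, rfl⟩

theorem PP_cancel {p t i : ℕ} (ht : t ≤ i) {v : G} (hv : v ∈ D)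
    (h : v ^ p ^ t ∈ PP hab p t i) : v ∈ ffS hab p i := by
  obtain ⟨a, ha, hav⟩ := h
  have hc : Commute v a⁻¹ := hab _ hv _ (inv_mem ha.1)
  have h1 : v * a⁻¹ ∈ ffS hab p i := by
    refine ffS_cancel hab ht (mul_mem hv (inv_mem ha.1)) ?_
    rw [hc.mul_pow, ← hav, inv_pow, mul_inv_cancel]
    exact one_mem _
  have h2 := mul_mem h1 ha
  rwa [inv_mul_cancel_right] at h2

end Fix

section Step

variable {G : Type*} [Group G] [Finite G] {D T : Subgroup G}

/-- the stabiliser of `w` modulo `P` -/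
def stS (hTN : T ≤ normalizer (D : Set G)) {P : Subgroup G}
    (hP : ∀ s ∈ normalizer (D : Set G), ∀ y ∈ P, s * y * s⁻¹ ∈ P) (w : G) : Subgroup G where
  carrier := {s | s ∈ T ∧ s * w * s⁻¹ * w⁻¹ ∈ P}
  one_mem' := ⟨one_mem _, by
    have : (1 : G) * w * 1⁻¹ * w⁻¹ = 1 := by group
    rw [this]; exact one_mem _⟩
  mul_mem' := by
    rintro s t ⟨hs, hs'⟩ ⟨ht, ht'⟩
    refine ⟨mul_mem hs ht, ?_⟩
    have e : s * t * w * (s * t)⁻¹ * w⁻¹ =
        (s * (t * w * t⁻¹ * w⁻¹) * s⁻¹) * (s * w * s⁻¹ * w⁻¹) := by group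
    rw [e]
    exact mul_mem (hP _ (hTN hs) _ ht') hs'
  inv_mem' := by
    rintro s ⟨hs, hs'⟩
    refine ⟨inv_mem hs, ?_⟩
    have e : s⁻¹ * w * s⁻¹⁻¹ * w⁻¹ = s⁻¹ * (s * w * s⁻¹ * w⁻¹)⁻¹ * s⁻¹⁻¹ := by group
    rw [e]
    exact hP _ (inv_mem (hTN hs)) _ (inv_mem hs')

omit [Finite G] in
/-- congruent elements have the same stabiliser -/
theorem comm_congr {P : Subgroup G} (hPD : P ≤ D) (hab : ∀ a ∈ D, ∀ b ∈ D, a * b = b * a)
    (hP : ∀ s ∈ normalizer (D : Set G), ∀ y ∈ P, s * y * s⁻¹ ∈ P) {s x u : G}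
    (hs : s ∈ normalizer (D : Set G)) (hx : x ∈ D) (hxu : x⁻¹ * u ∈ P)
    (h : s * x * s⁻¹ * x⁻¹ ∈ P) : s * u * s⁻¹ * u⁻¹ ∈ P := by
  have hsD : ∀ y ∈ D, s * y * s⁻¹ ∈ D := fun y hy => (mem_normalizer_iff.1 hs y).1 hy
  have e : u = x * (x⁻¹ * u) := by group
  rw [e, comm_mul_eq hx (hsD x hx) (hPD hxu) (hsD _ (hPD hxu)) hab]
  exact mul_mem h (mul_mem (hP s hs _ hxu) (inv_mem hxu))

/-- **one step**: in every coset of `(Ω_(i+1)(D) D^p) ^ (p^t)` the proportion of elements with a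
larger stabiliser is at most `1 / p` -/
theorem step_bad {p : ℕ} [hp : Fact p.Prime] (hD : IsPGroup p D)
    (hab : ∀ a ∈ D, ∀ b ∈ D, a * b = b * a) (hTN : T ≤ normalizer (D : Set G))
    (hT : ¬ p ∣ (centralizer (D : Set G)).relIndex T) {t i : ℕ} (hti : t ≤ i) {A : Set G}
    (hAD : ∀ x ∈ A, x ∈ D) (hA : ∀ x ∈ A, ∀ y ∈ PP hab p t (i + 1), x * y ∈ A) :
    p * Nat.card {x | x ∈ A ∧ fixL hab hTN p i (PP hab p t (i + 1)) x ≠ ffS hab p (i + 1) ∧
      ¬ p * Nat.card (fixL hab hTN p i (PP hab p t (i + 1)) x) ≤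
        Nat.card (fixL hab hTN p i (PP hab p t i) x)} ≤ Nat.card A := by
  have hPN : ∀ l : ℕ, ∀ s ∈ normalizer (D : Set G), ∀ y ∈ PP hab p t l, s * y * s⁻¹ ∈ PP hab p t l :=
    fun l s hs y hy => conj_mem_PP hab hs hy
  refine count_step (P := PP hab p t (i + 1)) (fun x hx => hx.1) hA ?_
  rintro x ⟨hxA, hxne, hxp⟩
  have hx := hAD x hxA
  set Φ := fixL hab hTN p i (PP hab p t (i + 1)) x with hΦ
  have hΦD : Φ ≤ D := (fixL_le hab hTN p i _ x).trans (ffS_le hab p _)
  have habΦ : ∀ a ∈ Φ, ∀ b ∈ Φ, a * b = b * a := fun a ha b hb => hab a (hΦD ha) b (hΦD hb)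
  -- the group `Q`
  obtain ⟨v₁, hv₁, hv₁Φ⟩ : ∃ v ∈ ffS hab p (i + 1), v ∉ Φ := by
    by_contra hcon
    push Not at hcon
    exact hxne (le_antisymm (fixL_le hab hTN p i _ x) hcon)
  refine ⟨pwS habΦ (p ^ t), ?_, ?_⟩
  · refine mul_card_le (hD.to_le (PP_le hab p t _)) ?_ (v := v₁ ^ p ^ t) ⟨v₁, hv₁, rfl⟩ ?_
    · rintro _ ⟨v, hv, rfl⟩
      exact ⟨v, hv.1, rfl⟩
    · rintro ⟨v, hv, hvv⟩
      apply hv₁Φ
      have hc : Commute v₁ v⁻¹ := hab _ hv₁.1 _ (inv_mem (hΦD hv))
      have h1 : v₁ * v⁻¹ ∈ ffS hab p i := by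
        refine PP_cancel hab hti (mul_mem hv₁.1 (inv_mem (hΦD hv))) ?_
        rw [hc.mul_pow, ← hvv, inv_pow, mul_inv_cancel]
        exact one_mem _
      have h2 := mul_mem (ffS_le_fixL hab hTN p i (PP hab p t (i + 1)) x h1) hv
      rwa [inv_mul_cancel_right] at h2
  · -- the fixed representative
    obtain ⟨x₀, hx₀, hx₀x, hfix⟩ := exists_fixed_rep (S := stS hTN (hPN (i + 1)) x) hD hab hTN hT
      (fun s hs => hs.1) hx (fun s hs => hs.2)
    have key : ∀ u ∈ D, x⁻¹ * u ∈ PP hab p t (i + 1) →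
        ¬ p * Nat.card (fixL hab hTN p i (PP hab p t (i + 1)) u) ≤
          Nat.card (fixL hab hTN p i (PP hab p t i) u) → x₀⁻¹ * u ∈ pwS habΦ (p ^ t) := by
      intro u hu hxu hup
      -- stabilisers
      have hux : u⁻¹ * x ∈ PP hab p t (i + 1) := by
        have e : u⁻¹ * x = (x⁻¹ * u)⁻¹ := by group
        rw [e]
        exact inv_mem hxu
      have hfixu : fixL hab hTN p i (PP hab p t (i + 1)) u = Φ := by
        apply le_antisymm
        · exact fixL_mono hab hTN fun s hs h =>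
            comm_congr (PP_le hab p t _) hab (hPN _) (hTN hs) hx hxu h
        · exact fixL_mono hab hTN fun s hs h =>
            comm_congr (PP_le hab p t _) hab (hPN _) (hTN hs) hu hux h
      have hx₀u : x₀⁻¹ * u ∈ PP hab p t (i + 1) := by
        have e : x₀⁻¹ * u = (x₀ * x⁻¹)⁻¹ * (x⁻¹ * u) := by
          have e1 : (x₀ * x⁻¹)⁻¹ * (x⁻¹ * u) = (x * x₀⁻¹) * (x⁻¹ * u) := by group
          rw [e1, hab _ hx _ (inv_mem hx₀)]
          group
        rw [e]
        exact mul_mem (inv_mem hx₀x) hxu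
      obtain ⟨v, hv, hvu⟩ := hx₀u
      have hst : ∀ s ∈ T, s * u * s⁻¹ * u⁻¹ ∈ PP hab p t i →
          s * x * s⁻¹ * x⁻¹ ∈ PP hab p t (i + 1) ∧ s * v * s⁻¹ * v⁻¹ ∈ ffS hab p i := by
        intro s hs hsu
        have h1 : s * x * s⁻¹ * x⁻¹ ∈ PP hab p t (i + 1) :=
          comm_congr (PP_le hab p t _) hab (hPN _) (hTN hs) hu hux
            (PP_mono hab (Nat.le_succ i) hsu)
        refine ⟨h1, ?_⟩
        have hsD : ∀ y ∈ D, s * y * s⁻¹ ∈ D := fun y hy => (mem_normalizer_iff.1 (hTN hs) y).1 hy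
        have h2 := hfix s ⟨hs, h1⟩
        have hyD : x₀⁻¹ * u ∈ D := mul_mem (inv_mem hx₀) hu
        have e : u = x₀ * (x₀⁻¹ * u) := by group
        rw [e, comm_mul_eq hx₀ (hsD _ hx₀) hyD (hsD _ hyD) hab, h2, mul_inv_cancel, one_mul,
          ← hvu] at hsu
        have hc : Commute (s * v * s⁻¹) v⁻¹ := hab _ (hsD _ hv.1) _ (inv_mem hv.1)
        rw [conj_pow', ← inv_pow, ← hc.mul_pow] at hsu
        exact PP_cancel hab hti (mul_mem (hsD _ hv.1) (inv_mem hv.1)) hsu
      by_contra hcon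
      have hvΦ : v ∉ Φ := fun h => hcon ⟨v, h, hvu⟩
      apply hup
      rw [hfixu]
      refine mul_card_le (hD.to_le ((fixL_le hab hTN p i _ u).trans (ffS_le hab p _))) ?_
        (v := v) ⟨hv, fun s hs h => (hst s hs h).2⟩ hvΦ
      exact fixL_mono hab hTN fun s hs h => (hst s hs h).1
    rintro z ⟨hzA, -, hzp⟩ hxz
    have h1 := key z (hAD z hzA) hxz hzp
    have h2 := key x hx (by rw [inv_mul_cancel]; exact one_mem _) hxp
    have e : x⁻¹ * z = (x₀⁻¹ * x)⁻¹ * (x₀⁻¹ * z) := by group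
    rw [e]
    exact mul_mem (inv_mem h2) h1

end Step

section Main

variable {G : Type*} [Group G] [Finite G] {D T : Subgroup G}

/-- the good elements -/
def goodS (hab : ∀ a ∈ D, ∀ b ∈ D, a * b = b * a) (hTN : T ≤ normalizer (D : Set G)) (p m : ℕ)
    (P : Subgroup G) (c : ℕ → ℕ) : Set G :=
  {x | x ∈ D ∧ x ∉ ffS hab p m ∧
    ∀ i < m + 1, p ^ c i * Nat.card (ffS hab p i) ≤ Nat.card (fixL hab hTN p i P x)}

/-- the number of completed steps -/
def cnt (r : ℕ → ℕ) (t i l : ℕ) : ℕ := if i ≤ l then min (r l) (t + 1) else min (r l) t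

theorem goodS_sat {hab : ∀ a ∈ D, ∀ b ∈ D, a * b = b * a} {hTN : T ≤ normalizer (D : Set G)}
    {p m : ℕ} {P : Subgroup G} (hPD : P ≤ ffS hab p m)
    (hPN : ∀ s ∈ normalizer (D : Set G), ∀ y ∈ P, s * y * s⁻¹ ∈ P) {c : ℕ → ℕ} {x : G}
    (hx : x ∈ goodS hab hTN p m P c) {y : G} (hy : y ∈ P) : x * y ∈ goodS hab hTN p m P c := by
  obtain ⟨h1, h2, h3⟩ := hx
  have hPD' : P ≤ D := hPD.trans (ffS_le hab p m)
  have hyD := hPD' hy
  refine ⟨mul_mem h1 hyD, fun h => h2 ?_, fun i hi => (h3 i hi).trans ?_⟩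
  · have h4 := mul_mem h (inv_mem (hPD hy))
    rwa [mul_inv_cancel_right] at h4
  · refine Subgroup.card_le_of_le (fixL_mono hab hTN fun s hs h => ?_)
    refine comm_congr hPD' hab hPN (hTN hs) (mul_mem h1 hyD) ?_ h
    have e : (x * y)⁻¹ * x = y⁻¹ := by group
    rw [e]
    exact inv_mem hy

/-- **one layer** -/
theorem layer_step {p : ℕ} [hp : Fact p.Prime] (hD : IsPGroup p D)
    (hab : ∀ a ∈ D, ∀ b ∈ D, a * b = b * a) (hTN : T ≤ normalizer (D : Set G))
    (hT : ¬ p ∣ (centralizer (D : Set G)).relIndex T) {m : ℕ} {r : ℕ → ℕ}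
    (hr : ∀ i < m + 1, Nat.card (ffS hab p (i + 1)) = p ^ r i * Nat.card (ffS hab p i))
    (hri : ∀ i < m + 1, r i ≤ i + 1) {t i N : ℕ} (him : i < m + 1)
    (hPm : PP hab p t (i + 1) ≤ ffS hab p m)
    (h : (p - 1) ^ N * Nat.card D ≤
      p ^ N * Nat.card (goodS hab hTN p m (PP hab p t (i + 1)) (cnt r t (i + 1)))) :
    (p - 1) ^ (N + if t < r i then 1 else 0) * Nat.card D ≤
      p ^ (N + if t < r i then 1 else 0) *
        Nat.card (goodS hab hTN p m (PP hab p t i) (cnt r t i)) := by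
  have hPN : ∀ s ∈ normalizer (D : Set G), ∀ y ∈ PP hab p t (i + 1),
      s * y * s⁻¹ ∈ PP hab p t (i + 1) := fun s hs y hy => conj_mem_PP hab hs hy
  have hmono : ∀ l x, Nat.card (fixL hab hTN p l (PP hab p t (i + 1)) x) ≤
      Nat.card (fixL hab hTN p l (PP hab p t i) x) := fun l x =>
    Subgroup.card_le_of_le (fixL_mono hab hTN fun s _ h => PP_mono hab (Nat.le_succ i) h)
  have hcnt : ∀ l, l ≠ i → cnt r t i l = cnt r t (i + 1) l := by
    intro l hl
    unfold cnt
    by_cases h1 : i ≤ l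
    · rw [if_pos h1, if_pos (by omega)]
    · rw [if_neg h1, if_neg (by omega)]
  by_cases hti : t < r i
  · rw [if_pos hti]
    have hti' : t ≤ i := by
      have := hri i him
      omega
    set A := goodS hab hTN p m (PP hab p t (i + 1)) (cnt r t (i + 1)) with hA
    set B := {x | x ∈ A ∧ fixL hab hTN p i (PP hab p t (i + 1)) x ≠ ffS hab p (i + 1) ∧
      ¬ p * Nat.card (fixL hab hTN p i (PP hab p t (i + 1)) x) ≤
        Nat.card (fixL hab hTN p i (PP hab p t i) x)} with hB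
    set A' := goodS hab hTN p m (PP hab p t i) (cnt r t i) with hA'
    have h1 : p * Nat.card B ≤ Nat.card A :=
      step_bad hD hab hTN hT hti' (A := A) (fun x hx => hx.1)
        (fun x hx y hy => goodS_sat hPm hPN hx hy)
    have hsub : A ⊆ B ∪ A' := by
      intro x hx
      by_cases hxB : x ∈ B
      · exact Or.inl hxB
      · right
        refine ⟨hx.1, hx.2.1, fun l hl => ?_⟩
        by_cases hli : l = i
        · subst hli
          have hc : cnt r t l l = t + 1 := by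
            unfold cnt
            rw [if_pos le_rfl]
            omega
          have hc' : cnt r t (l + 1) l = t := by
            unfold cnt
            rw [if_neg (by omega)]
            omega
          rw [hc]
          by_cases hfull : fixL hab hTN p l (PP hab p t (l + 1)) x = ffS hab p (l + 1)
          · refine le_trans ?_ (hmono l x)
            rw [hfull, hr l hl]
            exact Nat.mul_le_mul_right _ (Nat.pow_le_pow_right hp.out.pos hti)
          · have h2 : p * Nat.card (fixL hab hTN p l (PP hab p t (l + 1)) x) ≤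
                Nat.card (fixL hab hTN p l (PP hab p t l) x) := by
              by_contra hcon
              exact hxB ⟨hx, hfull, hcon⟩
            refine le_trans ?_ h2
            have h3 := hx.2.2 l hl
            rw [hc'] at h3
            calc p ^ (t + 1) * Nat.card (ffS hab p l)
                = p * (p ^ t * Nat.card (ffS hab p l)) := by rw [pow_succ']; ring
              _ ≤ _ := Nat.mul_le_mul_left _ h3
        · rw [hcnt l hli]
          exact (hx.2.2 l hl).trans (hmono l x)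
    have h2 : Nat.card A ≤ Nat.card B + Nat.card A' := by
      have h3 : Nat.card A ≤ Nat.card (B ∪ A' : Set G) :=
        Nat.card_mono (Set.toFinite _) hsub
      refine h3.trans ?_
      simp only [Nat.card_coe_set_eq]
      exact Set.ncard_union_le _ _
    obtain ⟨q, hq⟩ : ∃ q, p = q + 1 := ⟨p - 1, by have := hp.out.pos; omega⟩
    have h4 : (p - 1) * Nat.card A ≤ p * Nat.card A' := by
      rw [hq] at h1 ⊢
      rw [Nat.add_sub_cancel]
      have h5 : (q + 1) * Nat.card A ≤ (q + 1) * Nat.card B + (q + 1) * Nat.card A' := by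
        rw [← mul_add]
        exact Nat.mul_le_mul_left _ h2
      have h6 : (q + 1) * Nat.card A = q * Nat.card A + Nat.card A := by ring
      omega
    calc (p - 1) ^ (N + 1) * Nat.card D = (p - 1) * ((p - 1) ^ N * Nat.card D) := by
          rw [pow_succ']; ring
      _ ≤ (p - 1) * (p ^ N * Nat.card A) := Nat.mul_le_mul_left _ h
      _ = p ^ N * ((p - 1) * Nat.card A) := by ring
      _ ≤ p ^ N * (p * Nat.card A') := Nat.mul_le_mul_left _ h4
      _ = p ^ (N + 1) * Nat.card A' := by rw [pow_succ]; ring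
  · rw [if_neg hti, add_zero]
    refine h.trans (Nat.mul_le_mul_left _ (Nat.card_mono (Set.toFinite _) ?_))
    intro x hx
    refine ⟨hx.1, hx.2.1, fun l hl => ?_⟩
    have hc : cnt r t i l = cnt r t (i + 1) l := by
      by_cases hli : l = i
      · subst hli
        unfold cnt
        rw [if_pos le_rfl, if_neg (by omega)]
        omega
      · exact hcnt l hli
    rw [hc]
    exact (hx.2.2 l hl).trans (hmono l x)

/-- all layers of one digit -/
theorem layers {p : ℕ} [hp : Fact p.Prime] (hD : IsPGroup p D)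
    (hab : ∀ a ∈ D, ∀ b ∈ D, a * b = b * a) (hTN : T ≤ normalizer (D : Set G))
    (hT : ¬ p ∣ (centralizer (D : Set G)).relIndex T) {m : ℕ} {r : ℕ → ℕ}
    (hr : ∀ i < m + 1, Nat.card (ffS hab p (i + 1)) = p ^ r i * Nat.card (ffS hab p i))
    (hri : ∀ i < m + 1, r i ≤ i + 1) {t : ℕ} (i : ℕ) : ∀ N : ℕ, i ≤ m + 1 →
    PP hab p t i ≤ ffS hab p m →
    (p - 1) ^ N * Nat.card D ≤
      p ^ N * Nat.card (goodS hab hTN p m (PP hab p t i) (cnt r t i)) →
    (p - 1) ^ (N + ∑ l ∈ Finset.range i, if t < r l then 1 else 0) * Nat.card D ≤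
      p ^ (N + ∑ l ∈ Finset.range i, if t < r l then 1 else 0) *
        Nat.card (goodS hab hTN p m (PP hab p t 0) (cnt r t 0)) := by
  induction i with
  | zero =>
    intro N _ _ h
    rw [Finset.sum_range_zero, add_zero]
    exact h
  | succ i ih =>
    intro N hi hPm h
    have h1 := layer_step hD hab hTN hT hr hri (t := t) (i := i) (N := N) (by omega) hPm h
    have h2 := ih _ (by omega) ((PP_mono hab (Nat.le_succ i)).trans hPm) h1
    rw [Finset.sum_range_succ]
    have e : N + (∑ l ∈ Finset.range i, (if t < r l then 1 else 0) + if t < r i then 1 else 0) =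
        N + (if t < r i then 1 else 0) + ∑ l ∈ Finset.range i, (if t < r l then 1 else 0) := by
      ring
    rw [e]
    exact h2

/-- all digits -/
theorem digits {p : ℕ} [hp : Fact p.Prime] (hD : IsPGroup p D)
    (hab : ∀ a ∈ D, ∀ b ∈ D, a * b = b * a) (hTN : T ≤ normalizer (D : Set G))
    (hT : ¬ p ∣ (centralizer (D : Set G)).relIndex T) {m : ℕ} {r : ℕ → ℕ}
    (hr : ∀ i < m + 1, Nat.card (ffS hab p (i + 1)) = p ^ r i * Nat.card (ffS hab p i))
    (hri : ∀ i < m + 1, r i ≤ i + 1) (htop : ffS hab p (m + 1) = D) (hrm : 1 ≤ r m) (t : ℕ) :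
    (p - 1) ^ (∑ l ∈ Finset.range (m + 1), min (r l) (t + 1)) * Nat.card D ≤
      p ^ (∑ l ∈ Finset.range (m + 1), min (r l) (t + 1)) *
        Nat.card (goodS hab hTN p m (PP hab p t 0) (cnt r t 0)) := by
  have hfm : p * Nat.card (ffS hab p m) ≤ Nat.card D := by
    have h1 := hr m (by omega)
    rw [htop] at h1
    rw [h1]
    refine Nat.mul_le_mul_right _ ?_
    calc p = p ^ 1 := (pow_one p).symm
      _ ≤ p ^ r m := Nat.pow_le_pow_right hp.out.pos hrm
  induction t with
  | zero =>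
    -- the first layer
    have h0 : (p - 1) ^ 1 * Nat.card D ≤
        p ^ 1 * Nat.card (goodS hab hTN p m (PP hab p 0 m) (cnt r 0 m)) := by
      rw [pow_one, pow_one]
      have hsub : (D : Set G) ⊆ (ffS hab p m : Set G) ∪
          goodS hab hTN p m (PP hab p 0 m) (cnt r 0 m) := by
        intro x hx
        by_cases hxm : x ∈ ffS hab p m
        · exact Or.inl hxm
        · right
          refine ⟨hx, hxm, fun i hi => ?_⟩
          by_cases him : i = m
          · subst him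
            have hc : cnt r 0 i i ≤ 1 := by
              unfold cnt
              rw [if_pos le_rfl]
              omega
            refine (Nat.mul_le_mul_right _ (Nat.pow_le_pow_right hp.out.pos hc)).trans ?_
            rw [pow_one]
            refine mul_card_le (hD.to_le ((fixL_le hab hTN p i _ x).trans (ffS_le hab p _)))
              (ffS_le_fixL hab hTN p i _ x) (v := x) ⟨by rw [htop]; exact hx, ?_⟩ hxm
            intro s _ hs
            rwa [PP_zero_left] at hs
          · have hc : cnt r 0 m i = 0 := by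
              unfold cnt
              rw [if_neg (by omega)]
              omega
            rw [hc, pow_zero, one_mul]
            exact Subgroup.card_le_of_le (ffS_le_fixL hab hTN p i _ x)
      have h2 : Nat.card D ≤ Nat.card (ffS hab p m) +
          Nat.card (goodS hab hTN p m (PP hab p 0 m) (cnt r 0 m)) := by
        have h3 : Nat.card D ≤ Nat.card ((ffS hab p m : Set G) ∪
            goodS hab hTN p m (PP hab p 0 m) (cnt r 0 m) : Set G) :=
          Nat.card_mono (Set.toFinite _) hsub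
        refine h3.trans ?_
        have h4 : Nat.card (ffS hab p m) = (ffS hab p m : Set G).ncard := rfl
        rw [Nat.card_coe_set_eq, h4, Nat.card_coe_set_eq]
        exact Set.ncard_union_le _ _
      obtain ⟨q, hq⟩ : ∃ q, p = q + 1 := ⟨p - 1, by have := hp.out.pos; omega⟩
      generalize Nat.card (goodS hab hTN p m (PP hab p 0 m) (cnt r 0 m)) = a at h2 ⊢
      generalize Nat.card (ffS hab p m) = b at h2 hfm
      generalize Nat.card D = c at h2 hfm ⊢
      rw [hq] at hfm ⊢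
      rw [Nat.add_sub_cancel]
      have h5 : (q + 1) * c ≤ (q + 1) * (b + a) := Nat.mul_le_mul_left _ h2
      have h6 : (q + 1) * (b + a) = (q + 1) * b + (q + 1) * a := by ring
      have h7 : (q + 1) * c = q * c + c := by ring
      omega
    have h1 := layers hD hab hTN hT hr hri (t := 0) m 1 (by omega)
      (by rw [PP_zero_left]) h0
    have e : ∑ l ∈ Finset.range (m + 1), min (r l) (0 + 1) =
        1 + ∑ l ∈ Finset.range m, (if 0 < r l then 1 else 0) := by
      rw [Finset.sum_range_succ, add_comm]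
      congr 1
      · omega
      · refine Finset.sum_congr rfl fun l _ => ?_
        split_ifs with h
        · omega
        · omega
    rw [e]
    exact h1
  | succ t ih =>
    have hPP : PP hab p (t + 1) (m + 1) = PP hab p t 0 := by
      rw [PP_top hab htop, PP_zero_right]
    have hPm : PP hab p (t + 1) (m + 1) ≤ ffS hab p m := by
      rw [hPP, PP_zero_right]
      refine (pwS_mono hab (i := 1) (by omega)).trans ?_
      have h1 := PP_zero_right hab p 0
      rw [zero_add] at h1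
      rw [← h1, PP_zero_left]
      exact ffS_mono hab (Nat.zero_le m)
    have hgood : goodS hab hTN p m (PP hab p (t + 1) (m + 1)) (cnt r (t + 1) (m + 1)) =
        goodS hab hTN p m (PP hab p t 0) (cnt r t 0) := by
      rw [hPP]
      ext x
      refine and_congr_right fun _ => and_congr_right fun _ => forall_congr' fun l =>
        imp_congr_right fun hl => ?_
      have hc : cnt r (t + 1) (m + 1) l = cnt r t 0 l := by
        unfold cnt
        rw [if_neg (by omega), if_pos (Nat.zero_le l)]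
      rw [hc]
    have h1 := layers hD hab hTN hT hr hri (t := t + 1) (m + 1)
      (∑ l ∈ Finset.range (m + 1), min (r l) (t + 1)) le_rfl hPm (by rw [hgood]; exact ih)
    have e : ∑ l ∈ Finset.range (m + 1), min (r l) (t + 1 + 1) =
        ∑ l ∈ Finset.range (m + 1), min (r l) (t + 1) +
          ∑ l ∈ Finset.range (m + 1), (if t + 1 < r l then 1 else 0) := by
      rw [← Finset.sum_add_distrib]
      refine Finset.sum_congr rfl fun l _ => ?_
      split_ifs with h
      · omega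
      · omega
    rw [e]
    exact h1

/-- **regular cosets of `D ^ (p ^ j)`**, cyclic factors of arbitrary orders: `d i` is the number of
cyclic factors of order at least `p ^ (i + 1)` -/
theorem card_reg_ge {p : ℕ} [hp : Fact p.Prime] (hD : IsPGroup p D)
    (hab : ∀ a ∈ D, ∀ b ∈ D, a * b = b * a) (hTN : T ≤ normalizer (D : Set G))
    (hT : ¬ p ∣ (centralizer (D : Set G)).relIndex T) {m j : ℕ} {d : ℕ → ℕ}
    (hd : ∀ i, Nat.card {x // (∃ y ∈ D, y ^ p ^ i = x) ∧ x ^ p = 1} = p ^ d i)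
    (hdm1 : d (m + 1) = 0) (hdm : 1 ≤ d m) (hj1 : 1 ≤ j) (hjm : j ≤ m + 1)
    (hri : ∀ i < m + 1, d i ≤ d (i + 1) + (i + 1)) (hrj : ∀ i < m + 1, d i ≤ d (i + 1) + j) :
    (p - 1) ^ d 0 * Nat.card D ≤ p ^ d 0 * Nat.card {w : G // w ∈ D ∧
      (∀ i : ℕ, (∃ d ∈ D, w ^ i = d ^ p ^ j) → p ^ j ∣ i) ∧
      (∀ t ∈ T, (∃ d ∈ D, t * w * t⁻¹ * w⁻¹ = d ^ p ^ j) → t ∈ centralizer (D : Set G))} := by
  have hcard : ∀ i, Nat.card D = p ^ d i * Nat.card (ffS hab p i) := fun i =>
    card_ffS hab (hd i)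
  have hanti : ∀ i, d (i + 1) ≤ d i := by
    intro i
    refine (Nat.pow_le_pow_iff_right hp.out.one_lt).1 ?_
    rw [← hd, ← hd]
    refine Nat.card_mono (Set.toFinite {x | (∃ y ∈ D, y ^ p ^ i = x) ∧ x ^ p = 1}) ?_
    rintro x ⟨⟨y, hy, rfl⟩, hx⟩
    exact ⟨⟨y ^ p, pow_mem hy _, by rw [← pow_mul, ← pow_succ']⟩, hx⟩
  set r : ℕ → ℕ := fun i => d i - d (i + 1) with hrdef
  have hr : ∀ i < m + 1, Nat.card (ffS hab p (i + 1)) = p ^ r i * Nat.card (ffS hab p i) := by
    intro i _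
    have h1 := hcard i
    have h2 := hcard (i + 1)
    have h3 : p ^ d i = p ^ d (i + 1) * p ^ r i := by
      rw [← pow_add]
      congr 1
      have := hanti i
      simp only [hrdef]
      omega
    rw [h2, h3, mul_assoc] at h1
    exact Nat.eq_of_mul_eq_mul_left (pow_pos hp.out.pos _) h1
  have hr1 : ∀ i < m + 1, r i ≤ i + 1 := by
    intro i hi
    have := hri i hi
    simp only [hrdef]
    omega
  have hrj' : ∀ i < m + 1, r i ≤ j := by
    intro i hi
    have := hrj i hi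
    simp only [hrdef]
    omega
  have htop : ffS hab p (m + 1) = D := by
    refine Subgroup.eq_of_le_of_card_ge (ffS_le hab p _) ?_
    have h1 := hcard (m + 1)
    rw [hdm1, pow_zero, one_mul] at h1
    exact h1.le
  have hrm : 1 ≤ r m := by
    simp only [hrdef]
    omega
  have hsum : ∑ l ∈ Finset.range (m + 1), min (r l) (j - 1 + 1) = d 0 := by
    have h1 : ∀ n, n ≤ m + 1 → ∑ l ∈ Finset.range n, min (r l) (j - 1 + 1) + d n = d 0 := by
      intro n
      induction n with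
      | zero =>
        intro _
        rw [Finset.sum_range_zero, zero_add]
      | succ n ih =>
        intro hn
        rw [← ih (by omega), Finset.sum_range_succ]
        have h2 := hrj' n (by omega)
        have h3 := hanti n
        have h4 : min (r n) (j - 1 + 1) = r n := by omega
        rw [h4]
        simp only [hrdef]
        omega
    have h2 := h1 (m + 1) le_rfl
    rw [hdm1, add_zero] at h2
    exact h2
  have h1 := digits hD hab hTN hT hr hr1 htop hrm (j - 1)
  rw [hsum] at h1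
  refine h1.trans (Nat.mul_le_mul_left _ (Nat.card_mono (Set.toFinite _) ?_))
  have hj : j - 1 + 1 = j := by omega
  rintro w ⟨hw, hwm, hfix⟩
  have hcan : ∀ i ≤ m, ∀ x ∈ D, x ^ p ^ i ∈ pwS hab (p ^ (i + 1)) → x ∈ ffS hab p m :=
    fun i hi x hx h => ffS_cancel hab hi hx h
  refine ⟨hw, ?_, ?_⟩
  · rintro i ⟨y, hy, hwy⟩
    exact pow_dvd_of_memF hD hab hcan hw hwm j hjm i ⟨y, hy, hwy.symm⟩
  · have hPN : ∀ s ∈ normalizer (D : Set G), ∀ y ∈ PP hab p (j - 1) 0,
        s * y * s⁻¹ ∈ PP hab p (j - 1) 0 := fun s hs y hy => conj_mem_PP hab hs hy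
    have hfull : ∀ i < m + 1, fixL hab hTN p i (PP hab p (j - 1) 0) w = ffS hab p (i + 1) := by
      intro i hi
      refine Subgroup.eq_of_le_of_card_ge (fixL_le hab hTN p i _ w) ?_
      rw [hr i hi]
      have h2 := hfix i hi
      have hc : cnt r (j - 1) 0 i = r i := by
        unfold cnt
        rw [if_pos (Nat.zero_le i)]
        have := hrj' i hi
        omega
      rwa [hc] at h2
    have key : ∀ i ≤ m + 1, ∀ v ∈ ffS hab p i, ∀ s ∈ stS hTN hPN w,
        s * v * s⁻¹ * v⁻¹ ∈ ffS hab p 0 := by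
      intro i
      induction i with
      | zero =>
        intro _ v hv s hs
        exact mul_mem (conj_mem_ffS hab (hTN hs.1) hv) (inv_mem hv)
      | succ i ih =>
        intro hi v hv s hs
        obtain ⟨v', hv', hvv', hv'fix⟩ := exists_fixed_rep (S := stS hTN hPN w)
          (P := ffS hab p i) hD hab hTN hT (fun s hs => hs.1) hv.1 (fun s hs => by
            have h2 : v ∈ fixL hab hTN p i (PP hab p (j - 1) 0) w := by
              rw [hfull i (by omega)]
              exact hv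
            exact h2.2 s hs.1 hs.2)
        have h3 := ih (by omega) _ (inv_mem hvv') s hs
        have hsD : ∀ y ∈ D, s * y * s⁻¹ ∈ D := fun y hy =>
          (mem_normalizer_iff.1 (hTN hs.1) y).1 hy
        have hyD : (v' * v⁻¹)⁻¹ ∈ D := (ffS_le hab p _) (inv_mem hvv')
        have e : v = (v' * v⁻¹)⁻¹ * v' := by group
        have h4 : s * v * s⁻¹ * v⁻¹ = s * (v' * v⁻¹)⁻¹ * s⁻¹ * (v' * v⁻¹)⁻¹⁻¹ := by
          have h5 := comm_mul_eq hyD (hsD _ hyD) hv' (hsD _ hv') hab
          rw [hv'fix s hs, mul_inv_cancel, mul_one, ← e] at h5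
          exact h5
        rw [h4]
        exact h3
    rintro t ht ⟨y, hy, hty⟩
    have hts : t ∈ stS hTN hPN w := by
      refine ⟨ht, ?_⟩
      rw [PP_zero_right, hj, hty]
      exact ⟨y, hy, rfl⟩
    refine centralises_of_frattini hD hab hTN hT ht fun x hx => ?_
    have h3 := key (m + 1) le_rfl x (by rw [htop]; exact hx) t hts
    have h4 := PP_zero_right hab p 0
    rw [zero_add, pow_one, PP_zero_left] at h4
    rwa [h4] at h3

end Main

end P179H92
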