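import Vale.Agent.P179.R2.H92.RegGen

/-!
# Regular elements modulo `D ^ (p ^ j)` when the inertial quotient is faithful on `D ^ (p ^ m)`

`D` is an abelian `p`-subgroup of the finite group `G`, `T` normalises `D`, induces a `p'`-group of
automorphisms on `D`, and acts faithfully (modulo the centraliser of `D`) on the group
`D ^ (p ^ m)`. Small cyclic factors of `D` are allowed.
-/

namespace P179H92

open Subgroup P179H292

section Abs

variable {G : Type*} [Group G] [Finite G] {D T : Subgroup G}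

/-- the elements of `D` fixed modulo `F` by the stabiliser of `w` modulo `D ^ (p ^ i)` -/
def fixF (hab : ∀ a ∈ D, ∀ b ∈ D, a * b = b * a) (hTN : T ≤ normalizer (D : Set G))
    (F : Subgroup G) (p i : ℕ) (w : G) : Subgroup G where
  carrier := {x | x ∈ D ∧ ∀ s ∈ T, s * w * s⁻¹ * w⁻¹ ∈ pwS hab (p ^ i) →
    s * x * s⁻¹ * x⁻¹ ∈ F}
  one_mem' := ⟨one_mem _, fun s _ _ => by
    have : s * 1 * s⁻¹ * 1⁻¹ = 1 := by group
    rw [this]; exact one_mem _⟩
  mul_mem' := by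
    rintro x y ⟨hx, hx'⟩ ⟨hy, hy'⟩
    refine ⟨mul_mem hx hy, fun s hs hsw => ?_⟩
    have hsx : s * x * s⁻¹ ∈ D := (mem_normalizer_iff.1 (hTN hs) x).1 hx
    have hsy : s * y * s⁻¹ ∈ D := (mem_normalizer_iff.1 (hTN hs) y).1 hy
    have h1 : s * (x * y) * s⁻¹ * (x * y)⁻¹ =
        (s * x * s⁻¹ * x⁻¹) * (s * y * s⁻¹ * y⁻¹) := by
      have e1 : s * (x * y) * s⁻¹ * (x * y)⁻¹ =
          s * x * s⁻¹ * ((s * y * s⁻¹ * y⁻¹) * x⁻¹) := by group
      rw [e1, hab _ (mul_mem hsy (inv_mem hy)) _ (inv_mem hx)]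
      group
    rw [h1]
    exact mul_mem (hx' s hs hsw) (hy' s hs hsw)
  inv_mem' := by
    rintro x ⟨hx, hx'⟩
    refine ⟨inv_mem hx, fun s hs hsw => ?_⟩
    have hsx : s * x * s⁻¹ ∈ D := (mem_normalizer_iff.1 (hTN hs) x).1 hx
    have h1 : s * x⁻¹ * s⁻¹ * x⁻¹⁻¹ = (s * x * s⁻¹ * x⁻¹)⁻¹ := by
      have e1 : s * x⁻¹ * s⁻¹ * x⁻¹⁻¹ = (s * x * s⁻¹)⁻¹ * x := by group
      have e2 : (s * x * s⁻¹ * x⁻¹)⁻¹ = x * (s * x * s⁻¹)⁻¹ := by group
      rw [e1, e2]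
      exact hab _ (inv_mem hsx) _ hx
    rw [h1]
    exact inv_mem (hx' s hs hsw)

omit [Finite G] in
theorem le_fixF (hab : ∀ a ∈ D, ∀ b ∈ D, a * b = b * a) (hTN : T ≤ normalizer (D : Set G))
    {F : Subgroup G} (hFD : F ≤ D) (hTF : ∀ s ∈ T, ∀ x ∈ F, s * x * s⁻¹ ∈ F) (p i : ℕ) (w : G) :
    F ≤ fixF hab hTN F p i w := fun x hx =>
  ⟨hFD hx, fun s hs _ => mul_mem (hTF s hs x hx) (inv_mem hx)⟩

/-- **regular elements modulo `D ^ (p ^ i)`**, abstract form -/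
theorem exists_regF_aux {p : ℕ} [hp : Fact p.Prime] (hD : IsPGroup p D)
    (hab : ∀ a ∈ D, ∀ b ∈ D, a * b = b * a) (hTN : T ≤ normalizer (D : Set G))
    (hT : ¬ p ∣ (centralizer (D : Set G)).relIndex T) {m : ℕ} {F : Subgroup G} (hFD : F ≤ D)
    (hTF : ∀ s ∈ T, ∀ x ∈ F, s * x * s⁻¹ ∈ F)
    (hcan : ∀ i ≤ m, ∀ x ∈ D, x ^ p ^ i ∈ pwS hab (p ^ (i + 1)) → x ∈ F)
    (hFc : ∀ s ∈ T, (∀ x ∈ D, s * x * s⁻¹ * x⁻¹ ∈ F) → s ∈ centralizer (D : Set G))
    (hne : ∃ v ∈ D, v ∉ F) (i : ℕ) :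
    i ≤ m → ∃ w ∈ D, w ∉ F ∧
      ((∀ s ∈ T, s * w * s⁻¹ * w⁻¹ ∈ pwS hab (p ^ (i + 1)) → s ∈ centralizer (D : Set G)) ∨
        p ^ (i + 1) * Nat.card F ≤ Nat.card (fixF hab hTN F p (i + 1) w)) := by
  have hpF : pwS hab p ≤ F := fun x hx => hcan 0 (Nat.zero_le _) x (pwS_le hab p hx) (by
    rw [pow_zero, pow_one, pow_one]; exact hx)
  have hfixp : ∀ i w, IsPGroup p (fixF hab hTN F p i w) := fun i w =>
    hD.to_le fun x hx => hx.1
  induction i with
  | zero =>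
    intro _
    obtain ⟨v, hv, hvp⟩ := hne
    refine ⟨v, hv, hvp, Or.inr ?_⟩
    rw [zero_add, pow_one]
    refine mul_card_le (hfixp _ _) (le_fixF hab hTN hFD hTF p 1 v) (v := v)
      ⟨hv, fun s _ hs => ?_⟩ hvp
    rw [pow_one] at hs
    exact hpF hs
  | succ i ih =>
    intro hi
    obtain ⟨w, hw, hwp, hcase⟩ := ih (by omega)
    let S : Subgroup G :=
      { carrier := {s | s ∈ T ∧ s * w * s⁻¹ * w⁻¹ ∈ pwS hab (p ^ (i + 1))}
        one_mem' := ⟨one_mem _, by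
          have : (1 : G) * w * 1⁻¹ * w⁻¹ = 1 := by group
          rw [this]; exact one_mem _⟩
        mul_mem' := by
          rintro s t ⟨hs, hs'⟩ ⟨ht, ht'⟩
          refine ⟨mul_mem hs ht, ?_⟩
          have e : s * t * w * (s * t)⁻¹ * w⁻¹ =
              (s * (t * w * t⁻¹ * w⁻¹) * s⁻¹) * (s * w * s⁻¹ * w⁻¹) := by group
          rw [e]
          exact mul_mem (conj_mem_pwS hab (hTN hs) ht') hs'
        inv_mem' := by
          rintro s ⟨hs, hs'⟩
          refine ⟨inv_mem hs, ?_⟩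
          have e : s⁻¹ * w * s⁻¹⁻¹ * w⁻¹ = s⁻¹ * (s * w * s⁻¹ * w⁻¹)⁻¹ * s⁻¹⁻¹ := by group
          rw [e]
          exact conj_mem_pwS hab (inv_mem (hTN hs)) (inv_mem hs') }
    obtain ⟨w', hw', hww', hfix⟩ := exists_fixed_rep (S := S) hD hab hTN hT (fun s hs => hs.1)
      hw (fun s hs => hs.2)
    -- elements congruent to `w` modulo `D ^ (p ^ (i + 1))`
    have hcongr : ∀ x ∈ D, x * w⁻¹ ∈ pwS hab (p ^ (i + 1)) → ∀ s ∈ T,
        s * x * s⁻¹ * x⁻¹ ∈ pwS hab (p ^ (i + 1)) → s ∈ S := by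
      intro x hx hxw s hs hsx
      refine ⟨hs, ?_⟩
      have h1 := conj_mem_pwS hab (hTN hs) (inv_mem hxw)
      have h2 : s * w * s⁻¹ * w⁻¹ =
          (s * (x * w⁻¹)⁻¹ * s⁻¹) * (s * x * s⁻¹ * x⁻¹) * (x * w⁻¹) := by group
      rw [h2]
      exact mul_mem (mul_mem h1 hsx) hxw
    have hmono1 : pwS hab (p ^ (i + 1)) ≤ F := by
      have := pwS_mono hab (p := p) (i := 1) (j := i + 1) (by omega)
      rw [pow_one] at this
      exact this.trans hpF
    have hnotp : ∀ x, x * w⁻¹ ∈ pwS hab (p ^ (i + 1)) → x ∉ F := by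
      intro x hxw hx
      apply hwp
      have h1 := mul_mem (inv_mem (hmono1 hxw)) hx
      have e : (x * w⁻¹)⁻¹ * x = w := by group
      rwa [e] at h1
    by_cases hreg : ∀ s ∈ T, s * w * s⁻¹ * w⁻¹ ∈ pwS hab (p ^ (i + 1)) →
        s ∈ centralizer (D : Set G)
    · refine ⟨w', hw', hnotp w' hww', Or.inl fun s hs hsw => ?_⟩
      have h1 := hcongr w' hw' hww' s hs (pwS_mono hab (Nat.le_succ _) hsw)
      exact hreg s hs h1.2
    · have hcard := hcase.resolve_left hreg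
      push Not at hreg
      obtain ⟨s₀, hs₀, hs₀w, hs₀C⟩ := hreg
      obtain ⟨v, hv, hvs⟩ : ∃ v ∈ D, s₀ * v * s₀⁻¹ * v⁻¹ ∉ F := by
        by_contra hcon
        push Not at hcon
        exact hs₀C (hFc s₀ hs₀ hcon)
      have hvD : v ^ p ^ (i + 1) ∈ D := pow_mem hv _
      have hx : w' * v ^ p ^ (i + 1) ∈ D := mul_mem hw' hvD
      have hxw : w' * v ^ p ^ (i + 1) * w⁻¹ ∈ pwS hab (p ^ (i + 1)) := by
        have e : w' * v ^ p ^ (i + 1) * w⁻¹ = (w' * w⁻¹) * v ^ p ^ (i + 1) := by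
          rw [mul_assoc, hab _ hvD _ (inv_mem hw)]
          group
        rw [e]
        exact mul_mem hww' ⟨v, hv, rfl⟩
      refine ⟨w' * v ^ p ^ (i + 1), hx, hnotp _ hxw, Or.inr ?_⟩
      have hstab : ∀ s ∈ T, s * (w' * v ^ p ^ (i + 1)) * s⁻¹ * (w' * v ^ p ^ (i + 1))⁻¹ ∈
          pwS hab (p ^ (i + 1 + 1)) → s * w * s⁻¹ * w⁻¹ ∈ pwS hab (p ^ (i + 1)) ∧
            s * v * s⁻¹ * v⁻¹ ∈ F := by
        intro s hs hsx
        have h1 : s ∈ S := hcongr _ hx hxw s hs (pwS_mono hab (Nat.le_succ _) hsx)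
        refine ⟨h1.2, ?_⟩
        have hsv : s * v * s⁻¹ ∈ D := (mem_normalizer_iff.1 (hTN hs) v).1 hv
        have h2 : s * (w' * v ^ p ^ (i + 1)) * s⁻¹ * (w' * v ^ p ^ (i + 1))⁻¹ =
            (s * v * s⁻¹ * v⁻¹) ^ p ^ (i + 1) := by
          have hc : Commute (s * v * s⁻¹) v⁻¹ := hab _ hsv _ (inv_mem hv)
          have e1 : s * (w' * v ^ p ^ (i + 1)) * s⁻¹ =
              (s * w' * s⁻¹) * (s * v ^ p ^ (i + 1) * s⁻¹) := by group
          rw [hc.mul_pow, inv_pow, ← conj_pow', e1, hfix s h1]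
          have hsvp : s * v ^ p ^ (i + 1) * s⁻¹ ∈ D :=
            (mem_normalizer_iff.1 (hTN hs) _).1 hvD
          rw [hab _ hw' _ hsvp, hab _ hw' _ hvD]
          group
        rw [h2] at hsx
        exact hcan (i + 1) (by omega) _ (mul_mem hsv (inv_mem hv)) hsx
      have hle : fixF hab hTN F p (i + 1) w ≤
          fixF hab hTN F p (i + 1 + 1) (w' * v ^ p ^ (i + 1)) := fun x hx' =>
        ⟨hx'.1, fun s hs hsx => hx'.2 s hs (hstab s hs hsx).1⟩
      have hvmem : v ∈ fixF hab hTN F p (i + 1 + 1) (w' * v ^ p ^ (i + 1)) :=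
        ⟨hv, fun s hs hsx => (hstab s hs hsx).2⟩
      have hvnot : v ∉ fixF hab hTN F p (i + 1) w := fun h => hvs (h.2 s₀ hs₀ hs₀w)
      have h3 := mul_card_le (hfixp _ _) hle hvmem hvnot
      calc p ^ (i + 1 + 1) * Nat.card F
          = p * (p ^ (i + 1) * Nat.card F) := by rw [pow_succ']; ring
        _ ≤ p * Nat.card (fixF hab hTN F p (i + 1) w) := Nat.mul_le_mul_left _ hcard
        _ ≤ _ := h3

omit [Finite G] in
/-- the order modulo `D ^ (p ^ i)` of an element outside `F` -/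
theorem pow_dvd_of_memF {p m : ℕ} [hp : Fact p.Prime] (hD : IsPGroup p D)
    (hab : ∀ a ∈ D, ∀ b ∈ D, a * b = b * a) {F : Subgroup G}
    (hcan : ∀ i ≤ m, ∀ x ∈ D, x ^ p ^ i ∈ pwS hab (p ^ (i + 1)) → x ∈ F) {w : G} (hw : w ∈ D)
    (hwp : w ∉ F) : ∀ i : ℕ, i ≤ m + 1 → ∀ t : ℕ, w ^ t ∈ pwS hab (p ^ i) → p ^ i ∣ t := by
  have h1 : ∀ t : ℕ, w ^ t ∈ F → p ∣ t := by
    intro t ht
    by_contra hpm
    apply hwp
    obtain ⟨a, ha⟩ := hD ⟨w, hw⟩
    have ha' : w ^ p ^ a = 1 := by simpa using congrArg Subtype.val ha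
    have hcop : t.Coprime (orderOf w) :=
      (((Nat.Prime.coprime_iff_not_dvd hp.out).2 hpm).symm.pow_right a).coprime_dvd_right
        (orderOf_dvd_of_pow_eq_one ha')
    obtain ⟨m', hm'⟩ := exists_pow_eq_self_of_coprime hcop
    rw [← hm']
    exact pow_mem ht _
  intro i
  induction i with
  | zero =>
    intro _ t _
    rw [pow_zero]
    exact one_dvd t
  | succ i ih =>
    intro hi t ht
    obtain ⟨m', rfl⟩ := ih (by omega) t (pwS_mono hab (Nat.le_succ i) ht)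
    have h2 : (w ^ m') ^ p ^ i ∈ pwS hab (p ^ (i + 1)) := by
      rw [← pow_mul, mul_comm m']
      exact ht
    have h3 := hcan i (by omega) _ (pow_mem hw m') h2
    obtain ⟨m'', rfl⟩ := h1 m' h3
    exact ⟨m'', by rw [pow_succ, mul_assoc]⟩

end Abs

section FF

variable {G : Type*} [Group G] {D T : Subgroup G} (hab : ∀ a ∈ D, ∀ b ∈ D, a * b = b * a)

/-- the elements of `D` whose `p ^ m`-th power is a `p ^ (m + 1)`-th power -/
def ffS (p m : ℕ) : Subgroup G where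
  carrier := {x | x ∈ D ∧ x ^ p ^ m ∈ pwS hab (p ^ (m + 1))}
  one_mem' := ⟨one_mem _, by rw [one_pow]; exact one_mem _⟩
  mul_mem' := by
    rintro x y ⟨hx, hx'⟩ ⟨hy, hy'⟩
    have h : Commute x y := hab x hx y hy
    refine ⟨mul_mem hx hy, ?_⟩
    rw [h.mul_pow]
    exact mul_mem hx' hy'
  inv_mem' := by
    rintro x ⟨hx, hx'⟩
    refine ⟨inv_mem hx, ?_⟩
    rw [inv_pow]
    exact inv_mem hx'

theorem ffS_cancel {p m i : ℕ} (hi : i ≤ m) {x : G} (hx : x ∈ D)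
    (h : x ^ p ^ i ∈ pwS hab (p ^ (i + 1))) : x ∈ ffS hab p m := by
  refine ⟨hx, ?_⟩
  obtain ⟨d, hd, hdx⟩ := h
  refine ⟨d, hd, ?_⟩
  obtain ⟨t, rfl⟩ := Nat.exists_eq_add_of_le hi
  have e1 : p ^ (i + t + 1) = p ^ (i + 1) * p ^ t := by rw [← pow_add]; congr 1; omega
  rw [e1, pow_mul, hdx, ← pow_mul, ← pow_add]

theorem conj_mem_ffS {n : G} (hn : n ∈ normalizer (D : Set G)) {p m : ℕ} {y : G}
    (hy : y ∈ ffS hab p m) : n * y * n⁻¹ ∈ ffS hab p m := by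
  refine ⟨(mem_normalizer_iff.1 hn y).1 hy.1, ?_⟩
  rw [← conj_pow']
  exact conj_mem_pwS hab hn hy.2

/-- the powers of the powers -/
theorem pwS_pwS {p m : ℕ} (hab' : ∀ a ∈ pwS hab (p ^ m), ∀ b ∈ pwS hab (p ^ m), a * b = b * a) :
    pwS hab' p = pwS hab (p ^ (m + 1)) := by
  ext y
  constructor
  · rintro ⟨_, ⟨d, hd, rfl⟩, rfl⟩
    exact ⟨d, hd, by rw [← pow_mul, ← pow_succ]⟩
  · rintro ⟨d, hd, rfl⟩
    exact ⟨d ^ p ^ m, ⟨d, hd, rfl⟩, by rw [← pow_mul, ← pow_succ]⟩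

/-- `|D| ≤ p ^ s |F|` -/
theorem card_ffS [Finite G] {p m s : ℕ}
    (hs : Nat.card {x // (∃ d ∈ D, d ^ p ^ m = x) ∧ x ^ p = 1} = p ^ s) :
    Nat.card D = p ^ s * Nat.card (ffS hab p m) := by
  let f : ffS hab p m →* G :=
    { toFun := fun x => x.1 ^ p ^ m
      map_one' := one_pow _
      map_mul' := fun x y => by
        have h : Commute x.1 y.1 := hab _ x.2.1 _ y.2.1
        exact h.mul_pow _ }
  have h1 : Nat.card (ffS hab p m) = Nat.card f.range * Nat.card f.ker := by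
    rw [← Nat.card_congr (QuotientGroup.quotientKerEquivRange f).toEquiv,
      ← Subgroup.card_eq_card_quotient_mul_card_subgroup]
  have h2 : f.range = pwS hab (p ^ (m + 1)) := by
    ext y
    constructor
    · rintro ⟨x, rfl⟩
      exact x.2.2
    · rintro ⟨x, hx, rfl⟩
      have h3 : x ^ p ∈ ffS hab p m :=
        ffS_cancel hab (Nat.zero_le m) (pow_mem hx _) (by
          rw [pow_zero, pow_one, pow_one]
          exact ⟨x, hx, rfl⟩)
      exact ⟨⟨x ^ p, h3⟩, by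
        change (x ^ p) ^ p ^ m = _
        rw [← pow_mul, ← pow_succ']⟩
  have h3 : Nat.card f.ker = Nat.card (omS hab (p ^ m)) :=
    Nat.card_congr
      { toFun := fun x => (⟨x.1.1, x.1.2.1, x.2⟩ : omS hab (p ^ m))
        invFun := fun x => ⟨⟨x.1, x.2.1, by rw [x.2.2]; exact one_mem _⟩, x.2.2⟩
        left_inv := fun x => rfl
        right_inv := fun x => rfl }
  have hab' : ∀ a ∈ pwS hab (p ^ m), ∀ b ∈ pwS hab (p ^ m), a * b = b * a := fun a ha b hb =>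
    hab a (pwS_le hab _ ha) b (pwS_le hab _ hb)
  have h4 := card_eq_mul hab (p ^ m)
  have h5 := card_eq_mul hab' p
  have h6 : Nat.card (omS hab' p) = p ^ s := by
    rw [← hs]
    rfl
  rw [pwS_pwS hab hab', h6] at h5
  rw [h4, h5, h1, h2, h3]
  ring

include hab in
/-- `|D| ≤ |D ^ (p ^ j)| p ^ (r j)` -/
theorem card_le_pw [Finite G] {p r : ℕ} (hr : Nat.card {x // x ∈ D ∧ x ^ p = 1} = p ^ r)
    (j : ℕ) : Nat.card D ≤ Nat.card {y : G // ∃ d ∈ D, d ^ p ^ j = y} * p ^ (r * j) := by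
  have hr' : Nat.card (omS hab p) = p ^ r := hr
  have h1 := card_eq_mul hab (p ^ j)
  have h2 : ∀ i : ℕ, Nat.card (omS hab (p ^ i)) ≤ p ^ (r * i) := by
    intro i
    induction i with
    | zero =>
      have h : omS hab (p ^ 0) = ⊥ := by
        rw [eq_bot_iff]
        rintro x ⟨-, hx⟩
        rw [pow_zero, pow_one] at hx
        exact hx
      rw [h]
      simp
    | succ i ih =>
      let f : omS hab (p ^ (i + 1)) →* G :=
        { toFun := fun x => x.1 ^ p ^ i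
          map_one' := one_pow _
          map_mul' := fun x y => by
            have h : Commute x.1 y.1 := hab _ x.2.1 _ y.2.1
            exact h.mul_pow _ }
      have h1 : Nat.card (omS hab (p ^ (i + 1))) = Nat.card f.ker * Nat.card f.range := by
        rw [mul_comm, ← Nat.card_congr (QuotientGroup.quotientKerEquivRange f).toEquiv,
          ← Subgroup.card_eq_card_quotient_mul_card_subgroup]
      have h2 : f.range ≤ omS hab p := by
        rintro _ ⟨x, rfl⟩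
        refine ⟨pow_mem x.2.1 _, ?_⟩
        change (x.1 ^ p ^ i) ^ p = 1
        rw [← pow_mul, ← pow_succ]
        exact x.2.2
      have h3 : Nat.card f.ker ≤ Nat.card (omS hab (p ^ i)) := by
        refine Nat.card_le_card_of_injective
          (fun x => (⟨x.1.1, x.1.2.1, x.2⟩ : omS hab (p ^ i))) ?_
        intro x y hxy
        exact Subtype.ext (Subtype.ext (congrArg (fun z : omS hab (p ^ i) => (z : G)) hxy))
      have h4 := Subgroup.card_le_of_le h2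
      rw [hr'] at h4
      rw [h1]
      calc Nat.card f.ker * Nat.card f.range ≤ p ^ (r * i) * p ^ r :=
            Nat.mul_le_mul (h3.trans ih) h4
        _ = p ^ (r * (i + 1)) := by rw [← pow_add]; congr 1
  rw [h1]
  exact Nat.mul_le_mul_left _ (h2 j)

end FF

section Main

variable {G : Type*} [Group G] [Finite G] {D T : Subgroup G}

/-- an element of `T` acting trivially on `D / F` centralises `D` -/
theorem centralises_of_ffS {p m : ℕ} [hp : Fact p.Prime] (hD : IsPGroup p D)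
    (hab : ∀ a ∈ D, ∀ b ∈ D, a * b = b * a) (hTN : T ≤ normalizer (D : Set G))
    (hT : ¬ p ∣ (centralizer (D : Set G)).relIndex T)
    (hf : ∀ g ∈ T, (∀ d ∈ D, g * d ^ p ^ m * g⁻¹ = d ^ p ^ m) → g ∈ centralizer (D : Set G))
    {s : G} (hs : s ∈ T) (h : ∀ x ∈ D, s * x * s⁻¹ * x⁻¹ ∈ ffS hab p m) :
    s ∈ centralizer (D : Set G) := by
  have hle : pwS hab (p ^ m) ≤ D := pwS_le hab _
  have hab' : ∀ a ∈ pwS hab (p ^ m), ∀ b ∈ pwS hab (p ^ m), a * b = b * a := fun a ha b hb =>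
    hab a (hle ha) b (hle hb)
  have hTN' : T ≤ normalizer ((pwS hab (p ^ m) : Subgroup G) : Set G) := by
    intro t ht
    rw [mem_normalizer_iff]
    intro y
    refine ⟨fun hy => conj_mem_pwS hab (hTN ht) hy, fun hy => ?_⟩
    have h1 := conj_mem_pwS hab (inv_mem (hTN ht)) hy
    have e : t⁻¹ * (t * y * t⁻¹) * t⁻¹⁻¹ = y := by group
    rwa [e] at h1
  have hcle : centralizer (D : Set G) ≤ centralizer ((pwS hab (p ^ m) : Subgroup G) : Set G) :=
    centralizer_le hle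
  have hT' : ¬ p ∣ (centralizer ((pwS hab (p ^ m) : Subgroup G) : Set G)).relIndex T := by
    intro h1
    exact hT (h1.trans (relIndex_dvd_of_le_left T hcle))
  have h1 := centralises_of_frattini (hD.to_le hle) hab' hTN' hT' hs (by
    rintro _ ⟨y, hy, rfl⟩
    rw [pwS_pwS hab hab']
    have h2 := (h y hy).2
    have hsy : s * y * s⁻¹ ∈ D := (mem_normalizer_iff.1 (hTN hs) y).1 hy
    have hc : Commute (s * y * s⁻¹) y⁻¹ := hab _ hsy _ (inv_mem hy)
    rw [hc.mul_pow, inv_pow, ← conj_pow'] at h2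
    exact h2)
  refine hf s hs fun d hd => ?_
  have h2 := mem_centralizer_iff.1 h1 (d ^ p ^ m) ⟨d, hd, rfl⟩
  rw [mul_inv_eq_iff_eq_mul]
  exact h2.symm

/-- **regular elements modulo `D ^ (p ^ j)`** when `T / C(D)` is faithful on `D ^ (p ^ m)`, a group
of rank `s ≤ j` -/
theorem exists_regF {p : ℕ} [hp : Fact p.Prime] (hD : IsPGroup p D)
    (hab : ∀ a ∈ D, ∀ b ∈ D, a * b = b * a) (hTN : T ≤ normalizer (D : Set G))
    (hT : ¬ p ∣ (centralizer (D : Set G)).relIndex T) {m s j : ℕ} (hs1 : 1 ≤ s)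
    (hs : Nat.card {x // (∃ d ∈ D, d ^ p ^ m = x) ∧ x ^ p = 1} = p ^ s)
    (hf : ∀ g ∈ T, (∀ d ∈ D, g * d ^ p ^ m * g⁻¹ = d ^ p ^ m) → g ∈ centralizer (D : Set G))
    (hsj : s ≤ j) (hjn : j ≤ m + 1) :
    ∃ w ∈ D, (∀ i : ℕ, (∃ d ∈ D, w ^ i = d ^ p ^ j) → p ^ j ∣ i) ∧
      ∀ t ∈ T, (∃ d ∈ D, t * w * t⁻¹ * w⁻¹ = d ^ p ^ j) → t ∈ centralizer (D : Set G) := by
  have hDc := card_ffS hab hs
  have hpos : 0 < Nat.card (ffS hab p m) := Nat.card_pos
  have hFD : ffS hab p m ≤ D := fun x hx => hx.1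
  have hcan : ∀ i ≤ m, ∀ x ∈ D, x ^ p ^ i ∈ pwS hab (p ^ (i + 1)) → x ∈ ffS hab p m :=
    fun i hi x hx h => ffS_cancel hab hi hx h
  have hFc : ∀ s ∈ T, (∀ x ∈ D, s * x * s⁻¹ * x⁻¹ ∈ ffS hab p m) →
      s ∈ centralizer (D : Set G) := fun s hs h => centralises_of_ffS hD hab hTN hT hf hs h
  have hne : ∃ v ∈ D, v ∉ ffS hab p m := by
    by_contra hcon
    push Not at hcon
    have h1 : Nat.card D ≤ Nat.card (ffS hab p m) := Subgroup.card_le_of_le hcon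
    have h2 : 1 < p ^ s := Nat.one_lt_pow (by omega) hp.out.one_lt
    rw [hDc] at h1
    nlinarith
  obtain ⟨w, hw, hwp, hcase⟩ := exists_regF_aux hD hab hTN hT hFD
    (fun s hs x hx => conj_mem_ffS hab (hTN hs) hx) hcan hFc hne (j - 1) (by omega)
  have hj1 : j - 1 + 1 = j := by omega
  rw [hj1] at hcase
  have hwr : ∀ t ∈ T, t * w * t⁻¹ * w⁻¹ ∈ pwS hab (p ^ j) → t ∈ centralizer (D : Set G) := by
    rcases hcase with h | h
    · exact h
    · have hle : fixF hab hTN (ffS hab p m) p j w ≤ D := fun x hx => hx.1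
      have h1 : fixF hab hTN (ffS hab p m) p j w = D := by
        refine Subgroup.eq_of_le_of_card_ge hle ?_
        rw [hDc]
        exact le_trans (Nat.mul_le_mul_right _ (Nat.pow_le_pow_right hp.out.pos hsj)) h
      intro t ht htw
      refine hFc t ht fun x hx => ?_
      rw [← h1] at hx
      exact hx.2 t ht htw
  refine ⟨w, hw, ?_, ?_⟩
  · rintro i ⟨d, hd, hdw⟩
    exact pow_dvd_of_memF hD hab hcan hw hwp j (by omega) i ⟨d, hd, hdw.symm⟩
  · rintro t ht ⟨d, hd, hdw⟩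
    exact hwr t ht ⟨d, hd, hdw.symm⟩

/-- the number of regular elements -/
theorem regular_countF {p : ℕ} [hp : Fact p.Prime] (hD : IsPGroup p D)
    (hab : ∀ a ∈ D, ∀ b ∈ D, a * b = b * a)
    (hT : ¬ p ∣ (centralizer (D : Set G)).relIndex T) {n Q : ℕ} (hQ : 0 < Q)
    (hf : ∀ g ∈ T, (∀ d ∈ D, g * d ^ p ^ (n - 1) * g⁻¹ = d ^ p ^ (n - 1)) →
      g ∈ centralizer (D : Set G))
    (h : (centralizer (D : Set G)).relIndex T * (p ^ n + Q) ≤ p ^ n * Q) :
    (centralizer (D : Set G)).relIndex T * Nat.card D < Q *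
      Nat.card {w : G // w ∈ D ∧ ∀ t ∈ T, t * w * t⁻¹ = w → t ∈ centralizer (D : Set G)} := by
  have habC : D ≤ centralizer (D : Set G) := by
    intro x hx
    rw [mem_centralizer_iff]
    intro y hy
    exact hab y hy x hx
  have h1 := P179H452.card_RegA p D hD habC T n hf
  set e := (centralizer (D : Set G)).relIndex T with he
  set R := Nat.card {w : G // w ∈ D ∧ ∀ t ∈ T, t * w * t⁻¹ = w → t ∈ centralizer (D : Set G)}
    with hR
  have hD0 : 0 < Nat.card D := Nat.card_pos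
  have he0 : 1 ≤ e := by
    rw [Nat.one_le_iff_ne_zero]
    intro h0
    exact hT (by rw [h0]; exact dvd_zero p)
  obtain ⟨e', he'⟩ : ∃ e', e = e' + 1 := ⟨e - 1, by omega⟩
  rw [he'] at h1 h ⊢
  rw [Nat.add_sub_cancel] at h1
  set A := Nat.card D
  set P := p ^ n
  by_contra hcon
  push Not at hcon
  have h3 : Q * (P * A) ≤ Q * (P * R + e' * A) := Nat.mul_le_mul_left _ h1
  have h4' : P * (Q * R) ≤ P * ((e' + 1) * A) := Nat.mul_le_mul_left _ hcon
  have h5 : (e' + 1) * (P + Q) * A ≤ P * Q * A := Nat.mul_le_mul_right _ h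
  have h6 : Q * (P * R + e' * A) = P * (Q * R) + Q * e' * A := by ring
  have h7 : P * ((e' + 1) * A) + Q * e' * A + Q * A = (e' + 1) * (P + Q) * A := by ring
  have h8 : 0 < Q * A := Nat.mul_pos hQ hD0
  have h9 : Q * (P * A) = P * Q * A := by ring
  omega

/-- **(R)** when `T / C(D)` is faithful on `D ^ (p ^ (n - 1))`, a group of rank `s` -/
theorem exists_reg_fth {p : ℕ} [hp : Fact p.Prime] (hD : IsPGroup p D)
    (hab : ∀ a ∈ D, ∀ b ∈ D, a * b = b * a) (hTN : T ≤ normalizer (D : Set G))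
    (hT : ¬ p ∣ (centralizer (D : Set G)).relIndex T) {s n j : ℕ} (hs1 : 1 ≤ s)
    (hs : Nat.card {x // (∃ d ∈ D, d ^ p ^ (n - 1) = x) ∧ x ^ p = 1} = p ^ s)
    (hf : ∀ g ∈ T, (∀ d ∈ D, g * d ^ p ^ (n - 1) * g⁻¹ = d ^ p ^ (n - 1)) →
      g ∈ centralizer (D : Set G))
    (hE : (centralizer (D : Set G)).relIndex T ≤ ∏ i ∈ Finset.range s, (p ^ (i + 1) - 1))
    (hsj : s ≤ j) (h4 : s * (s + 1) ≤ 4 * j) (hjn : j ≤ n)
    (hc : s = 1 ∨ (s = 2 ∧ 3 ≤ n) ∨ 2 * j + 1 ≤ n) :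
    ∃ w ∈ D, (∀ i : ℕ, (∃ d ∈ D, w ^ i = d ^ p ^ j) → p ^ j ∣ i) ∧
      (∀ t ∈ T, (∃ d ∈ D, t * w * t⁻¹ * w⁻¹ = d ^ p ^ j) → t ∈ centralizer (D : Set G)) ∧
      (centralizer (D : Set G)).relIndex T * Nat.card D < p ^ (2 * j) *
        Nat.card {w : G // w ∈ D ∧ ∀ t ∈ T, t * w * t⁻¹ = w → t ∈ centralizer (D : Set G)} := by
  obtain ⟨w, hw, h1, h2⟩ := exists_regF (m := n - 1) (j := j) hD hab hTN hT hs1 hs hf hsj (by omega)
  exact ⟨w, hw, h1, h2, regular_countF hD hab hT (pow_pos hp.out.pos _) hf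
    (arith' hp.out.one_le hs1 hsj h4 hjn hc hE)⟩

end Main

end P179H92
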