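import Vale.Agent.P179.R2.H92.RegElt
import Vale.Agent.P179.R2.H452.CReg

/-!
# Homocyclic groups: orders, regular elements, and the arithmetic for the bound of `l(B)`
-/

namespace P179H92

open Subgroup P179H292

section Card

variable {G : Type*} [Group G] [Finite G] {D T : Subgroup G}

omit [Finite G] in
/-- `|Ω_i(D)| = p ^ (r i)` for a homocyclic group `D` of exponent `p ^ n`, `i ≤ n` -/
theorem card_omS_eq {p : ℕ} (hab : ∀ a ∈ D, ∀ b ∈ D, a * b = b * a) {r n : ℕ}
    (hr : Nat.card (omS hab p) = p ^ r)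
    (hdiv : ∀ x ∈ D, x ^ p = 1 → ∃ y ∈ D, y ^ p ^ n = x) (i : ℕ) :
    i ≤ n + 1 → Nat.card (omS hab (p ^ i)) = p ^ (r * i) := by
  induction i with
  | zero =>
    intro _
    have h : omS hab (p ^ 0) = ⊥ := by
      rw [eq_bot_iff]
      rintro x ⟨-, hx⟩
      rw [pow_zero, pow_one] at hx
      exact hx
    rw [h]
    simp
  | succ i ih =>
    intro hi
    let f : omS hab (p ^ (i + 1)) →* G :=
      { toFun := fun x => x.1 ^ p ^ i
        map_one' := one_pow _
        map_mul' := fun x y => by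
          have h : Commute x.1 y.1 := hab _ x.2.1 _ y.2.1
          exact h.mul_pow _ }
    have h1 : Nat.card (omS hab (p ^ (i + 1))) = Nat.card f.ker * Nat.card f.range := by
      rw [mul_comm, ← Nat.card_congr (QuotientGroup.quotientKerEquivRange f).toEquiv,
        ← Subgroup.card_eq_card_quotient_mul_card_subgroup]
    have h2 : f.range = omS hab p := by
      apply le_antisymm
      · rintro _ ⟨x, rfl⟩
        refine ⟨pow_mem x.2.1 _, ?_⟩
        change (x.1 ^ p ^ i) ^ p = 1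
        rw [← pow_mul, ← pow_succ]
        exact x.2.2
      · intro v hv
        obtain ⟨y, hy, hyv⟩ := hdiv v hv.1 hv.2
        have e1 : p ^ n = p ^ (n - i) * p ^ i := by
          rw [← pow_add]
          congr 1
          omega
        have e2 : (y ^ p ^ (n - i)) ^ p ^ i = v := by
          rw [← pow_mul, ← e1, hyv]
        refine ⟨⟨y ^ p ^ (n - i), pow_mem hy _, ?_⟩, e2⟩
        rw [pow_succ, pow_mul, e2]
        exact hv.2
    have h3 : Nat.card f.ker = Nat.card (omS hab (p ^ i)) := by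
      refine Nat.card_congr
        { toFun := fun x => (⟨x.1.1, x.1.2.1, x.2⟩ : omS hab (p ^ i))
          invFun := fun x => ⟨⟨x.1, x.2.1, by
            rw [pow_succ, pow_mul, x.2.2, one_pow]⟩, x.2.2⟩
          left_inv := fun x => rfl
          right_inv := fun x => rfl }
    rw [h1, h2, h3, ih (by omega), hr, ← pow_add]
    congr 1

end Card

section Arith

theorem prod_le (p : ℕ) : ∀ r : ℕ, 1 ≤ r → ∃ m : ℕ, 1 ≤ m ∧ 2 * m = r * (r + 1) ∧
    ∏ i ∈ Finset.range r, (p ^ (i + 1) - 1) ≤ (p - 1) * p ^ (m - 1) := by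
  intro r hr
  induction r, hr using Nat.le_induction with
  | base => exact ⟨1, le_rfl, rfl, by simp⟩
  | succ r hr ih =>
    obtain ⟨m, hm1, hm2, hm3⟩ := ih
    refine ⟨m + (r + 1), by omega, by rw [mul_add, hm2]; ring, ?_⟩
    rw [Finset.prod_range_succ]
    calc (∏ i ∈ Finset.range r, (p ^ (i + 1) - 1)) * (p ^ (r + 1) - 1)
        ≤ (p - 1) * p ^ (m - 1) * p ^ (r + 1) := Nat.mul_le_mul hm3 (Nat.sub_le _ _)
      _ = (p - 1) * p ^ (m + (r + 1) - 1) := by
        rw [mul_assoc, ← pow_add]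
        congr 2
        omega

theorem arith_aux {p e m a b : ℕ} (hp : 1 ≤ p) (hm : 1 ≤ m) (he : e ≤ (p - 1) * p ^ (m - 1))
    (ha : m + 1 ≤ a) (hb : m ≤ b) : e * (p ^ a + p ^ b) ≤ p ^ a * p ^ b := by
  obtain ⟨a', rfl⟩ := Nat.exists_eq_add_of_le ha
  obtain ⟨b', rfl⟩ := Nat.exists_eq_add_of_le hb
  obtain ⟨q, rfl⟩ : ∃ q, p = q + 1 := ⟨p - 1, by omega⟩
  obtain ⟨m', rfl⟩ : ∃ m', m = m' + 1 := ⟨m - 1, by omega⟩
  simp only [Nat.add_sub_cancel] at he
  set P := q + 1 with hP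
  have hA : 1 ≤ P ^ a' := Nat.one_le_pow _ _ (by omega)
  have hB : 1 ≤ P ^ b' := Nat.one_le_pow _ _ (by omega)
  have h1 : P ^ (m' + 1 + 1 + a') + P ^ (m' + 1 + b') ≤ P ^ (m' + 1) * (P + 1) * (P ^ a' * P ^ b') := by
    have e1 : P ^ (m' + 1 + 1 + a') = P ^ (m' + 1) * P * P ^ a' := by ring
    have e2 : P ^ (m' + 1 + b') = P ^ (m' + 1) * P ^ b' := by ring
    rw [e1, e2]
    have h2 : P ^ (m' + 1) * P * P ^ a' ≤ P ^ (m' + 1) * P * (P ^ a' * P ^ b') :=
      Nat.mul_le_mul_left _ (Nat.le_mul_of_pos_right _ hB)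
    have h3 : P ^ (m' + 1) * P ^ b' ≤ P ^ (m' + 1) * (P ^ a' * P ^ b') :=
      Nat.mul_le_mul_left _ (Nat.le_mul_of_pos_left _ hA)
    calc P ^ (m' + 1) * P * P ^ a' + P ^ (m' + 1) * P ^ b'
        ≤ P ^ (m' + 1) * P * (P ^ a' * P ^ b') + P ^ (m' + 1) * (P ^ a' * P ^ b') :=
          Nat.add_le_add h2 h3
      _ = P ^ (m' + 1) * (P + 1) * (P ^ a' * P ^ b') := by ring
  calc e * (P ^ (m' + 1 + 1 + a') + P ^ (m' + 1 + b'))
      ≤ (q * P ^ m') * (P ^ (m' + 1) * (P + 1) * (P ^ a' * P ^ b')) := Nat.mul_le_mul he h1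
    _ = (q * (P + 1)) * (P ^ m' * P ^ (m' + 1) * (P ^ a' * P ^ b')) := by ring
    _ ≤ (P * P) * (P ^ m' * P ^ (m' + 1) * (P ^ a' * P ^ b')) := by
        refine Nat.mul_le_mul_right _ ?_
        rw [hP]
        nlinarith
    _ = P ^ (m' + 1 + 1 + a') * P ^ (m' + 1 + b') := by ring

/-- the arithmetic of the condition on the number of regular elements -/
theorem arith {p e r n j : ℕ} (hp : 1 ≤ p) (hr : 1 ≤ r) (hrj : r ≤ j)
    (h4 : r * (r + 1) ≤ 4 * j) (hnj : j * (r - 1) + 1 ≤ n)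
    (he : e ≤ ∏ i ∈ Finset.range r, (p ^ (i + 1) - 1)) :
    e * (p ^ n + p ^ (2 * j)) ≤ p ^ n * p ^ (2 * j) := by
  obtain ⟨m, hm1, hm2, hm3⟩ := prod_le p r hr
  have hem := he.trans hm3
  by_cases h3 : 3 ≤ r
  · refine arith_aux hp hm1 hem ?_ (by omega)
    have h5 : j * 2 ≤ j * (r - 1) := Nat.mul_le_mul_left _ (by omega)
    omega
  · rw [add_comm (p ^ n), mul_comm (p ^ n)]
    have h6 : r = 1 ∨ r = 2 := by omega
    rcases h6 with rfl | rfl
    · exact arith_aux hp hm1 hem (by omega) (by omega)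
    · exact arith_aux hp hm1 hem (by omega) (by omega)

end Arith

section Main

variable {G : Type*} [Group G] [Finite G] {D T : Subgroup G}

/-- **homocyclic groups**: the hypotheses of the bound of `l(B)`. -/
theorem exists_reg_hom {p : ℕ} [hp : Fact p.Prime] (hD : IsPGroup p D)
    (hab : ∀ a ∈ D, ∀ b ∈ D, a * b = b * a) (hTN : T ≤ normalizer (D : Set G))
    (hT : ¬ p ∣ (centralizer (D : Set G)).relIndex T) {r n j : ℕ} (hr1 : 1 ≤ r)
    (hr : Nat.card {x // x ∈ D ∧ x ^ p = 1} = p ^ r) (hexp : ∀ x ∈ D, x ^ p ^ n = 1)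
    (hdiv : ∀ x ∈ D, x ^ p = 1 → ∃ y ∈ D, y ^ p ^ (n - 1) = x)
    (hE : (centralizer (D : Set G)).relIndex T ≤ ∏ i ∈ Finset.range r, (p ^ (i + 1) - 1))
    (hrj : r ≤ j) (h4 : r * (r + 1) ≤ 4 * j) (hnj : j * (r - 1) + 1 ≤ n) (hjn : j ≤ n) :
    ∃ w ∈ D, (∀ t ∈ T, t * w ^ p ^ (n - j) * t⁻¹ = w ^ p ^ (n - j) →
        t ∈ centralizer (D : Set G)) ∧ orderOf (w ^ p ^ (n - j)) = p ^ j ∧
      (centralizer (D : Set G)).relIndex T * Nat.card D < p ^ (2 * j) *
        Nat.card {w : G // w ∈ D ∧ ∀ t ∈ T, t * w * t⁻¹ = w → t ∈ centralizer (D : Set G)} ∧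
      Nat.card D * p ≤ p ^ n *
        Nat.card {y : G // (∃ d ∈ D, d ^ p ^ j = y) ∧ y ^ p ^ (n - j) = 1} *
        orderOf (w ^ p ^ (n - j)) := by
  classical
  have hn1 : n - 1 + 1 = n := by omega
  have hr' : Nat.card (omS hab p) = p ^ r := hr
  obtain ⟨w, hw, hwo, hwr⟩ := exists_reg (n := n - 1) (j := j) hD hab hTN hT hr1 hr hdiv hrj
    (by omega)
  rw [hn1] at hwo hwr
  have hcard := fun i hi => card_omS_eq (p := p) hab hr' hdiv i hi
  have hDom : omS hab (p ^ n) = D := by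
    apply le_antisymm
    · exact fun x hx => hx.1
    · exact fun x hx => ⟨hx, hexp x hx⟩
  have hDcard : Nat.card D = p ^ (r * n) := by
    have h1 := hcard n (by omega)
    rwa [hDom] at h1
  have hY : Nat.card {y : G // (∃ d ∈ D, d ^ p ^ j = y) ∧ y ^ p ^ (n - j) = 1} =
      p ^ (r * (n - j)) := by
    rw [← hcard (n - j) (by omega)]
    refine Nat.card_congr (Equiv.subtypeEquivRight fun y => ?_)
    constructor
    · rintro ⟨⟨d, hd, rfl⟩, hy⟩
      exact ⟨pow_mem hd _, hy⟩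
    · rintro ⟨hy, hy1⟩
      obtain ⟨d, hd, hdy⟩ := exists_root (n := n - 1) hab hdiv (n - j) (by omega) y hy hy1
      refine ⟨⟨d, hd, ?_⟩, hy1⟩
      rw [← hdy]
      congr 2
      omega
  refine ⟨w, hw, hwr, hwo, ?_, ?_⟩
  · -- the number of regular elements
    have habC : D ≤ centralizer (D : Set G) := by
      intro x hx
      rw [mem_centralizer_iff]
      intro y hy
      exact hab y hy x hx
    have hstar : ∀ t ∈ T, (∀ d ∈ D, t * d ^ p ^ (n - 1) * t⁻¹ = d ^ p ^ (n - 1)) →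
        t ∈ centralizer (D : Set G) := by
      intro t ht h
      have htm : t ^ (centralizer (D : Set G)).relIndex T ∈ centralizer (D : Set G) := by
        have hCn : ((centralizer (D : Set G)).subgroupOf T).Normal := by
          refine ⟨fun c hc n => ?_⟩
          rw [mem_subgroupOf] at hc ⊢
          exact P179B.conj_mem_centralizer_of_mem_normalizer (hTN n.2) hc
        have h1 := ((centralizer (D : Set G)).subgroupOf T).pow_index_mem (⟨t, ht⟩ : T)
        rw [mem_subgroupOf] at h1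
        exact h1
      refine centralises_of_omega hab hD (hTN ht) hT htm fun x hx => ?_
      obtain ⟨y, hy, hyx⟩ := hdiv x hx.1 hx.2
      rw [← hyx]
      exact h y hy
    have h1 := P179H452.card_RegA p D hD habC T n hstar
    set e := (centralizer (D : Set G)).relIndex T with he
    set R := Nat.card {w : G // w ∈ D ∧ ∀ t ∈ T, t * w * t⁻¹ = w → t ∈ centralizer (D : Set G)}
      with hR
    have h2 := arith (p := p) (e := e) hp.out.one_le hr1 hrj h4 hnj hE
    have hD0 : 0 < Nat.card D := Nat.card_pos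
    have hP : 0 < p ^ n := pow_pos hp.out.pos _
    have hQ : 0 < p ^ (2 * j) := pow_pos hp.out.pos _
    have he0 : 1 ≤ e := by
      rw [Nat.one_le_iff_ne_zero]
      intro h0
      exact hT (by rw [h0]; exact dvd_zero p)
    obtain ⟨e', he'⟩ : ∃ e', e = e' + 1 := ⟨e - 1, by omega⟩
    rw [he'] at h1 h2 ⊢
    rw [Nat.add_sub_cancel] at h1
    set A := Nat.card D
    set P := p ^ n
    set Q := p ^ (2 * j)
    -- `P A ≤ P R + e' A`, `(e' + 1) (P + Q) ≤ P Q`, goal `(e' + 1) A < Q R`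
    by_contra hcon
    push Not at hcon
    have h3 : Q * (P * A) ≤ Q * (P * R + e' * A) := Nat.mul_le_mul_left _ h1
    have h4' : P * (Q * R) ≤ P * ((e' + 1) * A) := Nat.mul_le_mul_left _ hcon
    have h5 : (e' + 1) * (P + Q) * A ≤ P * Q * A := Nat.mul_le_mul_right _ h2
    have h6 : Q * (P * R + e' * A) = P * (Q * R) + Q * e' * A := by ring
    have h7 : P * ((e' + 1) * A) + Q * e' * A + Q * A = (e' + 1) * (P + Q) * A := by ring
    have h8 : 0 < Q * A := Nat.mul_pos hQ hD0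
    have h9 : Q * (P * A) = P * Q * A := by ring
    omega
  · rw [hY, hwo, hDcard, ← pow_succ, ← pow_add, ← pow_add]
    refine Nat.pow_le_pow_right hp.out.pos ?_
    obtain ⟨r', rfl⟩ : ∃ r', r = r' + 1 := ⟨r - 1, by omega⟩
    obtain ⟨t, rfl⟩ : ∃ t, n = j + t := ⟨n - j, by omega⟩
    rw [Nat.add_sub_cancel] at hnj
    rw [Nat.add_sub_cancel_left]
    nlinarith

end Main

end P179H92
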