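import Vale.Agent.P179.R2.H92.RegGen

/-!
# (R) in the form used by the final theorem
-/

namespace P179H92

open Subgroup P179H292

/-- **(R)**: abelian groups `D` of rank `r` whose cyclic factors have order at least `p ^ n`,
`r ≤ j ≤ n`, `r (r + 1) ≤ 4 j`, `j (r - 1) + 1 ≤ n`. -/
theorem exists_reg_mod {G : Type*} [Group G] [Finite G] {D T : Subgroup G} {p : ℕ}
    [hp : Fact p.Prime] (hD : IsPGroup p D)
    (hab : ∀ a ∈ D, ∀ b ∈ D, a * b = b * a) (hTN : T ≤ normalizer (D : Set G))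
    (hT : ¬ p ∣ (centralizer (D : Set G)).relIndex T) {r n j : ℕ} (hr1 : 1 ≤ r)
    (hr : Nat.card {x // x ∈ D ∧ x ^ p = 1} = p ^ r)
    (hdiv : ∀ x ∈ D, x ^ p = 1 → ∃ y ∈ D, y ^ p ^ (n - 1) = x)
    (hE : (centralizer (D : Set G)).relIndex T ≤ ∏ i ∈ Finset.range r, (p ^ (i + 1) - 1))
    (hrj : r ≤ j) (h4 : r * (r + 1) ≤ 4 * j) (hnj : j * (r - 1) + 1 ≤ n) (hjn : j ≤ n) :
    ∃ w ∈ D, (∀ i : ℕ, (∃ d ∈ D, w ^ i = d ^ p ^ j) → p ^ j ∣ i) ∧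
      (∀ t ∈ T, (∃ d ∈ D, t * w * t⁻¹ * w⁻¹ = d ^ p ^ j) → t ∈ centralizer (D : Set G)) ∧
      (centralizer (D : Set G)).relIndex T * Nat.card D < p ^ (2 * j) *
        Nat.card {w : G // w ∈ D ∧ ∀ t ∈ T, t * w * t⁻¹ = w → t ∈ centralizer (D : Set G)} ∧
      Nat.card D * p ≤ p ^ n * (Nat.card {y : G // ∃ d ∈ D, d ^ p ^ j = y} * p ^ j) := by
  have hc : r = 1 ∨ (r = 2 ∧ 3 ≤ n) ∨ 2 * j + 1 ≤ n := by
    by_cases h3 : 3 ≤ r
    · have h5 : j * 2 ≤ j * (r - 1) := Nat.mul_le_mul_left _ (by omega)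
      right; right
      omega
    · have h6 : r = 1 ∨ r = 2 := by omega
      rcases h6 with rfl | rfl
      · exact Or.inl rfl
      · exact Or.inr (Or.inl ⟨rfl, by omega⟩)
  obtain ⟨w, hw, h1, h2, h3, h4'⟩ :=
    exists_reg_gen hD hab hTN hT hr1 hr hdiv hE hrj h4 hjn hc
  refine ⟨w, hw, h2, h1, h3, ?_⟩
  rw [h4']
  have h5 : r * j + 1 ≤ n + j := by
    obtain ⟨r', rfl⟩ : ∃ r', r = r' + 1 := ⟨r - 1, by omega⟩
    rw [Nat.add_sub_cancel] at hnj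
    nlinarith
  have h6 : p ^ (r * j + 1) ≤ p ^ (n + j) := Nat.pow_le_pow_right hp.out.pos h5
  calc Nat.card {y : G // ∃ d ∈ D, d ^ p ^ j = y} * p ^ (r * j) * p
      = Nat.card {y : G // ∃ d ∈ D, d ^ p ^ j = y} * p ^ (r * j + 1) := by
        rw [mul_assoc, ← pow_succ]
    _ ≤ Nat.card {y : G // ∃ d ∈ D, d ^ p ^ j = y} * p ^ (n + j) := Nat.mul_le_mul_left _ h6
    _ = p ^ n * (Nat.card {y : G // ∃ d ∈ D, d ^ p ^ j = y} * p ^ j) := by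
        rw [pow_add]; ring

end P179H92
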